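import Vale.Agent.P084.ALocal

/-!
Sphere isometries from a space with a spear vector are linear (helper file for P084).
-/

namespace P084A

variable {X Y : Type*} [NormedAddCommGroup X] [NormedSpace ℝ X]
  [NormedAddCommGroup Y] [NormedSpace ℝ Y]

theorem M_T (T : X ≃ₗᵢ[ℝ] Y) (e v : X) : M (T e) (T v) = M e v := by
  unfold M
  rw [T.norm_map, ← map_smul, ← map_add, T.norm_map]

/-- Step 5: one comparison. -/
theorem SphIso.compare {F : X → Y} {G : Y → X} (h : SphIso F G) {e : X} (he : Spear e)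
    (T : X ≃ₗᵢ[ℝ] Y) (hTe : T e = F e) (hT : ∀ y, M e y = 1 → M e (-y) ≤ 0 → F y = T y)
    {x x1 v : X} (hx1 : ‖x‖ = 1) (hx : M e x = 1) (hTx : T x1 = F x)
    (hv : M e v + M e (-v) ≤ (1 + M e (-x)) / 2) :
    M e (x1 + v) = M e (x + v) ∧ M e (-(x1 + v)) = M e (-(x + v)) := by
  have he' := h.spear he
  have hMx1 : M e x1 = 1 := by rw [← M_T T, hTx, hTe, h.M_map he hx1, hx]
  have hMnx1 : M e (-x1) = M e (-x) := by
    rw [← M_T T, map_neg, hTx, hTe, h.M_neg_map he hx1]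
  have hw := he.M_neg_le_one hx1
  obtain ⟨c, hc⟩ : ∃ c : ℝ, c = 1 - M e (-v) := ⟨_, rfl⟩
  obtain ⟨y, hy⟩ : ∃ y : X, y = -v + c • e := ⟨_, rfl⟩
  have hMy : M e y = 1 := by rw [hy, he.M_add_smul, hc]; ring
  have hMny : M e (-y) = M e v + M e (-v) - 1 := by
    have : -y = v - c • e := by rw [hy]; abel
    rw [this, he.M_sub_smul, hc]; ring
  have hny0 : M e (-y) ≤ 0 := by linarith
  have hFy : F y = T y := hT y hMy hny0
  have hy1 : ‖y‖ = 1 := he.norm_one hMy (by linarith)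
  have s3 := h.M_sub he hx hx1 hMy hny0
  rw [hFy, ← hTx, ← map_sub, ← hTe, M_T] at s3
  have d1 : ‖x1 - y‖ = ‖x - y‖ := by
    rw [← h.dist _ _ hx1 hy1, hFy, ← hTx, ← map_sub, T.norm_map]
  have b1 : M e (-x) ≤ M e (y - x) + M e (-y) := by
    have := he.M_add_le (y - x) (-y)
    have h2 : y - x + -y = -x := by abel
    rwa [h2] at this
  have b2 : M e (x - y) ≤ M e x + M e (-y) := by
    have := he.M_add_le x (-y)
    rwa [← sub_eq_add_neg] at this
  have b3 : M e (-x1) ≤ M e (y - x1) + M e (-y) := by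
    have := he.M_add_le (y - x1) (-y)
    have h2 : y - x1 + -y = -x1 := by abel
    rwa [h2] at this
  have b4 : M e (x1 - y) ≤ M e x1 + M e (-y) := by
    have := he.M_add_le x1 (-y)
    rwa [← sub_eq_add_neg] at this
  have n1 : ‖x - y‖ = M e (y - x) := by
    rw [he.norm_eq, neg_sub]; apply max_eq_right; linarith
  have n2 : ‖x1 - y‖ = M e (y - x1) := by
    rw [he.norm_eq, neg_sub]; apply max_eq_right; linarith
  rw [n1, n2] at d1
  have f1 : x - y = (x + v) - c • e := by rw [hy]; abel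
  have f2 : x1 - y = (x1 + v) - c • e := by rw [hy]; abel
  have f3 : y - x = -(x + v) + c • e := by rw [hy]; abel
  have f4 : y - x1 = -(x1 + v) + c • e := by rw [hy]; abel
  rw [f1, f2, he.M_sub_smul, he.M_sub_smul] at s3
  rw [f3, f4, he.M_add_smul, he.M_add_smul] at d1
  constructor <;> linarith

/-- Step 5: `F = T` on the upper part. -/
theorem SphIso.eq_on_upper {F : X → Y} {G : Y → X} (h : SphIso F G) {e : X} (he : Spear e)
    (T : X ≃ₗᵢ[ℝ] Y) (hTe : T e = F e) (hT : ∀ y, M e y = 1 → M e (-y) ≤ 0 → F y = T y)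
    {x : X} (hx1 : ‖x‖ = 1) (hx : M e x = 1) : F x = T x := by
  obtain ⟨x1, hTx⟩ : ∃ x1, T x1 = F x := ⟨T.symm (F x), T.apply_symm_apply _⟩
  obtain ⟨d, hd⟩ : ∃ d : X, d = x1 - x := ⟨_, rfl⟩
  have hx1d : x1 = x + d := by rw [hd]; abel
  have step : ∀ s : ℝ, M e (x + s • d) = 1 → M e (-(x + s • d)) = M e (-x) →
      M e (x + (2 - s) • d) = M e (x + (-s) • d) ∧
      M e (-(x + (2 - s) • d)) = M e (-(x + (-s) • d)) := by
    intro s h1 h2
    have e1 : M e (-((1 / 2 : ℝ) • (x + s • d))) = 1 / 2 * M e (-x) := by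
      rw [← smul_neg, M_smul e (by norm_num), h2]
    have e2 : M e (-(-((1 / 2 : ℝ) • (x + s • d)))) = 1 / 2 * 1 := by
      rw [neg_neg, M_smul e (by norm_num), h1]
    have hc := h.compare he T hTe hT (v := -((1 / 2 : ℝ) • (x + s • d))) hx1 hx hTx
      (by rw [e1, e2]; linarith)
    have g1 : x + -((1 / 2 : ℝ) • (x + s • d)) = (1 / 2 : ℝ) • (x + (-s) • d) := by
      rw [smul_add, smul_add, smul_smul, smul_smul, mul_neg, neg_smul]
      nth_rewrite 1 [← half x]
      abel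
    have g2 : x1 + -((1 / 2 : ℝ) • (x + s • d)) = (1 / 2 : ℝ) • (x + (2 - s) • d) := by
      have hdd : (1 / 2 : ℝ) • ((2 - s) • d) = d - (1 / 2 : ℝ) • (s • d) := by
        rw [sub_smul, smul_sub, two_smul, smul_add, half]
      rw [smul_add (1 / 2 : ℝ) x ((2 - s) • d), hdd, smul_add, hx1d]
      nth_rewrite 1 [← half x]
      abel
    rw [g1, g2, M_smul e (by norm_num), M_smul e (by norm_num), ← smul_neg, ← smul_neg,
      M_smul e (by norm_num), M_smul e (by norm_num)] at hc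
    constructor <;> linarith [hc.1, hc.2]
  have ind : ∀ n : ℕ, (M e (x + (2 * (n : ℝ)) • d) = 1 ∧
      M e (-(x + (2 * (n : ℝ)) • d)) = M e (-x)) ∧
      (M e (x + (-(2 * (n : ℝ))) • d) = 1 ∧
      M e (-(x + (-(2 * (n : ℝ))) • d)) = M e (-x)) := by
    intro n
    induction n with
    | zero => simp [hx]
    | succ n ih =>
      obtain ⟨⟨p1, p2⟩, ⟨q1, q2⟩⟩ := ih
      have r := step _ q1 q2
      rw [neg_neg, p1, p2] at r
      have c1 : (2 - -(2 * (n : ℝ))) = 2 * ((n + 1 : ℕ) : ℝ) := by push_cast; ring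
      rw [c1] at r
      refine ⟨r, ?_⟩
      have r2 := step _ r.1 r.2
      have c2 : (2 - 2 * ((n + 1 : ℕ) : ℝ)) = -(2 * (n : ℝ)) := by push_cast; ring
      rw [c2, q1, q2] at r2
      exact ⟨r2.1.symm, r2.2.symm⟩
  have hbd : ∀ n : ℕ, ‖(2 * (n : ℝ)) • d‖ ≤ 2 := by
    intro n
    have h1 : ‖x + (2 * (n : ℝ)) • d‖ = 1 :=
      he.norm_one (ind n).1.1 (by rw [(ind n).1.2]; exact he.M_neg_le_one hx1)
    calc ‖(2 * (n : ℝ)) • d‖ = ‖(x + (2 * (n : ℝ)) • d) - x‖ := by congr 1; abel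
      _ ≤ ‖x + (2 * (n : ℝ)) • d‖ + ‖x‖ := norm_sub_le _ _
      _ = 2 := by rw [h1, hx1]; norm_num
  have hd0 : d = 0 := by
    by_contra hne
    have hpos : 0 < ‖d‖ := norm_pos_iff.2 hne
    obtain ⟨n, hn⟩ := exists_nat_gt (1 / ‖d‖)
    rw [div_lt_iff₀ hpos] at hn
    have h1 := hbd n
    rw [norm_smul, Real.norm_of_nonneg (by positivity)] at h1
    linarith
  rw [hd0, add_zero] at hx1d
  rw [← hTx, hx1d]

/-- Step 2, consequence: on the low part `F` is given by `T`. -/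
theorem SphIso.eq_on_low {F : X → Y} {G : Y → X} (h : SphIso F G) {e : X} (he : Spear e)
    (T : X ≃ₗᵢ[ℝ] Y) (hTe : T e = F e) (hT : ∀ y, M e y = 1 → M e (-y) ≤ 0 → F y = T y)
    {y : X} (hy : M e y = 1) (hy0 : M e (-y) ≤ 0) : F (-y) = T (-y) := by
  have h1 : M e (up e (-y)) = 1 := he.M_up _
  have h2 : M e (-(up e (-y))) = M e (-y) := by rw [he.M_neg_up, neg_neg, hy]; ring
  have hu1 : ‖up e (-y)‖ = 1 := he.norm_one h1 (by linarith)
  have h3 : dn e (up e (-y)) = -y := by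
    unfold dn; rw [h2]; unfold up; abel
  have h4 := h.map_dn he h1 (by rw [h2]; exact hy0)
  rw [h3] at h4
  rw [h4]
  unfold dn
  rw [h.M_neg_map he hu1, h2, hT _ h1 (by rw [h2]; exact hy0), ← hTe, ← map_smul, ← map_sub]
  congr 1
  unfold up; abel

/-- The antipodal conjugate of a sphere isometry. -/
theorem SphIso.conj {F : X → Y} {G : Y → X} (h : SphIso F G) :
    SphIso (fun x => -F (-x)) (fun y => -G (-y)) where
  norm_F := fun x hx => by rw [norm_neg]; exact h.norm_F _ (by rw [norm_neg]; exact hx)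
  norm_G := fun x hx => by rw [norm_neg]; exact h.norm_G _ (by rw [norm_neg]; exact hx)
  GF := fun x hx => by
    rw [neg_neg, h.GF _ (by rw [norm_neg]; exact hx), neg_neg]
  FG := fun x hx => by
    rw [neg_neg, h.FG _ (by rw [norm_neg]; exact hx), neg_neg]
  dist := fun x y hx hy => by
    have h1 : -F (-x) - -F (-y) = -(F (-x) - F (-y)) := by abel
    have h2 : x - y = -(-x - -y) := by abel
    rw [h1, norm_neg, h.dist _ _ (by rw [norm_neg]; exact hx) (by rw [norm_neg]; exact hy), h2,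
      norm_neg]

/-- Main theorem in function form. -/
theorem SphIso.linear {F : X → Y} {G : Y → X} (h : SphIso F G) {e : X} (he : Spear e) :
    ∃ T : X ≃ₗᵢ[ℝ] Y, ∀ x, ‖x‖ = 1 → F x = T x := by
  obtain ⟨T, hTe, hT⟩ := h.exists_T he
  refine ⟨T, fun x hx => ?_⟩
  rcases he.cases hx with h1 | h1
  · exact h.eq_on_upper he T hTe hT hx h1
  · have hne : F (-e) = -F e := h.map_neg_spear he
    have h2 := h.conj.eq_on_upper he T (by simp only [hne, neg_neg]; exact hTe)
      (fun y hy hy0 => by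
        simp only [h.eq_on_low he T hTe hT hy hy0, map_neg, neg_neg])
      (x := -x) (by rw [norm_neg]; exact hx) h1
    simp only [neg_neg, map_neg] at h2
    exact neg_injective h2

end P084A
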