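import Vale.Agent.P084.ASphere

/-!
Local Mazur-Ulam argument (Väisälä's doubling trick) and the linear map attached to a
sphere isometry (helper file for P084).
-/

namespace P084A

/-- `F`, `G` are mutually inverse isometries between the sets `K` and `K'`. -/
structure SetIso {E E' : Type*} [NormedAddCommGroup E] [NormedAddCommGroup E']
    (K : Set E) (K' : Set E') (F : E → E') (G : E' → E) : Prop where
  mF : ∀ x ∈ K, F x ∈ K'
  mG : ∀ y ∈ K', G y ∈ K
  GF : ∀ x ∈ K, G (F x) = x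
  FG : ∀ y ∈ K', F (G y) = y
  dist : ∀ x ∈ K, ∀ y ∈ K, ‖F x - F y‖ = ‖x - y‖

section

variable {E E' E'' : Type*} [NormedAddCommGroup E] [NormedAddCommGroup E']
  [NormedAddCommGroup E'']

theorem SetIso.symm {K : Set E} {K' : Set E'} {F : E → E'} {G : E' → E}
    (h : SetIso K K' F G) : SetIso K' K G F where
  mF := h.mG
  mG := h.mF
  GF := h.FG
  FG := h.GF
  dist := by
    intro x hx y hy
    rw [← h.dist _ (h.mG x hx) _ (h.mG y hy), h.FG x hx, h.FG y hy]

theorem SetIso.comp {K : Set E} {K' : Set E'} {K'' : Set E''} {F : E → E'} {G : E' → E}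
    {F' : E' → E''} {G' : E'' → E'} (h : SetIso K K' F G) (h' : SetIso K' K'' F' G') :
    SetIso K K'' (fun x => F' (F x)) (fun y => G (G' y)) where
  mF := fun x hx => h'.mF _ (h.mF x hx)
  mG := fun y hy => h.mG _ (h'.mG y hy)
  GF := fun x hx => by simp only [h'.GF _ (h.mF x hx), h.GF x hx]
  FG := fun y hy => by simp only [h.FG _ (h'.mG y hy), h'.FG y hy]
  dist := fun x hx y hy => by rw [h'.dist _ (h.mF x hx) _ (h.mF y hy), h.dist x hx y hy]

/-- the point reflection -/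
theorem SetIso.refl_pt {K : Set E} (c : E) (hs : ∀ z ∈ K, c + c - z ∈ K) :
    SetIso K K (fun z => c + c - z) (fun z => c + c - z) where
  mF := hs
  mG := hs
  GF := fun x _ => by abel
  FG := fun x _ => by abel
  dist := fun x _ y _ => by
    rw [← norm_neg]; congr 1; abel

theorem double_norm {E : Type*} [NormedAddCommGroup E] [NormedSpace ℝ E] (x : E) :
    ‖x + x‖ = 2 * ‖x‖ := by
  rw [← two_smul ℝ x, norm_smul]; norm_num

theorem center_fixed {E : Type*} [NormedAddCommGroup E] [NormedSpace ℝ E] {K : Set E} {C : ℝ}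
    (hb : ∀ z ∈ K, ‖z‖ ≤ C) {c : E} (hc : c ∈ K)
    (hs : ∀ z ∈ K, c + c - z ∈ K) {g g' : E → E} (hg : SetIso K K g g') : g c = c := by
  by_contra hne
  have hpos : 0 < ‖g c - c‖ := norm_pos_iff.2 (sub_ne_zero.2 hne)
  have key : ∀ n : ℕ, ∃ k k' : E → E, SetIso K K k k' ∧ 2 ^ n * ‖g c - c‖ ≤ ‖k c - c‖ := by
    intro n
    induction n with
    | zero => exact ⟨g, g', hg, by simp⟩
    | succ n ih =>
      obtain ⟨k, k', hk, hle⟩ := ih
      have hR := SetIso.refl_pt c hs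
      refine ⟨_, _, (((hk.comp hR).comp hk.symm).comp hR), ?_⟩
      have hkc := hk.mF c hc
      have e1 : ‖c + c - k' (c + c - k c) - c‖ = 2 * ‖k c - c‖ := by
        have e2 : c + c - k' (c + c - k c) - c = k' (k c) - k' (c + c - k c) := by
          rw [hk.GF c hc]; abel
        rw [e2, hk.symm.dist _ hkc _ (hs _ hkc), ← double_norm]
        congr 1; abel
      simp only [e1]
      rw [pow_succ]
      linarith
  obtain ⟨n, hn⟩ := pow_unbounded_of_one_lt (2 * C / ‖g c - c‖) (one_lt_two)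
  obtain ⟨k, k', hk, hle⟩ := key n
  rw [div_lt_iff₀ hpos] at hn
  have h1 := hb _ (hk.mF c hc)
  have h2 := hb _ hc
  have h3 : ‖k c - c‖ ≤ ‖k c‖ + ‖c‖ := norm_sub_le _ _
  linarith

theorem center_map {E E' : Type*} [NormedAddCommGroup E] [NormedSpace ℝ E]
    [NormedAddCommGroup E'] [NormedSpace ℝ E'] {K : Set E} {K' : Set E'} {C : ℝ}
    (hb : ∀ z ∈ K, ‖z‖ ≤ C) {c : E} {c' : E'} (hc : c ∈ K)
    (hs : ∀ z ∈ K, c + c - z ∈ K) (hs' : ∀ z ∈ K', c' + c' - z ∈ K') {F : E → E'} {G : E' → E}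
    (h : SetIso K K' F G) : F c = c' := by
  have hR := SetIso.refl_pt c hs
  have hR' := SetIso.refl_pt c' hs'
  have h1 := center_fixed hb hc hs (((h.comp hR').comp h.symm).comp hR)
  have hFc := h.mF c hc
  have h2 : G (c' + c' - F c) = c := by
    have := sub_eq_iff_eq_add.1 h1
    exact (add_left_cancel this).symm
  have h3 : c' + c' - F c = F c := by
    have := h.FG _ (hs' _ hFc)
    rw [h2] at this
    exact this.symm
  have h4 : (2:ℝ) • (F c) = (2:ℝ) • c' := by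
    rw [two_smul, two_smul]
    nth_rewrite 1 [← h3]
    abel
  exact smul_right_injective E' (two_ne_zero' ℝ) h4

end

variable {X Y : Type*} [NormedAddCommGroup X] [NormedSpace ℝ X]
  [NormedAddCommGroup Y] [NormedSpace ℝ Y]

/-- The local map. -/
noncomputable def T1 (F : X → Y) (e x : X) : Y := F (up e x) - (1 - M e x) • F e

theorem Spear.up_low {e : X} (he : Spear e) {x : X} (hx : M e x + M e (-x) ≤ 1) :
    M e (-(up e x)) ≤ 0 := by rw [he.M_neg_up]; linarith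

theorem Spear.norm_up {e : X} (he : Spear e) {x : X} (hx : M e x + M e (-x) ≤ 1) :
    ‖up e x‖ = 1 := he.norm_one (he.M_up x) (by have := he.up_low hx; linarith)

theorem SphIso.T1_M {F : X → Y} {G : Y → X} (h : SphIso F G) {e : X} (he : Spear e)
    {x y : X} (hx : M e x + M e (-x) ≤ 1) (hy : M e y + M e (-y) ≤ 1) :
    M (F e) (T1 F e x - T1 F e y) = M e (x - y) := by
  have he' := h.spear he
  have e1 : T1 F e x - T1 F e y = (F (up e x) - F (up e y)) + (M e x - M e y) • F e := by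
    unfold T1; rw [sub_smul, sub_smul, sub_smul]; abel
  have e2 : up e x - up e y = (x - y) + (M e y - M e x) • e := by
    unfold up; rw [sub_smul, sub_smul, sub_smul]; abel
  rw [e1, he'.M_add_smul, h.M_sub he (he.M_up x) (he.norm_up hx) (he.M_up y) (he.up_low hy),
    e2, he.M_add_smul]
  ring

theorem SphIso.T1_dist {F : X → Y} {G : Y → X} (h : SphIso F G) {e : X} (he : Spear e)
    {x y : X} (hx : M e x + M e (-x) ≤ 1) (hy : M e y + M e (-y) ≤ 1) :
    ‖T1 F e x - T1 F e y‖ = ‖x - y‖ := by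
  rw [(h.spear he).norm_eq, he.norm_eq (x - y), neg_sub, neg_sub, h.T1_M he hx hy,
    h.T1_M he hy hx]

theorem SphIso.M_T1 {F : X → Y} {G : Y → X} (h : SphIso F G) {e : X} (he : Spear e)
    {x : X} (hx : M e x + M e (-x) ≤ 1) : M (F e) (T1 F e x) = M e x := by
  unfold T1
  rw [(h.spear he).M_sub_smul, h.M_map he (he.norm_up hx), he.M_up]; ring

theorem SphIso.M_neg_T1 {F : X → Y} {G : Y → X} (h : SphIso F G) {e : X} (he : Spear e)
    {x : X} (hx : M e x + M e (-x) ≤ 1) : M (F e) (-(T1 F e x)) = M e (-x) := by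
  unfold T1
  have : -(F (up e x) - (1 - M e x) • F e) = -(F (up e x)) + (1 - M e x) • F e := by abel
  rw [this, (h.spear he).M_add_smul, h.M_neg_map he (he.norm_up hx), he.M_neg_up]; ring

theorem SphIso.T1_inv {F : X → Y} {G : Y → X} (h : SphIso F G) {e : X} (he : Spear e)
    {x : X} (hx : M e x + M e (-x) ≤ 1) : T1 G (F e) (T1 F e x) = x := by
  have h1 : up (F e) (T1 F e x) = F (up e x) := by
    unfold up; rw [h.M_T1 he hx]; unfold T1 up; abel
  have h2 : T1 G (F e) (T1 F e x)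
      = G (up (F e) (T1 F e x)) - (1 - M (F e) (T1 F e x)) • G (F e) := rfl
  rw [h2, h1, h.M_T1 he hx, h.GF _ (he.norm_up hx), h.GF e he.1]
  unfold up; abel

theorem SphIso.T1_inv' {F : X → Y} {G : Y → X} (h : SphIso F G) {e : X} (he : Spear e)
    {y : Y} (hy : M (F e) y + M (F e) (-y) ≤ 1) : T1 F e (T1 G (F e) y) = y := by
  have := h.symm.T1_inv (h.spear he) hy
  rwa [h.GF e he.1] at this

theorem Spear.T1_add {F : X → Y} {e : X} (he : Spear e) (x : X) (c : ℝ) :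
    T1 F e (x + c • e) = T1 F e x + c • F e := by
  have h1 : up e (x + c • e) = up e x := by
    unfold up; rw [he.M_add_smul, sub_add_eq_sub_sub, sub_smul _ c]; abel
  unfold T1
  rw [h1, he.M_add_smul, sub_add_eq_sub_sub, sub_smul _ c]; abel

theorem T1_zero (F : X → Y) (e : X) : T1 F e 0 = 0 := by
  simp [T1, up, M_zero]

theorem Spear.osc_le {e : X} (he : Spear e) (x : X) : M e x + M e (-x) ≤ 2 * ‖x‖ := by
  have h1 := he.M_le x
  have h2 := he.M_le (-x)
  rw [norm_neg] at h2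
  linarith

theorem SphIso.T1_norm {F : X → Y} {G : Y → X} (h : SphIso F G) {e : X} (he : Spear e)
    {x : X} (hx : M e x + M e (-x) ≤ 1) : ‖T1 F e x‖ = ‖x‖ := by
  have := h.T1_dist he (x := x) (y := 0) hx (by rw [neg_zero, M_zero]; norm_num)
  rwa [T1_zero, sub_zero, sub_zero] at this

theorem half {Z : Type*} [NormedAddCommGroup Z] [NormedSpace ℝ Z] (z : Z) :
    (1 / 2 : ℝ) • z + (1 / 2 : ℝ) • z = z := by
  rw [← add_smul]; norm_num

/-- midpoint preservation -/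
theorem SphIso.T1_half {F : X → Y} {G : Y → X} (h : SphIso F G) {e : X} (he : Spear e)
    {x : X} (hx : ‖x‖ ≤ 1 / 2) : T1 F e ((1 / 2 : ℝ) • x) = (1 / 2 : ℝ) • T1 F e x := by
  have he' := h.spear he
  have hxD : M e x + M e (-x) ≤ 1 := by have := he.osc_le x; linarith
  have hTx : ‖T1 F e x‖ = ‖x‖ := h.T1_norm he hxD
  have hiso : SetIso {z : X | ‖z‖ ≤ ‖x‖ / 2 ∧ ‖z - x‖ ≤ ‖x‖ / 2}
      {z : Y | ‖z‖ ≤ ‖x‖ / 2 ∧ ‖z - T1 F e x‖ ≤ ‖x‖ / 2} (T1 F e) (T1 G (F e)) := by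
    refine ⟨?_, ?_, ?_, ?_, ?_⟩
    · rintro z ⟨hz1, hz2⟩
      have hzD : M e z + M e (-z) ≤ 1 := by have := he.osc_le z; linarith
      exact ⟨by rw [h.T1_norm he hzD]; exact hz1, by rw [h.T1_dist he hzD hxD]; exact hz2⟩
    · rintro z ⟨hz1, hz2⟩
      have hzD : M (F e) z + M (F e) (-z) ≤ 1 := by have := he'.osc_le z; linarith
      have hTxD : M (F e) (T1 F e x) + M (F e) (-(T1 F e x)) ≤ 1 := by
        rw [h.M_T1 he hxD, h.M_neg_T1 he hxD]; exact hxD
      refine ⟨by rw [h.symm.T1_norm he' hzD]; exact hz1, ?_⟩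
      have h1 := h.symm.T1_dist he' hzD hTxD
      rw [h.T1_inv he hxD] at h1
      rw [h1]; exact hz2
    · rintro z ⟨hz1, _⟩
      exact h.T1_inv he (by have := he.osc_le z; linarith)
    · rintro z ⟨hz1, _⟩
      exact h.T1_inv' he (by have := he'.osc_le z; linarith)
    · rintro z ⟨hz1, _⟩ w ⟨hw1, _⟩
      exact h.T1_dist he (by have := he.osc_le z; linarith) (by have := he.osc_le w; linarith)
  refine center_map (C := ‖x‖ / 2) (fun z hz => hz.1) (c := (1 / 2 : ℝ) • x)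
    (c' := (1 / 2 : ℝ) • T1 F e x) ?_ ?_ ?_ hiso
  · constructor
    · rw [norm_smul, Real.norm_of_nonneg (by norm_num)]; linarith
    · have : (1 / 2 : ℝ) • x - x = -((1 / 2 : ℝ) • x) := by
        nth_rewrite 2 [← half x]; abel
      rw [this, norm_neg, norm_smul, Real.norm_of_nonneg (by norm_num)]; linarith
  · rintro z ⟨hz1, hz2⟩
    rw [half x]
    exact ⟨by rw [norm_sub_rev]; exact hz2, by
      have : x - z - x = -z := by abel
      rw [this, norm_neg]; exact hz1⟩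
  · rintro z ⟨hz1, hz2⟩
    rw [half (T1 F e x)]
    exact ⟨by rw [norm_sub_rev]; exact hz2, by
      have : T1 F e x - z - T1 F e x = -z := by abel
      rw [this, norm_neg]; exact hz1⟩

/-- The scaled map. -/
noncomputable def Tn (F : X → Y) (e : X) (n : ℕ) (x : X) : Y :=
  (2 ^ n : ℝ) • T1 F e ((2 ^ n : ℝ)⁻¹ • x)

theorem scale_norm {x : X} {n : ℕ} (hn : 2 * ‖x‖ ≤ 2 ^ n) :
    ‖((2 ^ n : ℝ)⁻¹ • x)‖ ≤ 1 / 2 := by
  have h2 : (0:ℝ) < 2 ^ n := by positivity
  rw [norm_smul, norm_inv, Real.norm_of_nonneg h2.le, inv_mul_le_iff₀ h2]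
  linarith

theorem SphIso.Tn_succ {F : X → Y} {G : Y → X} (h : SphIso F G) {e : X} (he : Spear e)
    {x : X} {n : ℕ} (hn : 2 * ‖x‖ ≤ 2 ^ n) : Tn F e (n + 1) x = Tn F e n x := by
  unfold Tn
  have h1 : ((2 ^ (n + 1) : ℝ)⁻¹ • x) = (1 / 2 : ℝ) • ((2 ^ n : ℝ)⁻¹ • x) := by
    rw [smul_smul, pow_succ, mul_inv]; congr 1; ring
  rw [h1, h.T1_half he (scale_norm hn), smul_smul, pow_succ]
  congr 1; ring

theorem SphIso.Tn_le {F : X → Y} {G : Y → X} (h : SphIso F G) {e : X} (he : Spear e)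
    {x : X} {n m : ℕ} (hn : 2 * ‖x‖ ≤ 2 ^ n) (hnm : n ≤ m) : Tn F e m x = Tn F e n x := by
  induction m, hnm using Nat.le_induction with
  | base => rfl
  | succ m hm ih =>
    rw [h.Tn_succ he, ih]
    exact hn.trans (pow_le_pow_right₀ (by norm_num) hm)

/-- The global map. -/
noncomputable def Tg (F : X → Y) (e : X) (x : X) : Y := Tn F e (⌈2 * ‖x‖⌉₊) x

theorem le_ceil_pow (r : ℝ) : r ≤ 2 ^ (⌈r⌉₊) := by
  have h1 : r ≤ (⌈r⌉₊ : ℝ) := Nat.le_ceil r
  have h2 : ((⌈r⌉₊ : ℕ) : ℝ) ≤ ((2 ^ ⌈r⌉₊ : ℕ) : ℝ) := by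
    exact_mod_cast (Nat.lt_two_pow_self).le
  push_cast at h2
  linarith

theorem SphIso.Tg_eq {F : X → Y} {G : Y → X} (h : SphIso F G) {e : X} (he : Spear e)
    {x : X} {n : ℕ} (hn : 2 * ‖x‖ ≤ 2 ^ n) : Tg F e x = Tn F e n x := by
  unfold Tg
  rcases le_total n (⌈2 * ‖x‖⌉₊) with h1 | h1
  · exact h.Tn_le he hn h1
  · exact (h.Tn_le he (le_ceil_pow _) h1).symm

theorem SphIso.Tg_dist {F : X → Y} {G : Y → X} (h : SphIso F G) {e : X} (he : Spear e)
    (x y : X) : ‖Tg F e x - Tg F e y‖ = ‖x - y‖ := by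
  obtain ⟨n, hn⟩ : ∃ n : ℕ, n = max (⌈2 * ‖x‖⌉₊) (⌈2 * ‖y‖⌉₊) := ⟨_, rfl⟩
  have hx : 2 * ‖x‖ ≤ 2 ^ n := (le_ceil_pow _).trans
    (pow_le_pow_right₀ (by norm_num) (by rw [hn]; exact le_max_left _ _))
  have hy : 2 * ‖y‖ ≤ 2 ^ n := (le_ceil_pow _).trans
    (pow_le_pow_right₀ (by norm_num) (by rw [hn]; exact le_max_right _ _))
  have h2 : (0:ℝ) < 2 ^ n := by positivity
  have hxs := scale_norm hx
  have hys := scale_norm hy
  rw [h.Tg_eq he hx, h.Tg_eq he hy]
  unfold Tn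
  rw [← smul_sub, norm_smul, h.T1_dist he (by have := he.osc_le ((2 ^ n : ℝ)⁻¹ • x); linarith)
    (by have := he.osc_le ((2 ^ n : ℝ)⁻¹ • y); linarith), ← smul_sub, norm_smul, norm_inv,
    Real.norm_of_nonneg h2.le, ← mul_assoc, mul_inv_cancel₀ h2.ne', one_mul]

theorem SphIso.Tg_inv {F : X → Y} {G : Y → X} (h : SphIso F G) {e : X} (he : Spear e)
    (x : X) : Tg G (F e) (Tg F e x) = x := by
  obtain ⟨n, hn⟩ : ∃ n : ℕ, n = ⌈2 * ‖x‖⌉₊ := ⟨_, rfl⟩
  have hx : 2 * ‖x‖ ≤ 2 ^ n := by rw [hn]; exact le_ceil_pow _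
  have h2 : (2 ^ n : ℝ) ≠ 0 := by positivity
  have hxs := scale_norm hx
  have hxD : M e ((2 ^ n : ℝ)⁻¹ • x) + M e (-((2 ^ n : ℝ)⁻¹ • x)) ≤ 1 := by
    have := he.osc_le ((2 ^ n : ℝ)⁻¹ • x); linarith
  have h0 : Tg F e 0 = 0 := by
    rw [h.Tg_eq he (n := 0) (by simp)]
    unfold Tn
    rw [smul_zero, T1_zero, smul_zero]
  have hnorm : ‖Tg F e x‖ = ‖x‖ := by
    have := h.Tg_dist he x 0
    rwa [h0, sub_zero, sub_zero] at this
  rw [h.symm.Tg_eq (h.spear he) (n := n) (by rw [hnorm]; exact hx), h.Tg_eq he hx]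
  unfold Tn
  rw [smul_smul, inv_mul_cancel₀ h2, one_smul, h.T1_inv he hxD, smul_smul,
    mul_inv_cancel₀ h2, one_smul]

/-- Step 4: the linear isometry. -/
theorem SphIso.exists_T {F : X → Y} {G : Y → X} (h : SphIso F G) {e : X} (he : Spear e) :
    ∃ T : X ≃ₗᵢ[ℝ] Y, T e = F e ∧ ∀ y, M e y = 1 → M e (-y) ≤ 0 → F y = T y := by
  have he' := h.spear he
  have hinv' : ∀ y : Y, Tg F e (Tg G (F e) y) = y := by
    intro y
    have := h.symm.Tg_inv he' y
    rwa [h.GF e he.1] at this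
  have h0 : Tg F e 0 = 0 := by
    rw [h.Tg_eq he (n := 0) (by simp)]
    unfold Tn
    rw [smul_zero, T1_zero, smul_zero]
  let Φ : X ≃ᵢ Y :=
    { toFun := Tg F e
      invFun := Tg G (F e)
      left_inv := h.Tg_inv he
      right_inv := hinv'
      isometry_toFun := Isometry.of_dist_eq (fun x y => by
        rw [dist_eq_norm, dist_eq_norm, h.Tg_dist he]) }
  have hΦ0 : Φ 0 = 0 := h0
  refine ⟨Φ.toRealLinearIsometryEquivOfMapZero hΦ0, ?_, ?_⟩
  · change Tg F e e = F e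
    rw [h.Tg_eq he (n := 1) (by rw [he.1]; norm_num)]
    unfold Tn
    have := he.T1_add (F := F) 0 ((2 ^ 1 : ℝ)⁻¹)
    rw [zero_add, T1_zero, zero_add] at this
    rw [this, smul_smul]; norm_num
  · intro y hy hy0
    change F y = Tg F e y
    have hTe : (Φ.toRealLinearIsometryEquivOfMapZero hΦ0) e = F e := by
      change Tg F e e = F e
      rw [h.Tg_eq he (n := 1) (by rw [he.1]; norm_num)]
      unfold Tn
      have := he.T1_add (F := F) 0 ((2 ^ 1 : ℝ)⁻¹)
      rw [zero_add, T1_zero, zero_add] at this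
      rw [this, smul_smul]; norm_num
    obtain ⟨c, hc⟩ : ∃ c : ℝ, c = (1 - M e (-y)) / 2 := ⟨_, rfl⟩
    obtain ⟨z, hz⟩ : ∃ z : X, z = y - c • e := ⟨_, rfl⟩
    have hyz : y = z + c • e := by rw [hz]; abel
    have hMz : M e z = 1 - c := by rw [hz, he.M_sub_smul, hy]
    have hMnz : M e (-z) = M e (-y) + c := by
      have : -z = -y + c • e := by rw [hz]; abel
      rw [this, he.M_add_smul]
    have hzn : ‖z‖ ≤ 1 / 2 := by
      rw [he.norm_eq, hMz, hMnz]
      apply max_le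
      · rw [hc]; linarith
      · rw [hc]; linarith
    have h1 : F y = T1 F e y := by
      unfold T1; rw [Spear.up_of_M hy, hy]; simp
    have h2 : Tg F e z = T1 F e z := by
      rw [h.Tg_eq he (n := 0) (by linarith)]
      unfold Tn; simp
    have h3 : Tg F e y = Tg F e z + c • F e := by
      have e1 : (Φ.toRealLinearIsometryEquivOfMapZero hΦ0) y
          = (Φ.toRealLinearIsometryEquivOfMapZero hΦ0) z
            + c • (Φ.toRealLinearIsometryEquivOfMapZero hΦ0) e := by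
        rw [hyz, map_add, map_smul]
      rw [hTe] at e1
      exact e1
    rw [h1, h3, h2]
    conv_lhs => rw [hyz]
    rw [he.T1_add]

end P084A
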