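import Mathlib

/-!
Spear vectors and the associated order-unit functional (helper file for P084).
-/

namespace P084A

variable {X : Type*} [NormedAddCommGroup X] [NormedSpace ℝ X]

/-- `e` is a spear vector: a unit vector at distance `2` from `x` or from `-x`,
for every unit vector `x`. -/
def Spear (e : X) : Prop := ‖e‖ = 1 ∧ ∀ x : X, ‖x‖ = 1 → ‖x + e‖ = 2 ∨ ‖x - e‖ = 2

/-- The upper order-unit functional. -/
noncomputable def M (e x : X) : ℝ := ‖x + ‖x‖ • e‖ - ‖x‖

theorem add_of_two {u v : X} (hu : ‖u‖ = 1) (hv : ‖v‖ = 1) (h : ‖u + v‖ = 2) {a b : ℝ}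
    (ha : 0 ≤ a) (hb : 0 ≤ b) : ‖a • u + b • v‖ = a + b := by
  apply le_antisymm
  · calc ‖a • u + b • v‖ ≤ ‖a • u‖ + ‖b • v‖ := norm_add_le _ _
      _ = a + b := by rw [norm_smul, norm_smul, hu, hv, Real.norm_of_nonneg ha,
          Real.norm_of_nonneg hb]; ring
  · rcases le_total a b with hab | hab
    · have h1 : b • (u + v) = (a • u + b • v) + (b - a) • u := by
        rw [sub_smul, smul_add]; abel
      have h2 : ‖b • (u + v)‖ ≤ ‖a • u + b • v‖ + ‖(b - a) • u‖ := by
        rw [h1]; exact norm_add_le _ _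
      rw [norm_smul, norm_smul, h, hu, Real.norm_of_nonneg hb,
        Real.norm_of_nonneg (sub_nonneg.2 hab)] at h2
      linarith
    · have h1 : a • (u + v) = (a • u + b • v) + (a - b) • v := by
        rw [sub_smul, smul_add]; abel
      have h2 : ‖a • (u + v)‖ ≤ ‖a • u + b • v‖ + ‖(a - b) • v‖ := by
        rw [h1]; exact norm_add_le _ _
      rw [norm_smul, norm_smul, h, hv, Real.norm_of_nonneg ha,
        Real.norm_of_nonneg (sub_nonneg.2 hab)] at h2
      linarith

/-- the dichotomy for arbitrary vectors -/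
theorem Spear.dich {e : X} (he : Spear e) (y : X) :
    (∀ s : ℝ, 0 ≤ s → ‖y + s • e‖ = ‖y‖ + s) ∨ (∀ s : ℝ, 0 ≤ s → ‖y - s • e‖ = ‖y‖ + s) := by
  by_cases hy : y = 0
  · left
    intro s hs
    rw [hy, zero_add, norm_smul, he.1, norm_zero, Real.norm_of_nonneg hs]; ring
  · have hn : ‖y‖ ≠ 0 := norm_ne_zero_iff.2 hy
    have hu : ‖(‖y‖⁻¹ • y)‖ = 1 := by rw [norm_smul, norm_inv, norm_norm, inv_mul_cancel₀ hn]
    have hyy : ‖y‖ • (‖y‖⁻¹ • y) = y := by rw [smul_smul, mul_inv_cancel₀ hn, one_smul]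
    rcases he.2 _ hu with h | h
    · left
      intro s hs
      have := add_of_two hu he.1 h (norm_nonneg y) hs
      rwa [hyy] at this
    · right
      intro s hs
      have h' : ‖(‖y‖⁻¹ • y) + (-e)‖ = 2 := by rwa [← sub_eq_add_neg]
      have := add_of_two hu (by rw [norm_neg]; exact he.1) h' (norm_nonneg y) hs
      rwa [hyy, smul_neg, ← sub_eq_add_neg] at this

theorem Spear.norm_add_smul {e : X} (he : Spear e) {x : X} {t : ℝ} (ht : ‖x‖ ≤ t) :
    ‖x + t • e‖ = t + M e x := by
  unfold M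
  have hx : x + t • e = (x + ‖x‖ • e) + (t - ‖x‖) • e := by rw [sub_smul]; abel
  have hs : 0 ≤ t - ‖x‖ := sub_nonneg.2 ht
  rcases he.dich (x + ‖x‖ • e) with h | h
  · rw [hx, h _ hs]; ring
  · have h1 := h ‖x‖ (norm_nonneg x)
    rw [add_sub_cancel_right] at h1
    have h0 : ‖x + ‖x‖ • e‖ = 0 := by linarith
    rw [hx, norm_eq_zero.1 h0, zero_add, norm_smul, he.1, norm_zero, Real.norm_of_nonneg hs]
    ring

theorem M_unit (e : X) {x : X} (hx : ‖x‖ = 1) : M e x = ‖x + e‖ - 1 := by
  unfold M; rw [hx, one_smul]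

theorem M_smul (e : X) {c : ℝ} (hc : 0 ≤ c) (x : X) : M e (c • x) = c * M e x := by
  unfold M
  rw [norm_smul, Real.norm_of_nonneg hc, mul_smul, ← smul_add, norm_smul,
    Real.norm_of_nonneg hc]
  ring

theorem M_zero (e : X) : M e 0 = 0 := by simp [M]

theorem Spear.M_le {e : X} (he : Spear e) (x : X) : M e x ≤ ‖x‖ := by
  unfold M
  have : ‖x + ‖x‖ • e‖ ≤ ‖x‖ + ‖‖x‖ • e‖ := norm_add_le _ _
  rw [norm_smul, he.1, Real.norm_of_nonneg (norm_nonneg x)] at this
  linarith

theorem Spear.M_add_le {e : X} (he : Spear e) (x y : X) : M e (x + y) ≤ M e x + M e y := by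
  have h1 := he.norm_add_smul (x := x + y) (t := ‖x‖ + ‖y‖) (norm_add_le _ _)
  have h2 := he.norm_add_smul (x := x) (t := ‖x‖) le_rfl
  have h3 := he.norm_add_smul (x := y) (t := ‖y‖) le_rfl
  have h4 : ‖(x + y) + (‖x‖ + ‖y‖) • e‖ ≤ ‖x + ‖x‖ • e‖ + ‖y + ‖y‖ • e‖ := by
    have : (x + y) + (‖x‖ + ‖y‖) • e = (x + ‖x‖ • e) + (y + ‖y‖ • e) := by
      rw [add_smul]; abel
    rw [this]; exact norm_add_le _ _
  linarith

theorem Spear.M_add_smul {e : X} (he : Spear e) (x : X) (c : ℝ) :
    M e (x + c • e) = M e x + c := by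
  have h1 := he.norm_add_smul (x := x + c • e) (t := ‖x‖ + ‖x + c • e‖ + |c|)
    (by have := norm_nonneg x; have := abs_nonneg c; linarith)
  have h2 := he.norm_add_smul (x := x) (t := c + (‖x‖ + ‖x + c • e‖ + |c|))
    (by have := norm_nonneg (x + c • e); have := neg_abs_le c; linarith)
  have h3 : (x + c • e) + (‖x‖ + ‖x + c • e‖ + |c|) • e
      = x + (c + (‖x‖ + ‖x + c • e‖ + |c|)) • e := by
    rw [add_smul c]; abel
  rw [h3, h2] at h1
  linarith

theorem Spear.M_sub_smul {e : X} (he : Spear e) (x : X) (c : ℝ) :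
    M e (x - c • e) = M e x - c := by
  have := he.M_add_smul x (-c)
  rw [neg_smul, ← sub_eq_add_neg] at this
  rw [this]; ring

theorem Spear.norm_eq {e : X} (he : Spear e) (x : X) : ‖x‖ = max (M e x) (M e (-x)) := by
  apply le_antisymm
  · by_cases hx : x = 0
    · rw [hx]; simp [M_zero]
    · have hn : 0 < ‖x‖ := norm_pos_iff.2 hx
      rcases he.dich x with h | h
      · apply le_max_of_le_left
        have := h ‖x‖ hn.le
        have h2 := he.norm_add_smul (x := x) (t := ‖x‖) le_rfl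
        linarith
      · apply le_max_of_le_right
        have := h ‖x‖ hn.le
        have h2 := he.norm_add_smul (x := -x) (t := ‖x‖) (by rw [norm_neg])
        have h3 : ‖-x + ‖x‖ • e‖ = ‖x - ‖x‖ • e‖ := by
          rw [← norm_neg]; congr 1; abel
        linarith
  · apply max_le (he.M_le x)
    have := he.M_le (-x)
    rwa [norm_neg] at this

theorem Spear.neg_M_le {e : X} (he : Spear e) (x : X) : - M e (-x) ≤ M e x := by
  have := he.M_add_le x (-x)
  rw [add_neg_cancel, M_zero] at this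
  linarith

/-- order antisymmetry -/
theorem Spear.antisymm {e : X} (he : Spear e) {x y : X} (h1 : M e (x - y) ≤ 0)
    (h2 : M e (y - x) ≤ 0) : x = y := by
  have h := he.norm_eq (x - y)
  rw [neg_sub] at h
  have : ‖x - y‖ ≤ 0 := by rw [h]; exact max_le h1 h2
  exact sub_eq_zero.1 (norm_eq_zero.1 (le_antisymm this (norm_nonneg _)))

theorem Spear.trans {e : X} (he : Spear e) {x y z : X} (h1 : M e (x - y) ≤ 0)
    (h2 : M e (y - z) ≤ 0) : M e (x - z) ≤ 0 := by
  have := he.M_add_le (x - y) (y - z)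
  rw [sub_add_sub_cancel] at this
  linarith

theorem Spear.norm_one {e : X} (he : Spear e) {x : X} (h1 : M e x = 1) (h2 : M e (-x) ≤ 1) :
    ‖x‖ = 1 := by
  rw [he.norm_eq x, h1]; exact max_eq_left h2

theorem Spear.norm_one' {e : X} (he : Spear e) {x : X} (h1 : M e (-x) = 1) (h2 : M e x ≤ 1) :
    ‖x‖ = 1 := by
  rw [he.norm_eq x, h1]; exact max_eq_right h2

theorem Spear.M_neg_le_one {e : X} (he : Spear e) {x : X} (hx : ‖x‖ = 1) : M e (-x) ≤ 1 := by
  have := he.M_le (-x); rwa [norm_neg, hx] at this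

theorem Spear.M_le_one {e : X} (he : Spear e) {x : X} (hx : ‖x‖ = 1) : M e x ≤ 1 := by
  have := he.M_le x; rwa [hx] at this

/-- every unit vector is in the upper or the lower part -/
theorem Spear.cases {e : X} (he : Spear e) {x : X} (hx : ‖x‖ = 1) :
    M e x = 1 ∨ M e (-x) = 1 := by
  have h := he.norm_eq x
  rw [hx] at h
  rcases le_total (M e x) (M e (-x)) with h1 | h1
  · right; rw [max_eq_right h1] at h; exact h.symm
  · left; rw [max_eq_left h1] at h; exact h.symm

/-- Distance between an upper and a lower point, one of them high/low enough. -/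
theorem Spear.dist_eq {e : X} (he : Spear e) {x s : X} (hx : M e x = 1) (hs : M e (-s) = 1)
    (hx1 : ‖x‖ = 1) (hs1 : ‖s‖ = 1)
    (h : M e (-x) ≤ 0 ∨ M e s ≤ 0) : ‖x - s‖ = M e (x - s) := by
  rw [he.norm_eq (x - s)]
  apply max_eq_left
  have e1 : M e (-(x - s)) ≤ M e s + M e (-x) := by
    have := he.M_add_le s (-x)
    have h2 : s + -x = -(x - s) := by abel
    rwa [h2] at this
  have e2 : M e x ≤ M e (x - s) + M e s := by
    have := he.M_add_le (x - s) s
    rwa [sub_add_cancel] at this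
  have e3 : M e (-s) ≤ M e (x - s) + M e (-x) := by
    have := he.M_add_le (x - s) (-x)
    have h2 : x - s + -x = -s := by abel
    rwa [h2] at this
  have e4 := he.M_le_one hs1
  have e5 := he.M_neg_le_one hx1
  rcases h with h | h <;> linarith

/-- The shift of a vector into the upper part. -/
noncomputable def up (e x : X) : X := x + (1 - M e x) • e

theorem Spear.M_up {e : X} (he : Spear e) (x : X) : M e (up e x) = 1 := by
  unfold up; rw [he.M_add_smul]; ring

theorem Spear.M_neg_up {e : X} (he : Spear e) (x : X) :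
    M e (-(up e x)) = M e x + M e (-x) - 1 := by
  unfold up
  have : -(x + (1 - M e x) • e) = -x - (1 - M e x) • e := by abel
  rw [this, he.M_sub_smul]; ring

theorem Spear.up_of_M {e : X} {x : X} (h : M e x = 1) : up e x = x := by
  unfold up; rw [h]; simp

/-- The shift of an upper vector to the lower part. -/
noncomputable def dn (e y : X) : X := y - (1 - M e (-y)) • e

theorem Spear.M_dn {e : X} (he : Spear e) {y : X} (hy : M e y = 1) :
    M e (dn e y) = M e (-y) := by
  unfold dn; rw [he.M_sub_smul, hy]; ring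

theorem Spear.M_neg_dn {e : X} (he : Spear e) (y : X) :
    M e (-(dn e y)) = 1 := by
  unfold dn
  have : -(y - (1 - M e (-y)) • e) = -y + (1 - M e (-y)) • e := by abel
  rw [this, he.M_add_smul]; ring

end P084A
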