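import Vale.Agent.P084.ASpear

/-!
Surjective isometries between unit spheres and spear vectors (helper file for P084):
the image of a spear vector is a spear vector, the order-unit functionals are preserved.
-/

namespace P084A

variable {X Y : Type*} [NormedAddCommGroup X] [NormedSpace ℝ X]
  [NormedAddCommGroup Y] [NormedSpace ℝ Y]

/-- `F` and `G` are mutually inverse isometries between the unit spheres. -/
structure SphIso (F : X → Y) (G : Y → X) : Prop where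
  norm_F : ∀ x, ‖x‖ = 1 → ‖F x‖ = 1
  norm_G : ∀ y, ‖y‖ = 1 → ‖G y‖ = 1
  GF : ∀ x, ‖x‖ = 1 → G (F x) = x
  FG : ∀ y, ‖y‖ = 1 → F (G y) = y
  dist : ∀ x y, ‖x‖ = 1 → ‖y‖ = 1 → ‖F x - F y‖ = ‖x - y‖

theorem SphIso.symm {F : X → Y} {G : Y → X} (h : SphIso F G) : SphIso G F where
  norm_F := h.norm_G
  norm_G := h.norm_F
  GF := h.FG
  FG := h.GF
  dist := by
    intro x y hx hy
    rw [← h.dist _ _ (h.norm_G x hx) (h.norm_G y hy), h.FG x hx, h.FG y hy]

theorem SphIso.dist_G {F : X → Y} {G : Y → X} (h : SphIso F G) {x : X} {y : Y} (hx : ‖x‖ = 1)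
    (hy : ‖y‖ = 1) : ‖x - G y‖ = ‖F x - y‖ := by
  rw [← h.dist _ _ hx (h.norm_G y hy), h.FG y hy]

/-- Step 1: the antipode of a spear vector is mapped to the antipode. -/
theorem SphIso.map_neg_spear {F : X → Y} {G : Y → X} (h : SphIso F G) {e : X} (he : Spear e) :
    F (-e) = - F e := by
  have hne : ‖-e‖ = 1 := by rw [norm_neg]; exact he.1
  have ha1 : ‖-F e‖ = 1 := by rw [norm_neg]; exact h.norm_F e he.1
  have hq1 : ‖F (-e)‖ = 1 := h.norm_F _ hne
  have hqa : ‖F (-e) - F e‖ = 2 := by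
    rw [h.dist _ _ hne he.1]
    have : -e - e = (-2 : ℝ) • e := by rw [neg_smul, two_smul]; abel
    rw [this, norm_smul, he.1]; norm_num
  have star : ∀ p : Y, ‖p‖ = 1 → ‖p - F e‖ = 2 ∨ ‖p - F (-e)‖ = 2 := by
    intro p hp
    have hG := h.norm_G p hp
    rcases he.2 _ hG with h1 | h1
    · right
      rw [← h.FG p hp, h.dist _ _ hG hne, sub_neg_eq_add, h1]
    · left
      rw [← h.FG p hp, h.dist _ _ hG he.1, h1]
  by_contra hcon
  obtain ⟨a, haeq⟩ : ∃ a, a = -F e := ⟨_, rfl⟩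
  obtain ⟨q, hqeq⟩ : ∃ q, q = F (-e) := ⟨_, rfl⟩
  have hFe : F e = -a := by rw [haeq, neg_neg]
  rw [← haeq] at ha1 hcon
  rw [← hqeq] at hq1 hcon hqa
  rw [hFe] at hqa
  simp only [← hqeq, hFe, sub_neg_eq_add] at star hqa
  have hd0 : 0 < ‖q - a‖ := norm_pos_iff.2 (sub_ne_zero.2 hcon)
  have hd2 : ‖q - a‖ ≤ 2 := by
    calc ‖q - a‖ ≤ ‖q‖ + ‖a‖ := norm_sub_le _ _
      _ = 2 := by rw [hq1, ha1]; norm_num
  obtain ⟨d, hdq⟩ : ∃ d, d = q - a := ⟨_, rfl⟩
  have hq : q = a + d := by rw [hdq]; abel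
  rw [← hdq] at hd0 hd2
  obtain ⟨l, hl⟩ : ∃ l : ℝ, l = 2 / ‖d‖ + 1 / 2 := ⟨_, rfl⟩
  have hld : l * ‖d‖ = 2 + ‖d‖ / 2 := by
    rw [hl]; field_simp
  have hl1 : 1 < l := by
    have : 1 ≤ 2 / ‖d‖ := by rw [le_div_iff₀ hd0]; linarith
    rw [hl]; linarith
  have hl0 : 0 < l := by linarith
  obtain ⟨k, hk⟩ : ∃ k : ℝ, k = ‖a + l • d‖ := ⟨_, rfl⟩
  have hqc : q = (1 - l⁻¹) • a + l⁻¹ • (a + l • d) := by
    rw [hq, sub_smul, smul_add, smul_smul, inv_mul_cancel₀ hl0.ne', one_smul, one_smul]; abel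
  have hli : l⁻¹ < 1 := inv_lt_one_of_one_lt₀ hl1
  have hli0 : 0 < l⁻¹ := inv_pos.2 hl0
  have hk1 : 1 ≤ k := by
    have h1 : ‖q‖ ≤ ‖(1 - l⁻¹) • a‖ + ‖l⁻¹ • (a + l • d)‖ := by
      conv_lhs => rw [hqc]
      exact norm_add_le _ _
    rw [norm_smul, norm_smul, hq1, ha1, ← hk, Real.norm_of_nonneg (by linarith),
      Real.norm_of_nonneg hli0.le] at h1
    have h2 : l⁻¹ * 1 ≤ l⁻¹ * k := by linarith
    exact le_of_mul_le_mul_left h2 hli0
  have hk0 : 0 < k := by linarith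
  obtain ⟨z, hz⟩ : ∃ z : Y, z = k⁻¹ • (a + l • d) := ⟨_, rfl⟩
  have hz1 : ‖z‖ = 1 := by
    rw [hz, norm_smul, norm_inv, ← hk, Real.norm_of_nonneg hk0.le, inv_mul_cancel₀ hk0.ne']
  have hkz : k • z = a + l • d := by rw [hz, smul_smul, mul_inv_cancel₀ hk0.ne', one_smul]
  have hk2 : 1 < k := by
    rcases hk1.lt_or_eq with h1 | h1
    · exact h1
    · exfalso
      have hza : z - a = l • d := by
        rw [← h1, one_smul] at hkz
        rw [hkz]; abel
      have h2 : ‖z - a‖ ≤ 2 := by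
        calc ‖z - a‖ ≤ ‖z‖ + ‖a‖ := norm_sub_le _ _
          _ = 2 := by rw [hz1, ha1]; norm_num
      rw [hza, norm_smul, Real.norm_of_nonneg hl0.le, hld] at h2
      linarith
  have hkl : k ≤ 1 + (l - 1) * ‖d‖ := by
    have : a + l • d = q + (l - 1) • d := by rw [hq, sub_smul, one_smul]; abel
    rw [hk, this]
    calc ‖q + (l - 1) • d‖ ≤ ‖q‖ + ‖(l - 1) • d‖ := norm_add_le _ _
      _ = 1 + (l - 1) * ‖d‖ := by
        rw [hq1, norm_smul, Real.norm_of_nonneg (by linarith)]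
  have hki : k⁻¹ < 1 := inv_lt_one_of_one_lt₀ hk2
  have hki0 : 0 < k⁻¹ := inv_pos.2 hk0
  have hzq : ‖z - q‖ < 2 := by
    have e1 : z - q = (l * k⁻¹ - 1) • d - (1 - k⁻¹) • a := by
      rw [hz, hq, sub_smul, sub_smul, smul_add, smul_smul, one_smul, one_smul, mul_comm l]; abel
    have e2 : ‖z - q‖ ≤ |l * k⁻¹ - 1| * ‖d‖ + (1 - k⁻¹) := by
      rw [e1]
      calc _ ≤ ‖(l * k⁻¹ - 1) • d‖ + ‖(1 - k⁻¹) • a‖ := norm_sub_le _ _
        _ = _ := by rw [norm_smul, norm_smul, ha1, Real.norm_eq_abs,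
              Real.norm_of_nonneg (by linarith : (0:ℝ) ≤ 1 - k⁻¹), mul_one]
    have hkk : k * k⁻¹ = 1 := mul_inv_cancel₀ hk0.ne'
    rcases abs_cases (l * k⁻¹ - 1) with ⟨h1, _⟩ | ⟨h1, _⟩
    · rw [h1] at e2
      have : (l * k⁻¹ - 1) * ‖d‖ = (2 + ‖d‖ / 2) * k⁻¹ - ‖d‖ := by rw [← hld]; ring
      rw [this] at e2
      nlinarith [mul_pos hd0 hki0]
    · rw [h1] at e2
      have e3 : -(l * k⁻¹ - 1) * ‖d‖ = ‖d‖ - (2 + ‖d‖ / 2) * k⁻¹ := by rw [← hld]; ring
      rw [e3] at e2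
      have e4 : k ≤ 3 - ‖d‖ / 2 := by
        have : (l - 1) * ‖d‖ = 2 + ‖d‖ / 2 - ‖d‖ := by rw [← hld]; ring
        linarith
      have e5 : 1 < (3 + ‖d‖ / 2) * k⁻¹ := by
        rw [← hkk]
        apply mul_lt_mul_of_pos_right _ hki0
        linarith
      nlinarith
  have hza : ‖z + a‖ = 2 := by
    rcases star z hz1 with h1 | h1
    · exact h1
    · linarith
  have h3 := add_of_two ha1 hz1 (by rw [add_comm]; exact hza)
    (a := 1 - l⁻¹) (b := l⁻¹ * k) (by linarith) (mul_pos hli0 hk0).le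
  rw [mul_smul, hkz, ← hqc, hq1] at h3
  have h4 : l⁻¹ * k = l⁻¹ * 1 := by linarith
  have h5 : k = 1 := mul_left_cancel₀ hli0.ne' h4
  linarith

/-- Step 1: the image of a spear vector is a spear vector. -/
theorem SphIso.spear {F : X → Y} {G : Y → X} (h : SphIso F G) {e : X} (he : Spear e) :
    Spear (F e) := by
  refine ⟨h.norm_F e he.1, ?_⟩
  intro p hp
  have hG := h.norm_G p hp
  have hne : ‖-e‖ = 1 := by rw [norm_neg]; exact he.1
  rcases he.2 _ hG with h1 | h1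
  · left
    rw [← sub_neg_eq_add, ← h.map_neg_spear he, ← h.FG p hp, h.dist _ _ hG hne, sub_neg_eq_add, h1]
  · right
    rw [← h.FG p hp, h.dist _ _ hG he.1, h1]

theorem SphIso.M_map {F : X → Y} {G : Y → X} (h : SphIso F G) {e : X} (he : Spear e) {x : X}
    (hx : ‖x‖ = 1) : M (F e) (F x) = M e x := by
  have hne : ‖-e‖ = 1 := by rw [norm_neg]; exact he.1
  rw [M_unit _ hx, M_unit _ (h.norm_F x hx), ← sub_neg_eq_add, ← h.map_neg_spear he,
    h.dist _ _ hx hne, sub_neg_eq_add]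

theorem SphIso.M_neg_map {F : X → Y} {G : Y → X} (h : SphIso F G) {e : X} (he : Spear e) {x : X}
    (hx : ‖x‖ = 1) : M (F e) (-(F x)) = M e (-x) := by
  have h1 : ‖-x‖ = 1 := by rw [norm_neg]; exact hx
  have h2 : ‖-(F x)‖ = 1 := by rw [norm_neg]; exact h.norm_F x hx
  have h3 : ‖-x + e‖ = ‖x - e‖ := by rw [← norm_neg]; congr 1; abel
  have h4 : ‖-(F x) + F e‖ = ‖F x - F e‖ := by rw [← norm_neg]; congr 1; abel
  rw [M_unit _ h1, M_unit _ h2, h3, h4, h.dist _ _ hx he.1]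

/-- The relation `R`: distance `1 + m(y)` characterizes `dn y ≤ s`. -/
theorem Spear.rel {e : X} (he : Spear e) {y s : X} (hy : M e y = 1) (hy0 : M e (-y) ≤ 0)
    (hs : M e (-s) = 1) (hs1 : ‖s‖ = 1) :
    ‖y - s‖ ≤ 1 - M e (-y) ↔ M e (dn e y - s) ≤ 0 := by
  have hy1 : ‖y‖ = 1 := he.norm_one hy (by linarith)
  rw [he.dist_eq hy hs hy1 hs1 (Or.inl hy0)]
  have : dn e y - s = (y - s) - (1 - M e (-y)) • e := by unfold dn; abel
  rw [this, he.M_sub_smul]
  constructor <;> intro h <;> linarith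

theorem Spear.norm_dn {e : X} (he : Spear e) {y : X} (hy : M e y = 1) (hy0 : M e (-y) ≤ 0) :
    ‖dn e y‖ = 1 :=
  he.norm_one' (he.M_neg_dn y) (by rw [he.M_dn hy]; linarith)

/-- Step 2 (one inequality for the order on a level of the lower part). -/
theorem SphIso.mono_low {F : X → Y} {G : Y → X} (h : SphIso F G) {e : X} (he : Spear e)
    {s t : X} (hs : M e (-s) = 1) (hs0 : M e s ≤ 0) (ht : M e (-t) = 1)
    (hst : M e s = M e t) (hle : M e (s - t) ≤ 0) :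
    M (F e) (F s - F t) ≤ 0 := by
  have he' := h.spear he
  have hs1 : ‖s‖ = 1 := he.norm_one' hs (by linarith)
  have ht1 : ‖t‖ = 1 := he.norm_one' ht (by linarith)
  -- the upper point over `F s`
  have hFs : M (F e) (-(F s)) = 1 := by rw [h.M_neg_map he hs1, hs]
  have hFs0 : M (F e) (F s) = M e s := h.M_map he hs1
  have hFt : M (F e) (-(F t)) = 1 := by rw [h.M_neg_map he ht1, ht]
  set y' := F s + (1 - M (F e) (F s)) • F e with hy'
  have hMy : M (F e) y' = 1 := by rw [hy', he'.M_add_smul]; ring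
  have hMny : M (F e) (-y') = M e s := by
    have : -y' = -(F s) - (1 - M (F e) (F s)) • F e := by rw [hy']; abel
    rw [this, he'.M_sub_smul, hFs, hFs0]; ring
  have hy1 : ‖y'‖ = 1 := he'.norm_one hMy (by linarith)
  have hdn : dn (F e) y' = F s := by
    unfold dn
    rw [hMny, hy', hFs0]; abel
  -- pull back to `X`
  have hG1 := h.norm_G y' hy1
  have hMG : M e (G y') = 1 := by rw [← h.M_map he hG1, h.FG y' hy1, hMy]
  have hMnG : M e (-(G y')) = M e s := by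
    rw [← h.M_neg_map he hG1, h.FG y' hy1, hMny]
  have r1 : ‖y' - F s‖ ≤ 1 - M (F e) (-y') := by
    rw [he'.rel hMy (by linarith) hFs (h.norm_F s hs1), hdn, sub_self, M_zero]
  have r2 : ‖G y' - s‖ ≤ 1 - M e (-(G y')) := by
    rw [norm_sub_rev, h.dist_G hs1 hy1, norm_sub_rev, hMnG, ← hMny]; exact r1
  rw [he.rel hMG (by linarith) hs hs1] at r2
  have r3 : M e (dn e (G y') - t) ≤ 0 := he.trans r2 hle
  rw [← he.rel hMG (by linarith) ht ht1] at r3
  have r4 : ‖y' - F t‖ ≤ 1 - M (F e) (-y') := by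
    rw [norm_sub_rev, ← h.dist_G ht1 hy1, norm_sub_rev, hMny, ← hMnG]; exact r3
  rw [he'.rel hMy (by linarith) hFt (h.norm_F t ht1), hdn] at r4
  exact r4

/-- Step 2: `F` commutes with the shift to the lower part. -/
theorem SphIso.map_dn {F : X → Y} {G : Y → X} (h : SphIso F G) {e : X} (he : Spear e)
    {y : X} (hy : M e y = 1) (hy0 : M e (-y) ≤ 0) :
    F (dn e y) = dn (F e) (F y) := by
  have he' := h.spear he
  have hy1 : ‖y‖ = 1 := he.norm_one hy (by linarith)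
  have hFy : M (F e) (F y) = 1 := by rw [h.M_map he hy1, hy]
  have hFny : M (F e) (-(F y)) = M e (-y) := h.M_neg_map he hy1
  have hd1 : ‖dn e y‖ = 1 := he.norm_dn hy hy0
  have hd1' : ‖dn (F e) (F y)‖ = 1 := he'.norm_dn hFy (by linarith)
  have hG1 := h.norm_G _ hd1'
  have hMG : M e (G (dn (F e) (F y))) = M e (-y) := by
    rw [← h.M_map he hG1, h.FG _ hd1', he'.M_dn hFy, hFny]
  have hMnG : M e (-(G (dn (F e) (F y)))) = 1 := by
    rw [← h.M_neg_map he hG1, h.FG _ hd1', he'.M_neg_dn]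
  apply he'.antisymm
  · -- `F (dn y) ≤ dn (F y)`
    have r1 : ‖F y - dn (F e) (F y)‖ ≤ 1 - M (F e) (-(F y)) := by
      rw [he'.rel hFy (by linarith) (he'.M_neg_dn _) hd1', sub_self, M_zero]
    have r2 : ‖y - G (dn (F e) (F y))‖ ≤ 1 - M e (-y) := by
      rw [h.dist_G hy1 hd1', ← hFny]; exact r1
    rw [he.rel hy hy0 hMnG hG1] at r2
    have r3 := h.mono_low he (he.M_neg_dn y) (by rw [he.M_dn hy]; exact hy0) hMnG
      (by rw [he.M_dn hy, hMG]) r2
    rwa [h.FG _ hd1'] at r3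
  · have r1 : ‖y - dn e y‖ ≤ 1 - M e (-y) := by
      rw [he.rel hy hy0 (he.M_neg_dn _) hd1, sub_self, M_zero]
    have r2 : ‖F y - F (dn e y)‖ ≤ 1 - M (F e) (-(F y)) := by
      rw [h.dist _ _ hy1 hd1, hFny]; exact r1
    rwa [he'.rel hFy (by linarith) (by rw [h.M_neg_map he hd1, he.M_neg_dn])
      (h.norm_F _ hd1)] at r2

/-- Step 3. -/
theorem SphIso.M_sub {F : X → Y} {G : Y → X} (h : SphIso F G) {e : X} (he : Spear e)
    {x y : X} (hx : M e x = 1) (hx1 : ‖x‖ = 1) (hy : M e y = 1) (hy0 : M e (-y) ≤ 0) :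
    M (F e) (F x - F y) = M e (x - y) := by
  have he' := h.spear he
  have hy1 : ‖y‖ = 1 := he.norm_one hy (by linarith)
  have hd1 : ‖dn e y‖ = 1 := he.norm_dn hy hy0
  have hFx : M (F e) (F x) = 1 := by rw [h.M_map he hx1, hx]
  have hFy : M (F e) (F y) = 1 := by rw [h.M_map he hy1, hy]
  have hFny : M (F e) (-(F y)) = M e (-y) := h.M_neg_map he hy1
  have e1 : ‖x - dn e y‖ = M e (x - dn e y) :=
    he.dist_eq hx (he.M_neg_dn y) hx1 hd1 (Or.inr (by rw [he.M_dn hy]; exact hy0))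
  have e2 : ‖F x - dn (F e) (F y)‖ = M (F e) (F x - dn (F e) (F y)) :=
    he'.dist_eq hFx (he'.M_neg_dn _) (h.norm_F x hx1) (he'.norm_dn hFy (by linarith))
      (Or.inr (by rw [he'.M_dn hFy]; linarith))
  have e3 : ‖F x - dn (F e) (F y)‖ = ‖x - dn e y‖ := by
    rw [← h.map_dn he hy hy0, h.dist _ _ hx1 hd1]
  have e4 : M e (x - dn e y) = M e (x - y) + (1 - M e (-y)) := by
    have : x - dn e y = (x - y) + (1 - M e (-y)) • e := by unfold dn; abel
    rw [this, he.M_add_smul]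
  have e5 : M (F e) (F x - dn (F e) (F y)) = M (F e) (F x - F y) + (1 - M (F e) (-(F y))) := by
    have : F x - dn (F e) (F y) = (F x - F y) + (1 - M (F e) (-(F y))) • F e := by
      unfold dn; abel
    rw [this, he'.M_add_smul]
  rw [e1, e2, e4, e5, hFny] at e3
  linarith

end P084A
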