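import Mathlib

namespace Vale.Agent.P084

open Module

variable {V : Type*} [NormedAddCommGroup V] [InnerProductSpace ℝ V]

theorem alg_crit (G : V →ₗ[ℝ] V →ₗ[ℝ] V) (hs : ∀ u v, G u v = G v u)
    (ht : ∀ u v w, inner ℝ (G u v) w = inner ℝ (G u w) v)
    (m v : V) (hm : ‖m‖ = 1) (hmv : inner ℝ m v = 0)
    (hμ : 0 ≤ inner ℝ (G m m) m)
    (hmax : ∀ t : ℝ, inner ℝ (G (m + t • v) (m + t • v)) (m + t • v)
      ≤ inner ℝ (G m m) m * ‖m + t • v‖ ^ 3) :
    inner ℝ (G m m) v = 0 := by
  set μ := inner ℝ (G m m) m with hμdef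
  set a := inner ℝ (G m m) v with ha
  set b := inner ℝ (G v v) m with hb
  set c := inner ℝ (G v v) v with hc
  have hvm : inner ℝ v m = 0 := by rw [real_inner_comm]; exact hmv
  have e1 : inner ℝ (G m v) m = a := by rw [ht m v m]
  have e2 : inner ℝ (G m v) v = b := by
    rw [hs m v, ht v m v]
  have hexp : ∀ t : ℝ, inner ℝ (G (m + t • v) (m + t • v)) (m + t • v)
      = μ + 3 * t * a + 3 * t ^ 2 * b + t ^ 3 * c := by
    intro t
    simp only [map_add, map_smul, LinearMap.add_apply, LinearMap.smul_apply, inner_add_left,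
      inner_add_right, inner_smul_left, inner_smul_right, hs v m, e1, e2]
    simp only [← hμdef, ← ha, ← hb, ← hc, conj_trivial]
    ring
  have hnorm : ∀ t : ℝ, ‖m + t • v‖ ^ 2 = 1 + t ^ 2 * ‖v‖ ^ 2 := by
    intro t
    rw [← real_inner_self_eq_norm_sq]
    simp only [inner_add_left, inner_add_right, inner_smul_left, inner_smul_right, hmv, hvm,
      real_inner_self_eq_norm_sq, hm, conj_trivial]
    ring
  have hle : ∀ t : ℝ, ‖m + t • v‖ ^ 3 ≤ (1 + t ^ 2 * ‖v‖ ^ 2) ^ 2 := by
    intro t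
    have h1 : (1 : ℝ) ≤ ‖m + t • v‖ := by
      have h2 : (1 : ℝ) ≤ ‖m + t • v‖ ^ 2 := by
        rw [hnorm t]; nlinarith [sq_nonneg (t * ‖v‖)]
      nlinarith [norm_nonneg (m + t • v)]
    rw [← hnorm t]
    have : ‖m + t • v‖ ^ 3 ≤ ‖m + t • v‖ ^ 4 := pow_le_pow_right₀ h1 (by norm_num)
    calc ‖m + t • v‖ ^ 3 ≤ ‖m + t • v‖ ^ 4 := this
      _ = (‖m + t • v‖ ^ 2) ^ 2 := by ring
  have hp : ∀ t : ℝ, 3 * t * a + 3 * t ^ 2 * b + t ^ 3 * c
      - μ * (2 * t ^ 2 * ‖v‖ ^ 2 + t ^ 4 * ‖v‖ ^ 4) ≤ 0 := by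
    intro t
    have h1 := hmax t
    rw [hexp t] at h1
    have h2 := mul_le_mul_of_nonneg_left (hle t) hμ
    nlinarith [h1, h2]
  have hder : HasDerivAt (fun t : ℝ => 3 * t * a + 3 * t ^ 2 * b + t ^ 3 * c
      - μ * (2 * t ^ 2 * ‖v‖ ^ 2 + t ^ 4 * ‖v‖ ^ 4)) (3 * a) 0 := by
    have h1 : HasDerivAt (fun t : ℝ => t) 1 0 := hasDerivAt_id 0
    have := ((((h1.const_mul 3).mul_const a).add (((h1.pow 2).const_mul 3).mul_const b)).add
      ((h1.pow 3).mul_const c)).sub
      (((((h1.pow 2).const_mul 2).mul_const (‖v‖ ^ 2)).add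
        ((h1.pow 4).mul_const (‖v‖ ^ 4))).const_mul μ)
    exact this.congr_deriv (by norm_num)
  have hloc : IsLocalMax (fun t : ℝ => 3 * t * a + 3 * t ^ 2 * b + t ^ 3 * c
      - μ * (2 * t ^ 2 * ‖v‖ ^ 2 + t ^ 4 * ‖v‖ ^ 4)) 0 := by
    refine Filter.Eventually.of_forall (fun t => ?_)
    have := hp t
    simpa using this
  have := hloc.hasDerivAt_eq_zero hder
  linarith

theorem alg_polar (G : V →ₗ[ℝ] V →ₗ[ℝ] V) (hs : ∀ u v, G u v = G v u)
    (ht : ∀ u v w, inner ℝ (G u v) w = inner ℝ (G u w) v)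
    (h0 : ∀ u, inner ℝ (G u u) u = 0) : G = 0 := by
  have h1 : ∀ u v, inner ℝ (G u u) v = 0 := by
    intro u v
    have key : ∀ t : ℝ, 3 * t * inner ℝ (G u u) v + 3 * t ^ 2 * inner ℝ (G v v) u = 0 := by
      intro t
      have e1 : inner ℝ (G u v) u = inner ℝ (G u u) v := by rw [ht u v u]
      have e2 : inner ℝ (G u v) v = inner ℝ (G v v) u := by
        rw [hs u v, ht v u v]
      have hexp : inner ℝ (G (u + t • v) (u + t • v)) (u + t • v)
          = inner ℝ (G u u) u + 3 * t * inner ℝ (G u u) v + 3 * t ^ 2 * inner ℝ (G v v) u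
            + t ^ 3 * inner ℝ (G v v) v := by
        simp only [map_add, map_smul, LinearMap.add_apply, LinearMap.smul_apply, inner_add_left,
          inner_add_right, inner_smul_left, inner_smul_right, hs v u, e1, e2, conj_trivial]
        ring
      rw [h0, h0 u, h0 v] at hexp
      linarith
    have k1 := key 1
    have k2 := key (-1)
    linarith
  have h2 : ∀ u v w, inner ℝ (G u v) w = 0 := by
    intro u v w
    have k := h1 (u + v) w
    simp only [map_add, LinearMap.add_apply, inner_add_left, h1, hs v u] at k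
    linarith
  ext u v
  simp only [LinearMap.zero_apply]
  exact inner_self_eq_zero.mp (h2 u v (G u v))

/-- existence of a maximiser of the cubic form on the unit sphere of a nonzero subspace -/
theorem alg_exists_max [FiniteDimensional ℝ V] (G : V →ₗ[ℝ] V →ₗ[ℝ] V)
    (H : Submodule ℝ V) (hH : H ≠ ⊥) :
    ∃ m ∈ H, ‖m‖ = 1 ∧ 0 ≤ inner ℝ (G m m) m ∧
      ∀ v ∈ H, inner ℝ (G v v) v ≤ inner ℝ (G m m) m * ‖v‖ ^ 3 := by
  have hcont : Continuous (fun v : V => inner ℝ (G v v) v) := by
    have h1 : Continuous (fun v : V => G v v) := by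
      have hG : Continuous (fun p : V × V => G p.1 p.2) := by
        let G1 : V →ₗ[ℝ] (V →L[ℝ] V) := (LinearMap.toContinuousLinearMap.toLinearMap).comp G
        have hG1 : Continuous G1 := G1.continuous_of_finiteDimensional
        have : Continuous (fun p : V × V => (G1 p.1) p.2) :=
          (hG1.comp continuous_fst).clm_apply continuous_snd
        simpa [G1] using this
      exact hG.comp (continuous_id.prodMk continuous_id)
    exact h1.inner continuous_id
  obtain ⟨w, hwH, hw0⟩ := Submodule.exists_mem_ne_zero_of_ne_bot hH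
  have hcomp : IsCompact (Metric.sphere (0 : V) 1 ∩ (H : Set V)) :=
    (isCompact_sphere 0 1).inter_right (Submodule.closed_of_finiteDimensional H)
  have hne : (Metric.sphere (0 : V) 1 ∩ (H : Set V)).Nonempty := by
    refine ⟨(‖w‖⁻¹ : ℝ) • w, ?_, H.smul_mem _ hwH⟩
    simp [norm_smul, hw0]
  obtain ⟨m, ⟨hm1, hmH⟩, hmax⟩ := hcomp.exists_isMaxOn hne hcont.continuousOn
  have hm1' : ‖m‖ = 1 := by simpa using hm1
  have hmax' : ∀ v ∈ H, ‖v‖ = 1 → inner ℝ (G v v) v ≤ inner ℝ (G m m) m := by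
    intro v hv hv1
    exact hmax ⟨by simpa using hv1, hv⟩
  refine ⟨m, hmH, hm1', ?_, ?_⟩
  · have := hmax' (-m) (H.neg_mem hmH) (by rw [norm_neg, hm1'])
    simp only [map_neg, LinearMap.neg_apply, neg_neg, inner_neg_right] at this
    linarith
  · intro v hv
    by_cases hv0 : v = 0
    · simp [hv0]
    · have hvn : (0 : ℝ) < ‖v‖ := norm_pos_iff.mpr hv0
      have h1 := hmax' ((‖v‖⁻¹ : ℝ) • v) (H.smul_mem _ hv)
        (by rw [norm_smul, norm_inv, norm_norm, inv_mul_cancel₀ hvn.ne'])
      simp only [map_smul, LinearMap.smul_apply, inner_smul_left, inner_smul_right,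
        conj_trivial] at h1
      have h2 : ‖v‖⁻¹ * (‖v‖⁻¹ * (‖v‖⁻¹ * inner ℝ (G v v) v)) = inner ℝ (G v v) v / ‖v‖ ^ 3 := by
        field_simp
      rw [h2, div_le_iff₀ (by positivity)] at h1
      exact h1

theorem alg_eig (G : V →ₗ[ℝ] V →ₗ[ℝ] V)
    (ht : ∀ u v w, inner ℝ (G u v) w = inner ℝ (G u w) v)
    (m : V) (hm : ‖m‖ = 1) (h : ∀ v, inner ℝ m v = 0 → inner ℝ (G m m) v = 0) :
    G m m = (inner ℝ (G m m) m : ℝ) • m := by
  have hmm : inner ℝ m m = (1 : ℝ) := by rw [real_inner_self_eq_norm_sq, hm]; norm_num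
  set r := G m m - (inner ℝ (G m m) m : ℝ) • m with hr
  have h1 : inner ℝ m r = 0 := by
    rw [hr, inner_sub_right, inner_smul_right, hmm, real_inner_comm]; ring
  have h2 := h r h1
  have h3 : inner ℝ r r = (0 : ℝ) := by
    nth_rewrite 1 [hr]
    rw [inner_sub_left, inner_smul_left, h1, h2]; simp
  have h4 : r = 0 := inner_self_eq_zero.mp h3
  exact sub_eq_zero.mp h4

theorem alg_seminorm_deriv {V : Type*} [AddCommGroup V] [Module ℝ V] (n : Seminorm ℝ V)
    (v : V) (c : ℝ) (h : HasDerivAt (fun t : ℝ => n (v + t • (c • v))) 0 0) :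
    c * n v = 0 := by
  have h1 : (fun t : ℝ => n (v + t • (c • v))) = fun t : ℝ => |1 + t * c| * n v := by
    funext t
    have : v + t • (c • v) = (1 + t * c) • v := by module
    rw [this, map_smul_eq_mul, Real.norm_eq_abs]
  have h2 : HasDerivAt (fun t : ℝ => (1 + t * c) * n v) (c * n v) 0 := by
    have := (((hasDerivAt_id (0 : ℝ)).mul_const c).const_add 1).mul_const (n v)
    exact this.congr_deriv (by norm_num)
  have h3 : HasDerivAt (fun t : ℝ => n (v + t • (c • v))) (c * n v) 0 := by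
    rw [h1]
    refine h2.congr_of_eventuallyEq ?_
    have hc : Filter.Tendsto (fun t : ℝ => 1 + t * c) (nhds 0) (nhds (1 + 0 * c)) :=
      (Continuous.tendsto (by fun_prop) 0)
    have : ∀ᶠ t : ℝ in nhds 0, 0 < 1 + t * c := by
      apply hc.eventually
      simpa using (eventually_gt_nhds (show (0 : ℝ) < 1 by norm_num))
    filter_upwards [this] with t ht
    rw [abs_of_pos ht]
  exact h3.unique h

/-- a seminorm along a line having zero derivative at a point is minimal there -/
theorem alg_convex_min {V : Type*} [AddCommGroup V] [Module ℝ V] (n : Seminorm ℝ V)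
    (v w : V) (h : HasDerivAt (fun t : ℝ => n (v + t • w)) 0 0) (t : ℝ) :
    n v ≤ n (v + t • w) := by
  have h1 : Filter.Tendsto (fun θ : ℝ => θ⁻¹ * (n (v + (θ * t) • w) - n v))
      (nhdsWithin 0 (Set.Ioi 0)) (nhds 0) := by
    have h2 : HasDerivAt (fun θ : ℝ => n (v + (θ * t) • w)) 0 0 := by
      have h3 : HasDerivAt (fun θ : ℝ => θ * t) t 0 := by
        simpa using (hasDerivAt_id (0 : ℝ)).mul_const t
      have h4 : HasDerivAt (fun t : ℝ => n (v + t • w)) 0 ((fun θ : ℝ => θ * t) 0) := by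
        simpa using h
      have := h4.comp (0 : ℝ) h3
      simpa [Function.comp_def] using this
    have h5 := h2.tendsto_slope_zero_right
    simpa using h5
  have h2 : ∀ᶠ θ : ℝ in nhdsWithin 0 (Set.Ioi 0),
      θ⁻¹ * (n (v + (θ * t) • w) - n v) ≤ n (v + t • w) - n v := by
    have h01 : Set.Ioo (0 : ℝ) 1 ∈ nhdsWithin (0 : ℝ) (Set.Ioi 0) :=
      Ioo_mem_nhdsGT (by norm_num)
    filter_upwards [h01] with θ hθ
    have h3 : n (v + (θ * t) • w) ≤ (1 - θ) * n v + θ * n (v + t • w) := by
      have h4 : v + (θ * t) • w = (1 - θ) • v + θ • (v + t • w) := by module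
      rw [h4]
      refine (map_add_le_add n _ _).trans ?_
      rw [map_smul_eq_mul, map_smul_eq_mul, Real.norm_eq_abs, Real.norm_eq_abs,
        abs_of_pos hθ.1, abs_of_nonneg (by linarith [hθ.2])]
    have h4 : n (v + (θ * t) • w) - n v ≤ θ * (n (v + t • w) - n v) := by linarith
    calc θ⁻¹ * (n (v + (θ * t) • w) - n v) ≤ θ⁻¹ * (θ * (n (v + t • w) - n v)) :=
          mul_le_mul_of_nonneg_left h4 (inv_nonneg.mpr hθ.1.le)
      _ = n (v + t • w) - n v := by
          rw [← mul_assoc, inv_mul_cancel₀ hθ.1.ne', one_mul]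
  have h3 := le_of_tendsto h1 h2
  linarith

theorem alg_kill [FiniteDimensional ℝ V] (n : Seminorm ℝ V) (hn : ∀ v, n v = 0 → v = 0)
    (G : V →ₗ[ℝ] V →ₗ[ℝ] V)
    (ht : ∀ u v w, inner ℝ (G u v) w = inner ℝ (G u w) v)
    (hd : ∀ m δ : V, inner ℝ m δ = 0 → δ ≠ 0 →
      HasDerivAt (fun t : ℝ => n (δ + t • G m δ)) 0 0)
    (m : V) (hm : ‖m‖ = 1) (lam : ℝ) (hG : G m m = lam • m) (v : V) (hv : inner ℝ m v = 0) :
    G m v = 0 := by
  have hmm : inner ℝ m m = (1 : ℝ) := by rw [real_inner_self_eq_norm_sq, hm]; norm_num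
  have hsym : (G m).IsSymmetric := by
    intro x y
    rw [ht m x y, real_inner_comm]
  set b := hsym.eigenvectorBasis rfl with hb
  have key : ∀ i, G m (b i - (inner ℝ m (b i) : ℝ) • m) = 0 := by
    intro i
    have he : G m (b i) = (hsym.eigenvalues rfl i) • b i := hsym.apply_eigenvectorBasis rfl i
    set li := hsym.eigenvalues rfl i with hli
    set c := (inner ℝ m (b i) : ℝ) with hc
    have h1 : c * li = c * lam := by
      have h2 := hsym m (b i)
      rw [he, hG, inner_smul_left, inner_smul_right] at h2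
      simp only [conj_trivial] at h2
      rw [← hc] at h2
      linarith
    have h3 : G m (b i - c • m) = li • (b i - c • m) := by
      rw [map_sub, map_smul, he, hG, smul_sub, smul_smul, smul_smul, mul_comm li c, h1]
    by_cases h0 : b i - c • m = 0
    · rw [h0, map_zero]
    · have h4 : inner ℝ m (b i - c • m) = 0 := by
        rw [inner_sub_right, inner_smul_right, hmm, ← hc]; ring
      have h5 := hd m _ h4 h0
      rw [h3] at h5
      have h6 := alg_seminorm_deriv n _ _ h5
      have h7 : n (b i - c • m) ≠ 0 := fun h => h0 (hn _ h)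
      have h8 : li = 0 := by
        rcases mul_eq_zero.mp h6 with h | h
        · exact h
        · exact absurd h h7
      rw [h3, h8, zero_smul]
  have hsum : v = ∑ i, (inner ℝ (b i) v : ℝ) • (b i - (inner ℝ m (b i) : ℝ) • m) := by
    have h1 : ∑ i, (inner ℝ (b i) v : ℝ) • b i = v := by
      simpa using b.sum_repr' v
    have h2 : ∑ i, (inner ℝ (b i) v : ℝ) • ((inner ℝ m (b i) : ℝ) • m) = 0 := by
      have h3 : ∑ i, (inner ℝ (b i) v : ℝ) • ((inner ℝ m (b i) : ℝ) • m)
          = (∑ i, (inner ℝ m (b i) : ℝ) * inner ℝ (b i) v) • m := by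
        rw [Finset.sum_smul]
        refine Finset.sum_congr rfl fun i _ => ?_
        rw [smul_smul, mul_comm]
      rw [h3, b.sum_inner_mul_inner m v, hv, zero_smul]
    simp only [smul_sub]
    rw [Finset.sum_sub_distrib, h1, h2, sub_zero]
  rw [hsum, map_sum]
  refine Finset.sum_eq_zero fun i _ => ?_
  rw [map_smul, key i, smul_zero]

theorem alg_main [FiniteDimensional ℝ V] (hdim : 2 ≤ finrank ℝ V)
    (n : Seminorm ℝ V) (hn : ∀ v, n v = 0 → v = 0)
    (G : V →ₗ[ℝ] V →ₗ[ℝ] V) (hs : ∀ u v, G u v = G v u)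
    (ht : ∀ u v w, inner ℝ (G u v) w = inner ℝ (G u w) v)
    (hd : ∀ m δ : V, inner ℝ m δ = 0 → δ ≠ 0 →
      HasDerivAt (fun t : ℝ => n (δ + t • G m δ)) 0 0) :
    G = 0 := by
  by_contra hG
  have htop : (⊤ : Submodule ℝ V) ≠ ⊥ := by
    intro h
    have : finrank ℝ V = 0 := by rw [← finrank_top, h, finrank_bot]
    omega
  obtain ⟨m0, -, hm0, hμ0, hmax0⟩ := alg_exists_max G ⊤ htop
  set μ := (inner ℝ (G m0 m0) m0 : ℝ) with hμ
  have hμpos : 0 < μ := by
    rcases hμ0.lt_or_eq with h | h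
    · exact h
    · exfalso
      apply hG
      apply alg_polar G hs ht
      intro u
      have h1 := hmax0 u trivial
      have h2 := hmax0 (-u) trivial
      simp only [map_neg, LinearMap.neg_apply, neg_neg, inner_neg_right, ← h, zero_mul] at h1 h2
      linarith
  have hm0m0 : inner ℝ m0 m0 = (1 : ℝ) := by rw [real_inner_self_eq_norm_sq, hm0]; norm_num
  have hG0 : G m0 m0 = μ • m0 := by
    apply alg_eig G ht m0 hm0
    intro v hv
    exact alg_crit G hs ht m0 v hm0 hv hμ0 (fun t => hmax0 _ trivial)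
  have hkill0 : ∀ v, inner ℝ m0 v = 0 → G m0 v = 0 :=
    fun v hv => alg_kill n hn G ht hd m0 hm0 μ hG0 v hv
  have hH : (Submodule.span ℝ {m0})ᗮ ≠ ⊥ := by
    intro h
    have h1 : finrank ℝ (Submodule.span ℝ {m0}) + finrank ℝ (Submodule.span ℝ {m0})ᗮ
        = finrank ℝ V := Submodule.finrank_add_finrank_orthogonal _
    rw [h, finrank_bot] at h1
    have h2 : finrank ℝ (Submodule.span ℝ {m0}) ≤ 1 := by
      simpa using finrank_span_le_card ({m0} : Set V)
    omega
  obtain ⟨m1, hm1H, hm1, hμ10, hmax1⟩ := alg_exists_max G _ hH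
  set μ1 := (inner ℝ (G m1 m1) m1 : ℝ) with hμ1
  have h01 : inner ℝ m0 m1 = (0 : ℝ) := by
    rw [Submodule.mem_orthogonal_singleton_iff_inner_right] at hm1H
    exact hm1H
  have h10 : inner ℝ m1 m0 = (0 : ℝ) := by rw [real_inner_comm]; exact h01
  have hm1m1 : inner ℝ m1 m1 = (1 : ℝ) := by rw [real_inner_self_eq_norm_sq, hm1]; norm_num
  have hG01 : G m0 m1 = 0 := hkill0 m1 h01
  have hG10 : G m1 m0 = 0 := by rw [hs]; exact hG01
  have hG1 : G m1 m1 = μ1 • m1 := by
    apply alg_eig G ht m1 hm1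
    intro v hv
    set v' := v - (inner ℝ m0 v : ℝ) • m0 with hv'
    have hv'H : v' ∈ (Submodule.span ℝ {m0})ᗮ := by
      rw [Submodule.mem_orthogonal_singleton_iff_inner_right, hv', inner_sub_right,
        inner_smul_right, hm0m0]
      ring
    have h1 : inner ℝ m1 v' = (0 : ℝ) := by
      rw [hv', inner_sub_right, inner_smul_right, hv, h10]; ring
    have h2 : inner ℝ (G m1 m1) v' = 0 := by
      apply alg_crit G hs ht m1 v' hm1 h1 hμ10
      intro t
      exact hmax1 _ (Submodule.add_mem _ hm1H (Submodule.smul_mem _ _ hv'H))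
    have h3 : inner ℝ (G m1 m1) m0 = (0 : ℝ) := by
      rw [ht, hG10, inner_zero_left]
    have h4 : v = v' + (inner ℝ m0 v : ℝ) • m0 := by rw [hv']; abel
    rw [h4, inner_add_right, h2, inner_smul_right, h3]; ring
  rcases hμ10.lt_or_eq with hpos | hzero
  · set δ := μ • m0 - μ1 • m1 with hδ
    set m := μ1 • m0 + μ • m1 with hm
    have h1 : inner ℝ m δ = (0 : ℝ) := by
      rw [hδ, hm]
      simp only [inner_sub_right, inner_add_left, inner_smul_left, inner_smul_right, h01, h10,
        hm0m0, hm1m1, conj_trivial]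
      ring
    have h2 : δ ≠ 0 := by
      intro h
      have : inner ℝ m0 δ = μ := by
        rw [hδ]
        simp only [inner_sub_right, inner_smul_right, h01, hm0m0]
        ring
      rw [h, inner_zero_right] at this
      linarith
    have h3 : G m δ = (μ * μ1) • δ := by
      rw [hδ, hm]
      simp only [map_add, map_sub, map_smul, LinearMap.add_apply, LinearMap.smul_apply, hG0, hG1,
        hG01, hG10]
      module
    have h4 := hd m δ h1 h2
    rw [h3] at h4
    have h5 := alg_seminorm_deriv n _ _ h4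
    rcases mul_eq_zero.mp h5 with h | h
    · exact (mul_pos hμpos hpos).ne' h
    · exact h2 (hn _ h)
  · have hn0 : 0 < n m0 := by
      rcases (apply_nonneg n m0).lt_or_eq with h | h
      · exact h
      · have := hn _ h.symm
        rw [this, norm_zero] at hm0
        norm_num at hm0
    have hn1 : 0 < n m1 := by
      rcases (apply_nonneg n m1).lt_or_eq with h | h
      · exact h
      · have := hn _ h.symm
        rw [this, norm_zero] at hm1
        norm_num at hm1
    set s := n m0 / (4 * n m1) with hs'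
    have hspos : 0 < s := by positivity
    have hG1' : G m1 m1 = 0 := by rw [hG1, ← hzero, zero_smul]
    have h1 : inner ℝ (s • m0 - m1) (m0 + s • m1) = (0 : ℝ) := by
      simp only [inner_sub_left, inner_add_right, inner_smul_left, inner_smul_right, h01, h10,
        hm0m0, hm1m1, conj_trivial]
      ring
    have h2 : m0 + s • m1 ≠ 0 := by
      intro h
      have : inner ℝ m0 (m0 + s • m1) = (1 : ℝ) := by
        simp only [inner_add_right, inner_smul_right, h01, hm0m0]
        ring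
      rw [h, inner_zero_right] at this
      norm_num at this
    have h3 : G (s • m0 - m1) (m0 + s • m1) = (s * μ) • m0 := by
      simp only [map_add, map_sub, map_smul, LinearMap.sub_apply, LinearMap.smul_apply, hG0, hG1',
        hG01, hG10]
      module
    have h4 := hd _ _ h1 h2
    rw [h3] at h4
    have h5 := alg_convex_min n _ _ h4 (-(s * μ)⁻¹)
    have h6 : m0 + s • m1 + (-(s * μ)⁻¹) • ((s * μ) • m0) = s • m1 := by
      rw [smul_smul, neg_mul, inv_mul_cancel₀ (mul_pos hspos hμpos).ne']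
      module
    rw [h6, map_smul_eq_mul, Real.norm_eq_abs, abs_of_pos hspos] at h5
    have h7 : n m0 ≤ n (m0 + s • m1) + s * n m1 := by
      have h8 : m0 = (m0 + s • m1) - s • m1 := by abel
      calc n m0 = n ((m0 + s • m1) - s • m1) := by rw [← h8]
        _ ≤ n (m0 + s • m1) + n (s • m1) := map_sub_le_add n _ _
        _ = n (m0 + s • m1) + s * n m1 := by
          rw [map_smul_eq_mul, Real.norm_eq_abs, abs_of_pos hspos]
    have h8 : s * n m1 = n m0 / 4 := by
      rw [hs']; field_simp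
    linarith

/-- The algebraic lemma for a positive definite symmetric bilinear form on a plain vector space. -/
theorem alg_bilin {V : Type*} [AddCommGroup V] [Module ℝ V] [FiniteDimensional ℝ V]
    (hdim : 2 ≤ finrank ℝ V) (B : V →ₗ[ℝ] V →ₗ[ℝ] ℝ) (Bsymm : ∀ u v, B u v = B v u)
    (Bpos : ∀ v, v ≠ 0 → 0 < B v v)
    (n : Seminorm ℝ V) (hn : ∀ v, n v = 0 → v = 0)
    (G : V →ₗ[ℝ] V →ₗ[ℝ] V) (hs : ∀ u v, G u v = G v u)
    (ht : ∀ u v w, B (G u v) w = B (G u w) v)
    (hd : ∀ m δ : V, B m δ = 0 → δ ≠ 0 → HasDerivAt (fun t : ℝ => n (δ + t • G m δ)) 0 0) :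
    G = 0 := by
  let c : InnerProductSpace.Core ℝ V :=
    { inner := fun u v => B u v
      conj_inner_symm := fun u v => by simp [Bsymm u v]
      re_inner_nonneg := fun u => by
        by_cases h : u = 0
        · simp [h]
        · simpa using (Bpos u h).le
      add_left := fun u v w => by simp
      smul_left := fun u v r => by simp
      definite := fun u hu => by
        by_contra h
        exact (Bpos u h).ne' hu }
  letI i1 : NormedAddCommGroup V := c.toNormedAddCommGroup
  letI i2 : InnerProductSpace ℝ V := InnerProductSpace.ofCore c.toCore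
  exact alg_main hdim n hn G hs ht hd

end Vale.Agent.P084
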