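import Mathlib

namespace Vale.Agent.P084

open Filter Topology

section norm
variable {X : Type*} [NormedAddCommGroup X] [NormedSpace ℝ X]

/-- derivative of the norm -/
noncomputable def J (x : X) : X →L[ℝ] ℝ := fderiv ℝ (fun y : X => ‖y‖) x

theorem norm_J_le (x : X) : ‖J x‖ ≤ 1 := by
  have := norm_fderiv_le_of_lipschitz ℝ (f := fun y : X => ‖y‖) (x₀ := x) (C := 1)
    lipschitzWith_one_norm
  simpa [J] using this

theorem J_le (x u : X) : J x u ≤ ‖u‖ := by
  calc J x u ≤ ‖J x u‖ := le_abs_self _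
    _ ≤ ‖J x‖ * ‖u‖ := (J x).le_opNorm u
    _ ≤ 1 * ‖u‖ := mul_le_mul_of_nonneg_right (norm_J_le x) (norm_nonneg u)
    _ = ‖u‖ := one_mul _

theorem J_self {x : X} (h : DifferentiableAt ℝ (fun y : X => ‖y‖) x) : J x x = ‖x‖ :=
  h.fderiv_norm_self

theorem J_smul_pos (x : X) {t : ℝ} (ht : 0 < t) : J (t • x) = J x :=
  fderiv_norm_smul_pos ht

theorem J_neg (x : X) : J (-x) = -J x := by
  have := fderiv_norm_smul_neg (x := x) (t := -1) (by norm_num)
  simpa [J] using this

/-- strict convexity: moving along the kernel of the support functional increases the norm -/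
theorem one_lt_of_J_eq_zero [StrictConvexSpace ℝ X] {x w : X}
    (h : DifferentiableAt ℝ (fun y : X => ‖y‖) x) (hw : J x w = 0) (hw0 : w ≠ 0) :
    ‖x‖ < ‖x + w‖ := by
  have h1 : ∀ t : ℝ, ‖x‖ ≤ ‖x + t • w‖ := by
    intro t
    have := J_le x (x + t • w)
    rw [map_add, map_smul, hw, J_self h] at this
    simpa using this
  by_contra hcon
  push Not at hcon
  have h2 : ‖x + w‖ = ‖x‖ := le_antisymm hcon (by simpa using h1 1)
  have h3 : ‖x + (x + w)‖ = ‖x‖ + ‖x + w‖ := by
    apply le_antisymm (norm_add_le _ _)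
    have h4 := h1 (1 / 2)
    have h5 : x + (x + w) = (2 : ℝ) • (x + (1 / 2 : ℝ) • w) := by module
    rw [h5, norm_smul, h2]
    norm_num
    norm_num at h4
    linarith
  have h6 := eq_of_norm_eq_of_norm_add_eq h2.symm h3
  apply hw0
  have : x + w - x = 0 := by rw [← h6]; simp
  simpa using this

end norm

/-- a positively and negatively homogeneous, norm preserving map that is isometric on spheres -/
structure SphMap {X Y : Type*} [NormedAddCommGroup X] [NormedSpace ℝ X]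
    [NormedAddCommGroup Y] [NormedSpace ℝ Y] (F : X → Y) : Prop where
  norm_map : ∀ x, ‖F x‖ = ‖x‖
  smul : ∀ (t : ℝ) (x : X), F (t • x) = t • F x
  norm_sub : ∀ x y, ‖x‖ = ‖y‖ → ‖F x - F y‖ = ‖x - y‖

namespace SphMap
variable {X Y : Type*} [NormedAddCommGroup X] [NormedSpace ℝ X]
    [NormedAddCommGroup Y] [NormedSpace ℝ Y] {F : X → Y}

theorem neg (h : SphMap F) (x : X) : F (-x) = -F x := by
  have := h.smul (-1) x
  simpa using this

theorem zero (h : SphMap F) : F 0 = 0 := by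
  have := h.smul 0 0
  simpa using this

theorem norm_add (h : SphMap F) (x y : X) (hxy : ‖x‖ = ‖y‖) : ‖F x + F y‖ = ‖x + y‖ := by
  have := h.norm_sub x (-y) (by rw [norm_neg]; exact hxy)
  rw [h.neg] at this
  simpa using this

theorem cross_sub (h : SphMap F) (x y : X) :
    ‖‖y‖ • F x - ‖x‖ • F y‖ = ‖‖y‖ • x - ‖x‖ • y‖ := by
  rw [← h.smul, ← h.smul]
  apply h.norm_sub
  rw [norm_smul, norm_smul, norm_norm, norm_norm, mul_comm]

theorem cross_add (h : SphMap F) (x y : X) :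
    ‖‖y‖ • F x + ‖x‖ • F y‖ = ‖‖y‖ • x + ‖x‖ • y‖ := by
  rw [← h.smul, ← h.smul]
  apply h.norm_add
  rw [norm_smul, norm_smul, norm_norm, norm_norm, mul_comm]

theorem lip (h : SphMap F) (x y : X) : ‖F x - F y‖ ≤ 3 * ‖x - y‖ := by
  by_cases hy : y = 0
  · rw [hy, h.zero, sub_zero, sub_zero, h.norm_map]
    linarith [norm_nonneg x]
  · have hy' : 0 < ‖y‖ := norm_pos_iff.mpr hy
    set y' : X := (‖x‖ / ‖y‖) • y with hy'def
    have h1 : ‖x‖ = ‖y'‖ := by
      rw [hy'def, norm_smul, Real.norm_eq_abs, abs_of_nonneg (by positivity),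
        div_mul_cancel₀ _ hy'.ne']
    have h2 : ‖y - y'‖ ≤ ‖x - y‖ := by
      have h3 : y - y' = ((‖y‖ - ‖x‖) / ‖y‖) • y := by
        rw [hy'def, sub_div, div_self hy'.ne', sub_smul, one_smul]
      rw [h3, norm_smul, Real.norm_eq_abs, abs_div, abs_of_pos hy', div_mul_cancel₀ _ hy'.ne']
      rw [abs_sub_comm]
      exact abs_norm_sub_norm_le x y
    have h4 : ‖F y' - F y‖ ≤ ‖x - y‖ := by
      have h3 : F y' - F y = ((‖x‖ - ‖y‖) / ‖y‖) • F y := by
        rw [hy'def, h.smul, sub_div, div_self hy'.ne', sub_smul, one_smul]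
      rw [h3, norm_smul, Real.norm_eq_abs, abs_div, abs_of_pos hy', h.norm_map,
        div_mul_cancel₀ _ hy'.ne']
      exact abs_norm_sub_norm_le x y
    calc ‖F x - F y‖ ≤ ‖F x - F y'‖ + ‖F y' - F y‖ := norm_sub_le_norm_sub_add_norm_sub _ _ _
      _ ≤ ‖x - y'‖ + ‖x - y‖ := by rw [h.norm_sub x y' h1]; linarith
      _ ≤ (‖x - y‖ + ‖y - y'‖) + ‖x - y‖ := by
          linarith [norm_sub_le_norm_sub_add_norm_sub x y y']
      _ ≤ 3 * ‖x - y‖ := by linarith

theorem continuous (h : SphMap F) : Continuous F := by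
  have : LipschitzWith 3 F := LipschitzWith.of_dist_le_mul fun x y => by
    rw [dist_eq_norm, dist_eq_norm]
    exact h.lip x y
  exact this.continuous

theorem inverse (h : SphMap F) {G : Y → X} (hGF : ∀ x, G (F x) = x) (hFG : ∀ y, F (G y) = y) :
    SphMap G where
  norm_map y := by rw [← h.norm_map, hFG]
  smul t y := by
    have : F (t • G y) = t • y := by rw [h.smul, hFG]
    rw [← this, hGF]
  norm_sub y z hyz := by
    have := h.norm_sub (G y) (G z) (by rw [← h.norm_map, ← h.norm_map, hFG, hFG]; exact hyz)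
    rw [hFG, hFG] at this
    exact this.symm

end SphMap

/-- existence of a norming functional, packaged -/
theorem exists_norming {X : Type*} [NormedAddCommGroup X] [NormedSpace ℝ X] (w : X) :
    ∃ ψ : X →L[ℝ] ℝ, (∀ u, ψ u ≤ ‖u‖) ∧ ψ w = ‖w‖ := by
  obtain ⟨g, hg1, hg2⟩ := exists_dual_vector'' ℝ w
  refine ⟨g, fun u => ?_, by simpa using hg2⟩
  calc g u ≤ ‖g u‖ := le_abs_self _
    _ ≤ ‖g‖ * ‖u‖ := g.le_opNorm u
    _ ≤ 1 * ‖u‖ := mul_le_mul_of_nonneg_right hg1 (norm_nonneg u)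
    _ = ‖u‖ := one_mul _

end Vale.Agent.P084
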