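import Vale.Agent.P084.CBasic

/-!
# P084, theorem C: the global (clopen) step
-/

namespace Vale.Agent.P084

open Filter Topology Metric

section rigid
variable {X : Type*} [NormedAddCommGroup X] [NormedSpace ℝ X]

/-- the norming functional of a point of the sphere at which the norm is differentiable -/
theorem J_lt_one [StrictConvexSpace ℝ X] {x y : X} (hx : ‖x‖ = 1) (hy : ‖y‖ = 1)
    (hd : DifferentiableAt ℝ (fun y : X => ‖y‖) x) (hne : y ≠ x) : J x y < 1 := by
  by_contra hcon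
  push Not at hcon
  apply hne
  have h1 : ‖x + y‖ = ‖x‖ + ‖y‖ := by
    apply le_antisymm (norm_add_le _ _)
    have h2 := J_le x (x + y)
    rw [map_add, J_self hd] at h2
    linarith
  exact (eq_of_norm_eq_of_norm_add_eq (hx.trans hy.symm) h1).symm

/-- Rigidity: if `‖y - x‖ = ‖z - x‖` for all unit `x` near `x1`, where the norm is
differentiable at `x1` and `y`, `z` lie strictly below the tangent hyperplane, then `y = z`. -/
theorem rigid [StrictConvexSpace ℝ X] {x1 y z : X} (hx1 : ‖x1‖ = 1)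
    (hd : DifferentiableAt ℝ (fun y : X => ‖y‖) x1) (hy : J x1 y < 1) (hz : J x1 z < 1)
    (h : ∀ᶠ x in 𝓝 x1, ‖x‖ = 1 → ‖y - x‖ = ‖z - x‖) : y = z := by
  set w := y - x1 with hw
  set w' := z - x1 with hw'
  have hJ1 : J x1 x1 = 1 := by rw [J_self hd, hx1]
  have hJw : J x1 w < 0 := by rw [hw, map_sub, hJ1]; linarith
  have hJw' : J x1 w' < 0 := by rw [hw', map_sub, hJ1]; linarith
  have hρ : ‖w‖ = ‖w'‖ := h.self_of_nhds hx1
  set a := J x1 w' / J x1 w with ha
  have ha0 : 0 < a := div_pos_of_neg_of_neg hJw' hJw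
  set u := w' - a • w with hu
  have hJu : J x1 u = 0 := by
    rw [hu, map_sub, map_smul, smul_eq_mul, ha, div_mul_cancel₀ _ hJw.ne, sub_self]
  obtain ⟨φ, hφ, hφw⟩ := exists_norming w
  -- the main estimate
  have hmain : ‖w'‖ - φ u ≤ ‖w' - u‖ := by
    by_cases hu0 : u = 0
    · simp [hu0]
    have hun : 0 < ‖u‖ := norm_pos_iff.2 hu0
    by_contra hcon
    push Not at hcon
    set δ := ‖w'‖ - φ u - ‖w' - u‖ with hδ
    have hδ0 : 0 < δ := by linarith
    set ε := δ / (4 * ‖u‖) with hε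
    have hε0 : 0 < ε := by positivity
    have hder : HasFDerivAt (fun y : X => ‖y‖) (J x1) x1 := hd.hasFDerivAt
    have hlo := (hasFDerivAt_iff_isLittleO_nhds_zero.1 hder).def hε0
    -- `t → 0`
    have hline : Tendsto (fun t : ℝ => t • u) (𝓝[>] 0) (𝓝 0) := by
      have : Tendsto (fun t : ℝ => t • u) (𝓝 0) (𝓝 ((0 : ℝ) • u)) :=
        (continuous_id.smul continuous_const).tendsto 0
      rw [zero_smul] at this
      exact this.mono_left nhdsWithin_le_nhds
    have hev1 := hline.eventually hlo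
    have hcn : Continuous fun t : ℝ => ‖x1 + t • u‖ := by fun_prop
    have hcont : Tendsto (fun t : ℝ => (‖x1 + t • u‖)⁻¹ • (x1 + t • u)) (𝓝[>] 0) (𝓝 x1) := by
      have h0 : ‖x1 + (0 : ℝ) • u‖ ≠ 0 := by simp [hx1]
      have hc1 : ContinuousAt (fun t : ℝ => (‖x1 + t • u‖)⁻¹ • (x1 + t • u)) 0 :=
        (hcn.continuousAt.inv₀ h0).smul (by fun_prop)
      have h2 : (‖x1 + (0 : ℝ) • u‖)⁻¹ • (x1 + (0 : ℝ) • u) = x1 := by simp [hx1]
      have h3 := hc1.tendsto
      rw [h2] at h3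
      exact h3.mono_left nhdsWithin_le_nhds
    have hev2 := hcont.eventually h
    have hev3 : ∀ᶠ t in 𝓝[>] (0 : ℝ), ‖x1 + t • u‖ ≠ 0 := by
      have : ∀ᶠ t in 𝓝 (0 : ℝ), ‖x1 + t • u‖ ≠ 0 :=
        hcn.continuousAt.eventually_ne (by simp [hx1])
      exact this.filter_mono nhdsWithin_le_nhds
    have hev4 : ∀ᶠ t in 𝓝[>] (0 : ℝ), t < 1 :=
      (eventually_lt_nhds (by norm_num : (0 : ℝ) < 1)).filter_mono nhdsWithin_le_nhds
    have hev5 : ∀ᶠ t in 𝓝[>] (0 : ℝ), 0 < t := eventually_mem_nhdsWithin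
    obtain ⟨t, ht1, ht2, ht3, ht4, ht5⟩ :=
      (hev1.and (hev2.and (hev3.and (hev4.and hev5)))).exists
    set r := ‖x1 + t • u‖ with hr
    -- `|r - 1| ≤ ε t ‖u‖`
    have hr1 : |r - 1| ≤ ε * (t * ‖u‖) := by
      have h6 := ht1
      rw [map_smul, hJu, hx1] at h6
      rw [norm_smul, Real.norm_eq_abs, Real.norm_eq_abs, abs_of_pos ht5] at h6
      simpa using h6
    set x' := r⁻¹ • (x1 + t • u) with hx'
    have hx'1 : ‖x'‖ = 1 := by
      rw [hx', norm_smul, norm_inv, hr, norm_norm]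
      exact inv_mul_cancel₀ ht3
    have hdist : ‖x' - (x1 + t • u)‖ ≤ ε * (t * ‖u‖) := by
      have h7 : x1 + t • u = r • x' := by
        rw [hx', smul_smul, mul_inv_cancel₀ ht3, one_smul]
      have h8 : x' - (x1 + t • u) = (1 - r) • x' := by
        rw [h7, sub_smul, one_smul]
      rw [h8, norm_smul, hx'1, mul_one, Real.norm_eq_abs, abs_sub_comm]
      exact hr1
    have heq := ht2 hx'1
    -- lower bound
    have h9 : ‖w‖ - t * φ u ≤ ‖w - t • u‖ := by
      have := hφ (w - t • u)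
      rw [map_sub, map_smul, hφw, smul_eq_mul] at this
      exact this
    have h10 : ‖w - t • u‖ ≤ ‖y - x'‖ + ε * (t * ‖u‖) := by
      have : w - t • u = (y - x') + (x' - (x1 + t • u)) := by rw [hw]; abel
      rw [this]
      exact (norm_add_le _ _).trans (by linarith)
    have h11 : ‖z - x'‖ ≤ ‖w' - t • u‖ + ε * (t * ‖u‖) := by
      have : z - x' = (w' - t • u) + -(x' - (x1 + t • u)) := by rw [hw']; abel
      rw [this]
      exact (norm_add_le _ _).trans (by rw [norm_neg]; linarith)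
    have h12 : ‖w' - t • u‖ ≤ (1 - t) * ‖w'‖ + t * ‖w' - u‖ := by
      have hgen : ∀ p q : X, p - t • q = (1 - t) • p + t • (p - q) := fun p q => by module
      rw [hgen]
      refine (norm_add_le _ _).trans ?_
      rw [norm_smul, norm_smul, Real.norm_eq_abs, Real.norm_eq_abs, abs_of_pos ht5,
        abs_of_pos (by linarith : (0 : ℝ) < 1 - t)]
    have h13 : ε * (t * ‖u‖) = t * (δ / 4) := by
      rw [hε]
      field_simp
    have h14 : t * δ ≤ t * (δ / 2) := by
      rw [hδ] at *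
      nlinarith
    nlinarith
  have h15 : w' - u = a • w := by rw [hu]; abel
  have h16 : ‖w' - u‖ = a * ‖w‖ := by
    rw [h15, norm_smul, Real.norm_eq_abs, abs_of_pos ha0]
  have h17 : φ w' = φ u + a * ‖w‖ := by
    have : w' = u + a • w := by rw [hu]; abel
    rw [this, map_add, map_smul, hφw, smul_eq_mul]
  have h18 : ‖w + w'‖ = ‖w‖ + ‖w'‖ := by
    apply le_antisymm (norm_add_le _ _)
    have h19 := hφ (w + w')
    rw [map_add, hφw, h17] at h19
    linarith
  have h20 := eq_of_norm_eq_of_norm_add_eq hρ h18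
  have : y = w + x1 := by rw [hw]; abel
  rw [this, h20, hw']
  abel

/-- Chords: all directions near `y0 - x1` are directions of chords with both ends in `S`. -/
theorem chord [StrictConvexSpace ℝ X] {x1 y0 : X} (hx1 : ‖x1‖ = 1) (hy0 : ‖y0‖ = 1)
    (hne : y0 ≠ x1) (S : Set X) (h1 : ∀ᶠ x in 𝓝 x1, ‖x‖ = 1 → x ∈ S)
    (h0 : ∃ᶠ y in 𝓝 y0, ‖y‖ = 1 ∧ y ∈ S) :
    ∀ᶠ d in 𝓝 (y0 - x1), ∃ s : ℝ, 0 < s ∧ ∃ y ∈ S, ∃ x ∈ S, y - x = s • d := by
  set d0 := y0 - x1 with hd0
  have hd0ne : d0 ≠ 0 := sub_ne_zero.2 hne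
  have hd0n : 0 < ‖d0‖ := norm_pos_iff.2 hd0ne
  obtain ⟨ε, hε, hball⟩ := Metric.eventually_nhds_iff.1 h1
  -- choose `η`
  set η := min (1 / 2) (ε / (8 * ‖d0‖)) with hη
  have hη0 : 0 < η := by
    apply lt_min (by norm_num)
    positivity
  have hη1 : η < 1 := lt_of_le_of_lt (min_le_left _ _) (by norm_num)
  have hηε : η * ‖d0‖ ≤ ε / 8 := by
    calc η * ‖d0‖ ≤ (ε / (8 * ‖d0‖)) * ‖d0‖ := by
          gcongr
          exact min_le_right _ _
      _ = ε / 8 := by field_simp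
  have hin : ‖y0 - (1 - η) • d0‖ < 1 := by
    have : y0 - (1 - η) • d0 = η • y0 + (1 - η) • x1 := by rw [hd0]; module
    rw [this]
    exact norm_combo_lt_of_ne hy0.le hx1.le hne hη0 (by linarith) (by ring)
  have hout : 1 < ‖y0 - (1 + η) • d0‖ := by
    by_contra hcon
    push Not at hcon
    have hpos : 0 < 1 + η := by linarith
    have hne' : y0 - (1 + η) • d0 ≠ y0 := by
      intro h
      have : (1 + η) • d0 = 0 := by
        have := sub_eq_self.1 h
        exact this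
      rcases smul_eq_zero.1 this with h | h
      · exact hpos.ne' h
      · exact hd0ne h
    have h2 : ‖(1 / (1 + η)) • (y0 - (1 + η) • d0) + (η / (1 + η)) • y0‖ < 1 :=
      norm_combo_lt_of_ne hcon hy0.le hne' (by positivity) (by positivity) (by field_simp)
    have h3 : (1 / (1 + η)) • (y0 - (1 + η) • d0) + (η / (1 + η)) • y0 = x1 := by
      have h4 : (1 / (1 + η)) • (y0 - (1 + η) • d0) + (η / (1 + η)) • y0 =
          (1 / (1 + η) + η / (1 + η)) • y0 - (1 / (1 + η) * (1 + η)) • d0 := by module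
      rw [h4]
      have h5 : 1 / (1 + η) + η / (1 + η) = 1 := by field_simp
      have h6 : 1 / (1 + η) * (1 + η) = 1 := by field_simp
      rw [h5, h6, hd0]
      module
    rw [h3, hx1] at h2
    exact lt_irrefl _ h2
  -- neighbourhoods
  have hc1 : Continuous fun p : X × X => ‖p.1 - (1 - η) • p.2‖ := by fun_prop
  have hc2 : Continuous fun p : X × X => ‖p.1 - (1 + η) • p.2‖ := by fun_prop
  have hc3 : Continuous fun p : X × X => ‖p.1 - y0‖ := by fun_prop
  have hc4 : Continuous fun p : X × X => ‖p.2 - d0‖ := by fun_prop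
  have hev : ∀ᶠ p in 𝓝 (y0, d0), ‖p.1 - (1 - η) • p.2‖ < 1 ∧ 1 < ‖p.1 - (1 + η) • p.2‖ ∧
      ‖p.1 - y0‖ < ε / 8 ∧ ‖p.2 - d0‖ < ε / 8 := by
    refine ((hc1.tendsto (y0, d0)).eventually (gt_mem_nhds hin)).and
      (((hc2.tendsto (y0, d0)).eventually (lt_mem_nhds hout)).and
      (((hc3.tendsto (y0, d0)).eventually (gt_mem_nhds ?_)).and
      ((hc4.tendsto (y0, d0)).eventually (gt_mem_nhds ?_))))
    · simp only [sub_self, norm_zero]; positivity
    · simp only [sub_self, norm_zero]; positivity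
  rw [nhds_prod_eq] at hev
  obtain ⟨pa, hpa, pb, hpb, hab⟩ := Filter.eventually_prod_iff.1 hev
  obtain ⟨y, ⟨hy1, hyS⟩, hya⟩ := (h0.and_eventually hpa).exists
  filter_upwards [hpb] with d hd
  obtain ⟨g1, g2, g3, g4⟩ := hab hya hd
  simp only at g1 g2 g3 g4
  -- intermediate value theorem
  have hcs : ContinuousOn (fun s : ℝ => ‖y - s • d‖) (Set.Icc (1 - η) (1 + η)) := by
    apply Continuous.continuousOn
    fun_prop
  have hmem : (1 : ℝ) ∈ Set.Icc (‖y - (1 - η) • d‖) (‖y - (1 + η) • d‖) := ⟨g1.le, g2.le⟩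
  obtain ⟨s, hs, hs1⟩ := intermediate_value_Icc (by linarith) hcs hmem
  simp only at hs1
  have hs0 : 0 < s := by linarith [hs.1]
  refine ⟨s, hs0, y, hyS, y - s • d, ?_, by abel⟩
  apply hball _ hs1
  rw [dist_eq_norm]
  have h7 : y - s • d - x1 = (y - y0) + (1 - s) • d0 - s • (d - d0) := by
    have : x1 = y0 - d0 := by rw [hd0]; abel
    rw [this]
    module
  rw [h7]
  have h8 : ‖(1 - s) • d0‖ ≤ η * ‖d0‖ := by
    rw [norm_smul, Real.norm_eq_abs]
    gcongr
    rw [abs_le]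
    constructor <;> linarith [hs.1, hs.2]
  have h9 : ‖s • (d - d0)‖ ≤ 2 * ‖d - d0‖ := by
    rw [norm_smul, Real.norm_eq_abs, abs_of_pos hs0]
    gcongr
    linarith [hs.2]
  calc ‖(y - y0) + (1 - s) • d0 - s • (d - d0)‖
      ≤ ‖(y - y0) + (1 - s) • d0‖ + ‖s • (d - d0)‖ := norm_sub_le _ _
    _ ≤ (‖y - y0‖ + ‖(1 - s) • d0‖) + ‖s • (d - d0)‖ := by
        gcongr
        exact norm_add_le _ _
    _ < ε := by linarith

end rigid

/-- The global step: a sphere map of a strictly convex space that agrees with a linear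
isomorphism near one point of differentiability of the norm is linear. -/
theorem global_step' {X Y : Type*} [NormedAddCommGroup X] [NormedSpace ℝ X]
    [StrictConvexSpace ℝ X] [NormedAddCommGroup Y] [NormedSpace ℝ Y]
    (hdim : 1 < Module.rank ℝ X) {F : X → Y} (hF : SphMap F) (x1 : X) (hx1 : ‖x1‖ = 1)
    (hd : DifferentiableAt ℝ (fun y : X => ‖y‖) x1) (T : X ≃L[ℝ] Y)
    (hT : ∀ᶠ x in 𝓝 x1, F x = T x) : ∀ x, F x = T x := by
  -- the sphere
  have hconn : IsPreconnected (sphere (0 : X) 1) := isPreconnected_sphere hdim 0 1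
  -- the open set of local coincidence
  set A : Set X := {x | ∀ᶠ y in 𝓝 x, F y = T y} with hA
  have hAopen : IsOpen A := by
    rw [isOpen_iff_mem_nhds]
    intro x hx
    exact eventually_eventually_nhds.2 hx
  have hx1A : x1 ∈ A := hT
  have hcl : ∀ y0, ‖y0‖ = 1 → (∃ᶠ y in 𝓝 y0, y ∈ A) → y0 ∈ A := by
    intro y0 hy0 hfreq
    by_cases hne : y0 = x1
    · rw [hne]; exact hx1A
    -- normalisation near `y0`
    have hnz : ∀ᶠ y in 𝓝 y0, ‖y‖ ≠ 0 :=
      continuous_norm.continuousAt.eventually_ne (by rw [hy0]; exact one_ne_zero)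
    have hnorm1 : Tendsto (fun y : X => ‖y‖⁻¹ • y) (𝓝 y0) (𝓝 y0) := by
      have hc : ContinuousAt (fun y : X => ‖y‖⁻¹ • y) y0 :=
        (continuous_norm.continuousAt.inv₀ (by rw [hy0]; exact one_ne_zero)).smul
          continuousAt_id
      have h2 := hc.tendsto
      rw [hy0, inv_one, one_smul] at h2
      exact h2
    set S : Set X := {x | ‖x‖ = 1 ∧ F x = T x} with hS
    have hfreqS : ∃ᶠ y in 𝓝 y0, ‖y‖ = 1 ∧ y ∈ S := by
      refine hnorm1.frequently ?_
      refine (hfreq.and_eventually hnz).mono fun y hy => ?_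
      have h1 : ‖‖y‖⁻¹ • y‖ = 1 := by
        rw [norm_smul, norm_inv, norm_norm, inv_mul_cancel₀ hy.2]
      refine ⟨h1, h1, ?_⟩
      rw [hF.smul, map_smul, (hy.1 : ∀ᶠ y in 𝓝 y, F y = T y).self_of_nhds]
    have hFy0 : F y0 = T y0 := by
      by_contra hcon
      have hopen : ∀ᶠ y in 𝓝 y0, F y ≠ T y :=
        (hF.continuous.continuousAt.ne_iff_eventually_ne T.continuous.continuousAt).1 hcon
      obtain ⟨y, hy, hy'⟩ := (hfreqS.and_eventually hopen).exists
      exact hy' hy.2.2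
    have hch := chord hx1 hy0 hne S (by
      filter_upwards [hT] with x hx hx1
      exact ⟨hx1, hx⟩) hfreqS
    have hnorm : ∀ᶠ d in 𝓝 (y0 - x1), ‖T d‖ = ‖d‖ := by
      filter_upwards [hch] with d hd
      obtain ⟨s, hs, y, hy, x, hx, hyx⟩ := hd
      have h1 : s * ‖T d‖ = s * ‖d‖ := by
        have e1 : s * ‖T d‖ = ‖T (s • d)‖ := by
          rw [map_smul, norm_smul, Real.norm_eq_abs, abs_of_pos hs]
        have e2 : s * ‖d‖ = ‖s • d‖ := by
          rw [norm_smul, Real.norm_eq_abs, abs_of_pos hs]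
        rw [e1, e2, ← hyx, map_sub, ← hy.2, ← hx.2]
        exact hF.norm_sub y x (hy.1.trans hx.1.symm)
      exact mul_left_cancel₀ hs.ne' h1
    -- the point `z`
    have hz : Tendsto (fun y => T.symm (F y)) (𝓝 y0) (𝓝 y0) := by
      have := (T.symm.continuous.comp hF.continuous).tendsto y0
      simp only [Function.comp_apply] at this
      rw [hFy0, T.symm_apply_apply] at this
      exact this
    have hc1 : Tendsto (fun p : X × X => T.symm (F p.1) - p.2) (𝓝 y0 ×ˢ 𝓝 x1)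
        (𝓝 (y0 - x1)) := (hz.comp tendsto_fst).sub tendsto_snd
    have hev := (hc1.eventually hnorm).and
      (tendsto_snd.eventually hT : ∀ᶠ p in 𝓝 y0 ×ˢ 𝓝 x1, F p.2 = T p.2)
    have hev' := hev.curry
    have hJ : ∀ᶠ y in 𝓝 y0, J x1 y < 1 :=
      ((J x1).continuous.tendsto y0).eventually (gt_mem_nhds (J_lt_one hx1 hy0 hd hne))
    have hunit : ∀ᶠ y in 𝓝 y0, ‖y‖ = 1 → F y = T y := by
      filter_upwards [hev', hJ, hz.eventually hJ] with y hy hJy hJz hy1
      have := rigid hx1 hd hJy hJz (z := T.symm (F y)) (by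
        filter_upwards [hy] with x hx hx1'
        have h2 := hF.norm_sub y x (hy1.trans hx1'.symm)
        rw [← h2, ← hx.1, hx.2, map_sub, T.apply_symm_apply])
      exact (T.symm_apply_eq.1 this.symm)
    show ∀ᶠ y in 𝓝 y0, F y = T y
    filter_upwards [hnorm1.eventually hunit, hnz] with y hy hy0
    have h1 : ‖‖y‖⁻¹ • y‖ = 1 := by
      rw [norm_smul, norm_inv, norm_norm, inv_mul_cancel₀ hy0]
    have h3 := hy h1
    rw [hF.smul, map_smul] at h3
    exact smul_right_injective Y (inv_ne_zero hy0) h3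
  -- the clopen argument
  have hsub : sphere (0 : X) 1 ⊆ A := by
    refine hconn.subset_of_closure_inter_subset hAopen ?_ ?_
    · exact ⟨x1, by simpa using hx1, hx1A⟩
    · rintro y ⟨hy, hy1⟩
      exact hcl y (by simpa using hy1) (mem_closure_iff_frequently.1 hy)
  intro x
  by_cases hx : x = 0
  · rw [hx, hF.zero, map_zero]
  have hxn : ‖x‖ ≠ 0 := norm_ne_zero_iff.2 hx
  have h1 : ‖‖x‖⁻¹ • x‖ = 1 := by simp [norm_smul, hxn]
  have h2 : ‖x‖⁻¹ • x ∈ A := hsub (by simpa using h1)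
  have h3 := (h2 : ∀ᶠ y in 𝓝 (‖x‖⁻¹ • x), F y = T y).self_of_nhds
  rw [hF.smul, map_smul] at h3
  exact smul_right_injective Y (inv_ne_zero hxn) h3

/-- The finite-dimensional form of the global step. -/
theorem global_step {X Y : Type*} [NormedAddCommGroup X] [NormedSpace ℝ X]
    [FiniteDimensional ℝ X] [StrictConvexSpace ℝ X] [NormedAddCommGroup Y] [NormedSpace ℝ Y]
    (hdim : 2 ≤ Module.finrank ℝ X) {F : X → Y} (hF : SphMap F) (x1 : X) (hx1 : ‖x1‖ = 1)
    (hd : DifferentiableAt ℝ (fun y : X => ‖y‖) x1) (T : X ≃L[ℝ] Y)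
    (hT : ∀ᶠ x in 𝓝 x1, F x = T x) : ∀ x, F x = T x := by
  refine global_step' ?_ hF x1 hx1 hd T hT
  rw [← Module.finrank_eq_rank]
  exact_mod_cast hdim

end Vale.Agent.P084
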