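import Vale.Agent.P084.COpen

namespace Vale.Agent.P084

open Filter Topology Metric Asymptotics Module

variable {X Y : Type*} [NormedAddCommGroup X] [NormedSpace ℝ X]
    [NormedAddCommGroup Y] [NormedSpace ℝ Y]

/-- from a `C^2` point, everything is `C^2` near it -/
theorem exists_loc [FiniteDimensional ℝ X] [FiniteDimensional ℝ Y] [StrictConvexSpace ℝ X]
    [StrictConvexSpace ℝ Y] {F : X → Y} {G : Y → X} (hF : SphMap F)
    (hGF : ∀ x, G (F x) = x) (hFG : ∀ y, F (G y) = y) {x0 : X} (hx0 : ‖x0‖ = 1)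
    (hX : ContDiffAt ℝ 2 (fun y : X => ‖y‖) x0) :
    Loc F x0 ∧ ∃ T : X ≃L[ℝ] Y, HasFDerivAt F (T : X →L[ℝ] Y) x0 := by
  have : CompleteSpace X := FiniteDimensional.complete ℝ X
  have hG : SphMap G := hF.inverse hGF hFG
  have hz0 : ‖F x0‖ = 1 := by rw [hF.norm_map, hx0]
  have hY1 : ContDiffAt ℝ 1 (fun y : Y => ‖y‖) (F x0) := norm_contDiffAt_one hF hGF hFG hx0 hX
  have hX1 : ContDiffAt ℝ 1 (fun y : X => ‖y‖) x0 := hX.of_le (by norm_num)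
  have hF1 : ContDiffAt ℝ 1 F x0 :=
    F_contDiffAt hF hGF hFG hx0 (by norm_num) (by decide) hX1 hY1
  have hG1 : ContDiffAt ℝ 1 G (F x0) :=
    F_contDiffAt hG hFG hGF hz0 (by norm_num) (by decide) hY1 (by rw [hGF]; exact hX1)
  obtain ⟨T, hT, -⟩ := exists_T hGF hFG (hF1.differentiableAt (by norm_num))
    (hG1.differentiableAt (by norm_num))
  have hY2 : ContDiffAt ℝ 2 (fun y : Y => ‖y‖) (F x0) :=
    norm_contDiffAt_two hF hx0 hX hY1 hF1 T hT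
  have hF2 : ContDiffAt ℝ 2 F x0 :=
    F_contDiffAt hF hGF hFG hx0 (by norm_num) (by decide) hX hY2
  refine ⟨⟨hX, hY2, hF2, ?_⟩, T, hT⟩
  rintro rfl
  simp at hx0

/-- local linearity at a non degenerate point -/
theorem local_linear [FiniteDimensional ℝ X] [FiniteDimensional ℝ Y] [StrictConvexSpace ℝ X]
    [StrictConvexSpace ℝ Y] (hdim : 3 ≤ finrank ℝ X) {F : X → Y} {G : Y → X} (hF : SphMap F)
    (hGF : ∀ x, G (F x) = x) (hFG : ∀ y, F (G y) = y) {x0 : X} (hx0 : x0 ≠ 0)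
    (hX : ContDiffAt ℝ 2 (fun y : X => ‖y‖) x0)
    (hpos : ∀ v, J x0 v = 0 → v ≠ 0 → 0 < fderiv ℝ (J : X → X →L[ℝ] ℝ) x0 v v) :
    ∃ x1 : X, ‖x1‖ = 1 ∧ DifferentiableAt ℝ (fun y : X => ‖y‖) x1 ∧
      ∃ T : X ≃L[ℝ] Y, ∀ᶠ y in 𝓝 x1, F y = T y := by
  have hpos0 : 0 < ‖x0‖ := norm_pos_iff.mpr hx0
  set c := ‖x0‖⁻¹ with hc
  have hcpos : 0 < c := inv_pos.mpr hpos0
  have h1 : ‖c • x0‖ = 1 := by
    rw [norm_smul, hc, norm_inv, norm_norm, inv_mul_cancel₀ hpos0.ne']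
  have h2 : ContDiffAt ℝ 2 (fun y : X => ‖y‖) (c • x0) := hX.contDiffAt_norm_smul hcpos.ne'
  obtain ⟨hL, T, hT⟩ := exists_loc hF hGF hFG h1 h2
  have hB0 : HasFDerivAt (J : X → X →L[ℝ] ℝ) (fderiv ℝ (J : X → X →L[ℝ] ℝ) x0) x0 :=
    ((J_contDiffAt hX).differentiableAt (by norm_num)).hasFDerivAt
  have hB1 := (BJ_smul hB0 hcpos).fderiv
  refine ⟨c • x0, h1, h2.differentiableAt (by norm_num), T, ?_⟩
  refine hL.linear_near hdim hF T hT ?_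
  intro v hv hv0
  rw [J_smul_pos x0 hcpos] at hv
  rw [hB1]
  have := hpos v hv hv0
  have h4 : 0 < c⁻¹ := inv_pos.mpr hcpos
  simpa using mul_pos h4 this

end Vale.Agent.P084
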