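import Vale.Agent.P084.CTouch
import Vale.Agent.P084.CAlg

/-!
# P084, theorem C: local linearity of a `C^2` sphere map
-/

namespace Vale.Agent.P084

open Filter Topology Metric

variable {X Y : Type*} [NormedAddCommGroup X] [NormedSpace ℝ X]
  [NormedAddCommGroup Y] [NormedSpace ℝ Y] {F : X → Y}

/-- homogeneity of the Hessian of the norm -/
theorem hess_smul {x : X} (h : ContDiffAt ℝ 2 (fun y : X => ‖y‖) x) {c : ℝ} (hc : 0 < c) :
    fderiv ℝ J (c • x) = c⁻¹ • fderiv ℝ J x := by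
  have h1 : HasFDerivAt (fun y : X => J (c⁻¹ • y)) (c⁻¹ • fderiv ℝ J x) (c • x) := by
    have h3 : HasFDerivAt J (fderiv ℝ J x) (c⁻¹ • (c • x)) := by
      rw [smul_smul, inv_mul_cancel₀ hc.ne', one_smul]
      exact hasFDerivAt_J_of_two h
    have h4 : HasFDerivAt (fun y : X => c⁻¹ • y) (c⁻¹ • ContinuousLinearMap.id ℝ X)
        (c • x) := (hasFDerivAt_id _).const_smul _
    have h5 := h3.comp _ h4
    refine h5.congr_fderiv ?_
    ext u v
    simp
  have h6 : (fun y : X => J (c⁻¹ • y)) = J := by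
    funext y
    exact J_smul_pos y (inv_pos.2 hc)
  rw [h6] at h1
  exact h1.fderiv

/-- first order identity -/
theorem SphMap.J_T (hF : SphMap F) {x : X} {T : X →L[ℝ] Y}
    (hX : DifferentiableAt ℝ (fun y : X => ‖y‖) x)
    (hY : DifferentiableAt ℝ (fun y : Y => ‖y‖) (F x)) (hT : HasFDerivAt F T x) (u : X) :
    J (F x) (T u) = J x u := by
  have h1 : HasFDerivAt (fun y : X => ‖F y‖) ((J (F x)).comp T) x :=
    hY.hasFDerivAt.comp x hT
  have h2 : (fun y : X => ‖F y‖) = fun y => ‖y‖ := funext hF.norm_map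
  rw [h2] at h1
  have h3 := h1.unique hX.hasFDerivAt
  have h4 := congrArg (fun L : X →L[ℝ] ℝ => L u) h3
  exact h4

/-- first order cross identity -/
theorem SphMap.J_cross (hF : SphMap F) {x y : X} {T : X →L[ℝ] Y} (hy : y ≠ 0)
    (hX : DifferentiableAt ℝ (fun y : X => ‖y‖) x)
    (hT : HasFDerivAt F T x)
    (hXc : DifferentiableAt ℝ (fun y : X => ‖y‖) (‖y‖ • x + ‖x‖ • y))
    (hYc : DifferentiableAt ℝ (fun y : Y => ‖y‖) (‖y‖ • F x + ‖x‖ • F y))
    {u : X} (hu : J x u = 0) :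
    J (‖y‖ • F x + ‖x‖ • F y) (T u) = J (‖y‖ • x + ‖x‖ • y) u := by
  have hn : HasFDerivAt (fun z : X => ‖z‖) (J x) x := hX.hasFDerivAt
  have h1 : HasFDerivAt (fun z : X => ‖y‖ • F z + ‖z‖ • F y)
      (‖y‖ • T + (J x).smulRight (F y)) x := (hT.const_smul ‖y‖).add (hn.smul_const (F y))
  have h2 : HasFDerivAt (fun z : X => ‖y‖ • z + ‖z‖ • y)
      (‖y‖ • ContinuousLinearMap.id ℝ X + (J x).smulRight y) x :=
    ((hasFDerivAt_id x).const_smul ‖y‖).add (hn.smul_const y)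
  have h3 : HasFDerivAt (fun z : X => ‖‖y‖ • F z + ‖z‖ • F y‖) _ x :=
    hYc.hasFDerivAt.comp x h1
  have h4 : HasFDerivAt (fun z : X => ‖‖y‖ • z + ‖z‖ • y‖) _ x :=
    hXc.hasFDerivAt.comp x h2
  have h5 : (fun z : X => ‖‖y‖ • F z + ‖z‖ • F y‖) = fun z : X => ‖‖y‖ • z + ‖z‖ • y‖ :=
    funext fun z => hF.cross_add z y
  rw [h5] at h3
  have h6 := congrArg (fun L : X →L[ℝ] ℝ => L u) (h3.unique h4)
  simp only [ContinuousLinearMap.comp_apply, add_apply, smul_apply,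
    ContinuousLinearMap.smulRight_apply, ContinuousLinearMap.id_apply, hu, zero_smul, add_zero,
    map_smul, smul_eq_mul] at h6
  have hyn : ‖y‖ ≠ 0 := norm_ne_zero_iff.2 hy
  exact mul_left_cancel₀ hyn h6

/-- (I): tangential isometry -/
theorem SphMap.norm_T (hF : SphMap F) {x : X} (hx : x ≠ 0) {T : X →L[ℝ] Y}
    (hX : DifferentiableAt ℝ (fun y : X => ‖y‖) x) (hT : HasFDerivAt F T x)
    {d : X} (hd : J x d = 0) : ‖T d‖ = ‖d‖ := by
  have hxn : 0 < ‖x‖ := norm_pos_iff.2 hx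
  have hn : HasFDerivAt (fun z : X => ‖z‖) (J x) x := hX.hasFDerivAt
  have hline : HasDerivAt (fun t : ℝ => x + t • d) d 0 := by
    have := ((hasDerivAt_id (0 : ℝ)).smul_const d).const_add x
    simpa using this
  have h1 : HasFDerivAt (fun z : X => ‖x‖ • F z - ‖z‖ • F x)
      (‖x‖ • T - (J x).smulRight (F x)) (x + (0 : ℝ) • d) := by
    rw [zero_smul, add_zero]
    exact (hT.const_smul ‖x‖).sub (hn.smul_const (F x))
  have h2 : HasFDerivAt (fun z : X => ‖x‖ • z - ‖z‖ • x)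
      (‖x‖ • ContinuousLinearMap.id ℝ X - (J x).smulRight x) (x + (0 : ℝ) • d) := by
    rw [zero_smul, add_zero]
    exact ((hasFDerivAt_id x).const_smul ‖x‖).sub (hn.smul_const x)
  have h3 := h1.comp_hasDerivAt (0 : ℝ) hline
  have h4 := h2.comp_hasDerivAt (0 : ℝ) hline
  simp only [sub_apply, smul_apply, ContinuousLinearMap.smulRight_apply,
    ContinuousLinearMap.id_apply, hd, zero_smul, sub_zero] at h3 h4
  have h5 := (hasDerivAt_iff_tendsto_slope.1 h3).norm
  have h6 := (hasDerivAt_iff_tendsto_slope.1 h4).norm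
  have h7 : ∀ t : ℝ, ‖slope ((fun z : X => ‖x‖ • F z - ‖z‖ • F x) ∘ fun t : ℝ => x + t • d) 0 t‖
      = ‖slope ((fun z : X => ‖x‖ • z - ‖z‖ • x) ∘ fun t : ℝ => x + t • d) 0 t‖ := by
    intro t
    simp only [slope_def_module, Function.comp_apply, zero_smul, add_zero, sub_self, sub_zero,
      norm_smul]
    have := hF.cross_sub (x + t • d) x
    rw [this]
  simp only [h7] at h5
  have h8 := tendsto_nhds_unique h5 h6
  rw [norm_smul, norm_smul] at h8
  exact mul_left_cancel₀ (norm_ne_zero_iff.2 hxn.ne') h8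

/-- regularity of `F` and of both norms at a point -/
structure Reg (F : X → Y) (e : X) : Prop where
  ne : e ≠ 0
  cX : ContDiffAt ℝ 2 (fun y : X => ‖y‖) e
  cY : ContDiffAt ℝ 2 (fun y : Y => ‖y‖) (F e)
  cF : ContDiffAt ℝ 2 F e

theorem Reg.dX {e : X} (h : Reg F e) : DifferentiableAt ℝ (fun y : X => ‖y‖) e :=
  h.cX.differentiableAt (by norm_num)

theorem Reg.dY {e : X} (h : Reg F e) : DifferentiableAt ℝ (fun y : Y => ‖y‖) (F e) :=
  h.cY.differentiableAt (by norm_num)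

theorem Reg.dF {e : X} (h : Reg F e) : HasFDerivAt F (fderiv ℝ F e) e :=
  (h.cF.differentiableAt (by norm_num)).hasFDerivAt

theorem Reg.dT {e : X} (h : Reg F e) :
    HasFDerivAt (fderiv ℝ F) (fderiv ℝ (fderiv ℝ F) e) e := by
  have h1 : ContDiffAt ℝ 1 (fderiv ℝ F) e := h.cF.fderiv_right (by norm_num)
  exact (h1.differentiableAt (by norm_num)).hasFDerivAt

theorem Reg.eventually (hF : SphMap F) {e : X} (h : Reg F e) : ∀ᶠ x in 𝓝 e, Reg F x := by
  have h1 := h.cX.eventually (by simp)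
  have h2 := hF.continuous.continuousAt.eventually (h.cY.eventually (by simp))
  have h3 := h.cF.eventually (by simp)
  have h4 : ∀ᶠ x in 𝓝 e, x ≠ 0 := isOpen_ne.mem_nhds h.ne
  filter_upwards [h1, h2, h3, h4] with x h1 h2 h3 h4
  exact ⟨h4, h1, h2, h3⟩

/-- second order cross identity -/
theorem SphMap.B_cross (hF : SphMap F) {e : X} (he : Reg F e) :
    ∀ᶠ p in 𝓝 (e, e), ∀ u v : X, J p.1 u = 0 → J p.2 v = 0 →
      fderiv ℝ J (‖p.2‖ • F p.1 + ‖p.1‖ • F p.2) (‖p.1‖ • fderiv ℝ F p.2 v)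
        (fderiv ℝ F p.1 u) =
      fderiv ℝ J (‖p.2‖ • p.1 + ‖p.1‖ • p.2) (‖p.1‖ • v) u := by
  have hen : 0 < ‖e‖ := norm_pos_iff.2 he.ne
  have c1 : Tendsto (fun p : X × X => p.1) (𝓝 (e, e)) (𝓝 e) := continuous_fst.tendsto _
  have c2 : Tendsto (fun p : X × X => p.2) (𝓝 (e, e)) (𝓝 e) := continuous_snd.tendsto _
  have c3 : Tendsto (fun p : X × X => ‖p.2‖ • p.1 + ‖p.1‖ • p.2) (𝓝 (e, e))
      (𝓝 ((2 * ‖e‖) • e)) := by
    have hc : Continuous fun p : X × X => ‖p.2‖ • p.1 + ‖p.1‖ • p.2 := by fun_prop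
    have := hc.tendsto (e, e)
    have h2 : ‖e‖ • e + ‖e‖ • e = (2 * ‖e‖) • e := by module
    rw [← h2]
    exact this
  have c4 : Tendsto (fun p : X × X => ‖p.2‖ • F p.1 + ‖p.1‖ • F p.2) (𝓝 (e, e))
      (𝓝 ((2 * ‖e‖) • F e)) := by
    have hFc := hF.continuous
    have hc : Continuous fun p : X × X => ‖p.2‖ • F p.1 + ‖p.1‖ • F p.2 := by fun_prop
    have := hc.tendsto (e, e)
    have h2 : ‖e‖ • F e + ‖e‖ • F e = (2 * ‖e‖) • F e := by module
    rw [← h2]
    exact this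
  have e1 := c1.eventually (he.eventually hF)
  have e2 := c2.eventually (he.eventually hF)
  have e3 := c3.eventually ((he.cX.contDiffAt_norm_smul (t := 2 * ‖e‖)
    (by positivity)).eventually (by simp))
  have e4 := c4.eventually ((he.cY.contDiffAt_norm_smul (t := 2 * ‖e‖)
    (by positivity)).eventually (by simp))
  have e5 := e1.and (e2.and (e3.and e4))
  filter_upwards [eventually_eventually_nhds.2 e5] with p hp u v hu hv
  obtain ⟨x, y⟩ := p
  obtain ⟨g1, g2, g3, g4⟩ := hp.self_of_nhds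
  simp only at g1 g2 g3 g4 hu hv ⊢
  have hsec : Tendsto (fun y' : X => (x, y')) (𝓝 y) (𝓝 (x, y)) :=
    (Continuous.prodMk_right x).tendsto y
  have hev : (fun y' : X => J (‖y'‖ • F x + ‖x‖ • F y') (fderiv ℝ F x u)) =ᶠ[𝓝 y]
      fun y' : X => J (‖y'‖ • x + ‖x‖ • y') u := by
    filter_upwards [hsec.eventually hp] with y' hy'
    obtain ⟨k1, k2, k3, k4⟩ := hy'
    exact hF.J_cross k2.ne k1.dX k1.dF (k3.differentiableAt (by norm_num))
      (k4.differentiableAt (by norm_num)) hu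
  have hn : HasFDerivAt (fun z : X => ‖z‖) (J y) y := g2.dX.hasFDerivAt
  have d1 : HasFDerivAt (fun y' : X => ‖y'‖ • F x + ‖x‖ • F y')
      ((J y).smulRight (F x) + ‖x‖ • fderiv ℝ F y) y :=
    (hn.smul_const (F x)).add (g2.dF.const_smul ‖x‖)
  have d2 : HasFDerivAt (fun y' : X => ‖y'‖ • x + ‖x‖ • y')
      ((J y).smulRight x + ‖x‖ • ContinuousLinearMap.id ℝ X) y :=
    (hn.smul_const x).add ((hasFDerivAt_id y).const_smul ‖x‖)
  have d3 := (hasFDerivAt_J_of_two g4).comp y d1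
  have d4 := (hasFDerivAt_J_of_two g3).comp y d2
  have d5 := ((ContinuousLinearMap.apply ℝ ℝ (fderiv ℝ F x u)).hasFDerivAt.comp y d3)
  have d6 := ((ContinuousLinearMap.apply ℝ ℝ u).hasFDerivAt.comp y d4)
  have d7 := d5.congr_of_eventuallyEq (f₁ := fun y' : X => J (‖y'‖ • x + ‖x‖ • y') u) hev.symm
  have d8 := congrArg (fun L : X →L[ℝ] ℝ => L v) (d7.unique d6)
  simpa [hv] using d8

/-- (II): the Hessians correspond -/
theorem SphMap.B_T (hF : SphMap F) {e : X} (he : Reg F e) {u v : X} (hu : J e u = 0)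
    (hv : J e v = 0) :
    fderiv ℝ J (F e) (fderiv ℝ F e v) (fderiv ℝ F e u) = fderiv ℝ J e v u := by
  have hen : 0 < ‖e‖ := norm_pos_iff.2 he.ne
  have h1 := (hF.B_cross he).self_of_nhds u v hu hv
  simp only at h1
  have h2 : ‖e‖ • e + ‖e‖ • e = (2 * ‖e‖) • e := by module
  have h3 : ‖e‖ • F e + ‖e‖ • F e = (2 * ‖e‖) • F e := by module
  have hp : 0 < 2 * ‖e‖ := by positivity
  rw [h2, h3, hess_smul he.cX hp, hess_smul he.cY hp] at h1
  simp only [smul_apply, map_smul, smul_eq_mul] at h1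
  have h4 : (2 * ‖e‖)⁻¹ * ‖e‖ ≠ 0 := by positivity
  have h5 : (2 * ‖e‖)⁻¹ * ‖e‖ * fderiv ℝ J (F e) (fderiv ℝ F e v) (fderiv ℝ F e u) =
      (2 * ‖e‖)⁻¹ * ‖e‖ * fderiv ℝ J e v u := by
    linarith
  exact mul_left_cancel₀ h4 h5

/-- the second derivative of `F` has no radial component -/
theorem SphMap.J_D2 (hF : SphMap F) {e : X} (he : Reg F e) {u v : X} (hu : J e u = 0)
    (hv : J e v = 0) : J (F e) (fderiv ℝ (fderiv ℝ F) e v u) = 0 := by
  have hev : (fun x : X => J (F x) (fderiv ℝ F x u)) =ᶠ[𝓝 e] fun x => J x u := by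
    filter_upwards [he.eventually hF] with x hx
    exact hF.J_T hx.dX hx.dY hx.dF u
  have d1 : HasFDerivAt (fun x : X => J (F x)) _ e := (hasFDerivAt_J_of_two he.cY).comp e he.dF
  have d2 : HasFDerivAt (fun x : X => fderiv ℝ F x u) _ e :=
    (ContinuousLinearMap.apply ℝ Y u).hasFDerivAt.comp e he.dT
  have d3 := d1.clm_apply d2
  have d4 := (ContinuousLinearMap.apply ℝ ℝ u).hasFDerivAt.comp e (hasFDerivAt_J_of_two he.cX)
  have d5 := d3.congr_of_eventuallyEq (f₁ := fun x : X => J x u) hev.symm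
  have d6 := congrArg (fun L : X →L[ℝ] ℝ => L v) (d5.unique d4)
  simp at d6
  have h1 := hF.B_T he hu hv
  linarith

/-- Euler's identity for `F` -/
theorem SphMap.T_self (hF : SphMap F) {x : X} {T : X →L[ℝ] Y} (hT : HasFDerivAt F T x) :
    T x = F x := by
  have h1 : HasFDerivAt F T ((1 : ℝ) • x) := by rw [one_smul]; exact hT
  have h2 : HasDerivAt (fun t : ℝ => t • x) ((1 : ℝ) • x) 1 :=
    (hasDerivAt_id (1 : ℝ)).smul_const x
  have h3 := h1.comp_hasDerivAt (1 : ℝ) h2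
  rw [one_smul] at h3
  have h4 : (F ∘ fun t : ℝ => t • x) = fun t : ℝ => t • F x := by
    funext t
    exact hF.smul t x
  rw [h4] at h3
  have h5 : HasDerivAt (fun t : ℝ => t • F x) ((1 : ℝ) • F x) 1 :=
    (hasDerivAt_id (1 : ℝ)).smul_const (F x)
  rw [one_smul] at h5
  exact h3.unique h5

/-- the derivative of `F` is homogeneous of degree zero -/
theorem SphMap.fderiv_smul (hF : SphMap F) (x : X) {c : ℝ} (hc : 0 < c) :
    fderiv ℝ F (c • x) = fderiv ℝ F x := by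
  have key : ∀ (c : ℝ) (x : X), 0 < c → DifferentiableAt ℝ F x →
      HasFDerivAt F (fderiv ℝ F x) (c • x) := by
    intro c x hc hd
    have h1 : HasFDerivAt F (fderiv ℝ F x) (c⁻¹ • (c • x)) := by
      rw [smul_smul, inv_mul_cancel₀ hc.ne', one_smul]
      exact hd.hasFDerivAt
    have h4 : HasFDerivAt (fun y : X => c⁻¹ • y) (c⁻¹ • ContinuousLinearMap.id ℝ X)
        (c • x) := (hasFDerivAt_id _).const_smul _
    have h5 := (h1.comp _ h4).const_smul c
    have h6 : (c • (F ∘ fun y : X => c⁻¹ • y)) = F := by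
      funext y
      simp only [Pi.smul_apply, Function.comp_apply]
      rw [hF.smul, smul_smul, mul_inv_cancel₀ hc.ne', one_smul]
    rw [h6] at h5
    refine h5.congr_fderiv ?_
    ext u
    simp only [smul_apply, ContinuousLinearMap.comp_apply, ContinuousLinearMap.id_apply,
      map_smul]
    rw [smul_smul, mul_inv_cancel₀ hc.ne', one_smul]
  by_cases hd : DifferentiableAt ℝ F x
  · exact (key c x hc hd).fderiv
  · rw [fderiv_zero_of_not_differentiableAt hd, fderiv_zero_of_not_differentiableAt]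
    intro hd'
    apply hd
    have := (key c⁻¹ (c • x) (inv_pos.2 hc) hd').differentiableAt
    rwa [smul_smul, inv_mul_cancel₀ hc.ne', one_smul] at this

theorem SphMap.D2_self (hF : SphMap F) {e : X} (he : Reg F e) :
    fderiv ℝ (fderiv ℝ F) e e = 0 := by
  have h1 : HasFDerivAt (fderiv ℝ F) (fderiv ℝ (fderiv ℝ F) e) ((1 : ℝ) • e) := by
    rw [one_smul]
    exact he.dT
  have h2 : HasDerivAt (fun t : ℝ => t • e) ((1 : ℝ) • e) 1 :=
    (hasDerivAt_id (1 : ℝ)).smul_const e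
  have h3 := h1.comp_hasDerivAt (1 : ℝ) h2
  rw [one_smul] at h3
  have h4 : (fderiv ℝ F ∘ fun t : ℝ => t • e) =ᶠ[𝓝 1] fun _ => fderiv ℝ F e := by
    filter_upwards [eventually_gt_nhds (zero_lt_one : (0 : ℝ) < 1)] with t ht
    exact hF.fderiv_smul e ht
  have h5 := (hasDerivAt_const (1 : ℝ) (fderiv ℝ F e)).congr_of_eventuallyEq h4
  exact h3.unique h5

theorem Reg.D2_symm {e : X} (he : Reg F e) (u v : X) :
    fderiv ℝ (fderiv ℝ F) e u v = fderiv ℝ (fderiv ℝ F) e v u :=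
  (he.cF.isSymmSndFDerivAt (by simp)) u v

/-- projection to the kernel of `J x` along `x` -/
noncomputable def Pr (x u : X) : X := u - (J x u / ‖x‖) • x

theorem J_Pr {x : X} (hx : x ≠ 0) (hX : DifferentiableAt ℝ (fun y : X => ‖y‖) x) (u : X) :
    J x (Pr x u) = 0 := by
  have : ‖x‖ ≠ 0 := norm_ne_zero_iff.2 hx
  rw [Pr, map_sub, map_smul, J_self hX, smul_eq_mul, div_mul_cancel₀ _ this, sub_self]

theorem Pr_of {x u : X} (hu : J x u = 0) : Pr x u = u := by
  simp [Pr, hu]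

theorem hasDerivAt_line (e m : X) (t : ℝ) : HasDerivAt (fun t : ℝ => e + t • m) m t := by
  have := ((hasDerivAt_id t).smul_const m).const_add e
  simpa using this

theorem hasDerivAt_Pr {e : X} (hne : e ≠ 0) (hX : ContDiffAt ℝ 2 (fun y : X => ‖y‖) e)
    {u : X} (hu : J e u = 0) (m : X) :
    HasDerivAt (fun t : ℝ => Pr (e + t • m) u) (-(fderiv ℝ J e m u / ‖e‖) • e) 0 := by
  have hen : ‖e‖ ≠ 0 := norm_ne_zero_iff.2 hne
  have h0 : e + (0 : ℝ) • m = e := by rw [zero_smul, add_zero]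
  have h1 : HasDerivAt (fun t : ℝ => J (e + t • m)) (fderiv ℝ J e m) 0 := by
    have : HasFDerivAt J (fderiv ℝ J e) (e + (0 : ℝ) • m) := by
      rw [h0]; exact hasFDerivAt_J_of_two hX
    exact this.comp_hasDerivAt (0 : ℝ) (hasDerivAt_line e m 0)
  have h2 : HasDerivAt (fun t : ℝ => J (e + t • m) u) (fderiv ℝ J e m u) 0 := by
    have := h1.clm_apply (hasDerivAt_const (0 : ℝ) u)
    simpa using this
  have h3 : HasDerivAt (fun t : ℝ => ‖e + t • m‖) (J e m) 0 := by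
    have : HasFDerivAt (fun y : X => ‖y‖) (J e) (e + (0 : ℝ) • m) := by
      rw [h0]; exact hasFDerivAt_norm_of_contDiffAt hX
    exact this.comp_hasDerivAt (0 : ℝ) (hasDerivAt_line e m 0)
  have h4 := h2.div h3 (by rw [h0]; exact hen)
  have h5 := (h4.smul (hasDerivAt_line e m 0)).const_sub u
  refine h5.congr_deriv ?_
  simp only [Pi.div_apply, zero_smul, add_zero, hu, zero_div, zero_mul, sub_zero, zero_add]
  rw [neg_smul]
  congr 2
  field_simp

theorem hasDerivAt_TPr (hF : SphMap F) {e : X} (he : Reg F e) {u : X} (hu : J e u = 0) (m : X) :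
    HasDerivAt (fun t : ℝ => fderiv ℝ F (e + t • m) (Pr (e + t • m) u))
      (fderiv ℝ (fderiv ℝ F) e m u - (fderiv ℝ J e m u / ‖e‖) • F e) 0 := by
  have h0 : e + (0 : ℝ) • m = e := by rw [zero_smul, add_zero]
  have h1 : HasDerivAt (fun t : ℝ => fderiv ℝ F (e + t • m)) (fderiv ℝ (fderiv ℝ F) e m) 0 := by
    have : HasFDerivAt (fderiv ℝ F) (fderiv ℝ (fderiv ℝ F) e) (e + (0 : ℝ) • m) := by
      rw [h0]; exact he.dT
    exact this.comp_hasDerivAt (0 : ℝ) (hasDerivAt_line e m 0)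
  have h2 := h1.clm_apply (hasDerivAt_Pr he.ne he.cX hu m)
  refine h2.congr_deriv ?_
  simp only [zero_smul, add_zero]
  rw [Pr_of hu, map_smul, hF.T_self he.dF, neg_smul, sub_eq_add_neg]

/-- derivative of an expression in which only continuity of the operator is needed -/
theorem hasDerivAt_apply_of_zero {Z W : Type*} [NormedAddCommGroup Z] [NormedSpace ℝ Z]
    [NormedAddCommGroup W] [NormedSpace ℝ W] {c : ℝ → Z →L[ℝ] W} {δ : ℝ → Z} {δ' : Z}
    (hc : ContinuousAt c 0) (hδ : HasDerivAt δ δ' 0) (h0 : δ 0 = 0) :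
    HasDerivAt (fun t => c t (δ t)) (c 0 δ') 0 := by
  rw [hasDerivAt_iff_tendsto_slope]
  have h1 := hasDerivAt_iff_tendsto_slope.1 hδ
  have h2 : Tendsto c (𝓝[≠] 0) (𝓝 (c 0)) := hc.tendsto.mono_left nhdsWithin_le_nhds
  have hbc : Continuous fun p : (Z →L[ℝ] W) × Z => p.1 p.2 :=
    isBoundedBilinearMap_apply.continuous
  have h3 : Tendsto (fun t => c t (slope δ 0 t)) (𝓝[≠] 0) (𝓝 (c 0 δ')) :=
    (hbc.tendsto (c 0, δ')).comp (h2.prodMk_nhds h1)
  refine h3.congr fun t => ?_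
  simp only [slope_def_module, h0, map_zero, sub_zero, map_smul]

/-- difference rule for bilinear expressions -/
theorem hasDerivAt_bilin_sub {Z : Type*} [NormedAddCommGroup Z] [NormedSpace ℝ Z]
    {B : ℝ → Z →L[ℝ] Z →L[ℝ] ℝ} {a a' b b' : ℝ → Z} {α α' β β' : Z}
    (hB : ContinuousAt B 0) (ha : HasDerivAt a α 0) (ha' : HasDerivAt a' α' 0)
    (hb : HasDerivAt b β 0) (hb' : HasDerivAt b' β' 0) (h0 : a 0 = a' 0) (h1 : b 0 = b' 0) :
    HasDerivAt (fun t => B t (a t) (b t) - B t (a' t) (b' t))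
      (B 0 (α - α') (b 0) + B 0 (a 0) (β - β')) 0 := by
  have e1 : HasDerivAt (fun t => B t (a t - a' t) (b t)) (B 0 (α - α') (b 0)) 0 := by
    have h2 := hasDerivAt_apply_of_zero (c := fun t => (B t).flip (b t))
      (((ContinuousLinearMap.flipₗᵢ ℝ Z Z ℝ).continuous.continuousAt.comp hB).clm_apply
        hb.continuousAt) (ha.sub ha') (by simp [h0])
    exact h2
  have e2 : HasDerivAt (fun t => B t (a' t) (b t - b' t)) (B 0 (a' 0) (β - β')) 0 :=
    hasDerivAt_apply_of_zero (c := fun t => B t (a' t)) (hB.clm_apply ha'.continuousAt)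
      (hb.sub hb') (by simp [h1])
  have e3 := e1.add e2
  rw [h0]
  refine e3.congr_of_eventuallyEq (Eventually.of_forall fun t => ?_)
  simp only [Pi.add_apply, map_sub, sub_apply]
  ring

theorem continuousAt_hess {x : X} (h : ContDiffAt ℝ 2 (fun y : X => ‖y‖) x) :
    ContinuousAt (fderiv ℝ J) x := by
  have h1 : ContDiffAt ℝ 1 (fderiv ℝ (fun y : X => ‖y‖)) x := h.fderiv_right (by norm_num)
  have h2 : ContDiffAt ℝ 0 (fderiv ℝ (fderiv ℝ (fun y : X => ‖y‖))) x :=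
    h1.fderiv_right (by norm_num)
  exact h2.continuousAt

theorem tendsto_hess {x : X} (h : ContDiffAt ℝ 2 (fun y : X => ‖y‖) x) :
    Tendsto (fun y => ‖fderiv ℝ J y - fderiv ℝ J x‖) (𝓝 x) (𝓝 0) := by
  have h1 : ContDiffAt ℝ 1 (J : X → X →L[ℝ] ℝ) x := h.fderiv_right (by norm_num)
  have h2 := (h1.fderiv_right (m := 0) (by norm_num)).continuousAt.tendsto
  have h3 := tendsto_iff_norm_sub_tendsto_zero.1 h2
  exact h3

/-- (S): total symmetry -/
theorem SphMap.S_symm (hF : SphMap F) {e : X} (he : Reg F e) {w u v : X}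
    (hu : J e u = 0) (hv : J e v = 0) :
    fderiv ℝ J (F e) (fderiv ℝ (fderiv ℝ F) e w v) (fderiv ℝ F e u) =
      fderiv ℝ J (F e) (fderiv ℝ (fderiv ℝ F) e w u) (fderiv ℝ F e v) := by
  have hen : 0 < ‖e‖ := norm_pos_iff.2 he.ne
  have hp : 0 < 2 * ‖e‖ := by positivity
  have h0 : ∀ m : X, e + (0 : ℝ) • m = e := fun m => by rw [zero_smul, add_zero]
  -- paths
  have hx : Tendsto (fun t : ℝ => e + t • w) (𝓝 0) (𝓝 e) := by
    have := (hasDerivAt_line e w 0).continuousAt.tendsto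
    rwa [h0] at this
  have hy : Tendsto (fun t : ℝ => e + t • (-w)) (𝓝 0) (𝓝 e) := by
    have := (hasDerivAt_line e (-w) 0).continuousAt.tendsto
    rwa [h0] at this
  have hxy := (hx.prodMk_nhds hy).eventually (hF.B_cross he)
  have hyx := (hy.prodMk_nhds hx).eventually (hF.B_cross he)
  have hrx := hx.eventually (he.eventually hF)
  have hry := hy.eventually (he.eventually hF)
  -- the two operator paths
  set P : ℝ → Y := fun t => ‖e + t • (-w)‖ • F (e + t • w) + ‖e + t • w‖ • F (e + t • (-w))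
    with hP
  set Q : ℝ → X := fun t => ‖e + t • (-w)‖ • (e + t • w) + ‖e + t • w‖ • (e + t • (-w)) with hQ
  have hP0 : P 0 = (2 * ‖e‖) • F e := by
    simp only [hP, h0]
    module
  have hQ0 : Q 0 = (2 * ‖e‖) • e := by
    simp only [hQ, h0]
    module
  have hFc := hF.continuous
  have hPc : Continuous P := by fun_prop
  have hQc : Continuous Q := by fun_prop
  have hBY : ContinuousAt (fun t => fderiv ℝ J (P t)) 0 := by
    have h1 : ContinuousAt (fderiv ℝ J) (P 0) := by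
      rw [hP0]
      exact continuousAt_hess (he.cY.contDiffAt_norm_smul hp.ne')
    exact ContinuousAt.comp (f := P) h1 hPc.continuousAt
  have hBX : ContinuousAt (fun t => fderiv ℝ J (Q t)) 0 := by
    have h1 : ContinuousAt (fderiv ℝ J) (Q 0) := by
      rw [hQ0]
      exact continuousAt_hess (he.cX.contDiffAt_norm_smul hp.ne')
    exact ContinuousAt.comp (f := Q) h1 hQc.continuousAt
  -- derivative on the `Y` side
  have dY := hasDerivAt_bilin_sub hBY (hasDerivAt_TPr hF he hv (-w)) (hasDerivAt_TPr hF he hv w)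
    (hasDerivAt_TPr hF he hu w) (hasDerivAt_TPr hF he hu (-w)) (by simp only [h0])
    (by simp only [h0])
  have dX := hasDerivAt_bilin_sub hBX (hasDerivAt_Pr he.ne he.cX hv (-w))
    (hasDerivAt_Pr he.ne he.cX hv w)
    (hasDerivAt_Pr he.ne he.cX hu w) (hasDerivAt_Pr he.ne he.cX hu (-w)) (by simp only [h0])
    (by simp only [h0])
  have hev : (fun t : ℝ => fderiv ℝ J (P t)
        (fderiv ℝ F (e + t • (-w)) (Pr (e + t • (-w)) v))
        (fderiv ℝ F (e + t • w) (Pr (e + t • w) u)) -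
      fderiv ℝ J (P t) (fderiv ℝ F (e + t • w) (Pr (e + t • w) v))
        (fderiv ℝ F (e + t • (-w)) (Pr (e + t • (-w)) u))) =ᶠ[𝓝 0]
      fun t : ℝ => fderiv ℝ J (Q t) (Pr (e + t • (-w)) v) (Pr (e + t • w) u) -
        fderiv ℝ J (Q t) (Pr (e + t • w) v) (Pr (e + t • (-w)) u) := by
    filter_upwards [hxy, hyx, hrx, hry] with t k1 k2 k3 k4
    have nx : ‖e + t • w‖ ≠ 0 := norm_ne_zero_iff.2 k3.ne
    have ny : ‖e + t • (-w)‖ ≠ 0 := norm_ne_zero_iff.2 k4.ne
    have g1 := k1 (Pr (e + t • w) u) (Pr (e + t • (-w)) v) (J_Pr k3.ne k3.dX u)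
      (J_Pr k4.ne k4.dX v)
    have g2 := k2 (Pr (e + t • (-w)) u) (Pr (e + t • w) v) (J_Pr k4.ne k4.dX u)
      (J_Pr k3.ne k3.dX v)
    simp only [map_smul, smul_apply, smul_eq_mul] at g1 g2
    have g1' := mul_left_cancel₀ nx g1
    have g2' := mul_left_cancel₀ ny g2
    rw [add_comm (‖e + t • w‖ • F (e + t • (-w))), add_comm (‖e + t • w‖ • (e + t • (-w)))] at g2'
    simp only [hP, hQ]
    rw [g1', g2']
  have hun := (dY.congr_of_eventuallyEq hev.symm).unique dX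
  simp only [h0, hP0, hQ0] at hun
  rw [hess_smul he.cX hp, hess_smul he.cY hp, Pr_of hu, Pr_of hv] at hun
  have k1 : ∀ z, fderiv ℝ J e z e = 0 := fun z => by
    rw [hess_symm he.cX, hess_self he.cX]; rfl
  have k2 : ∀ z, fderiv ℝ J (F e) z (F e) = 0 := fun z => by
    rw [hess_symm he.cY, hess_self he.cY]; rfl
  simp only [map_neg, neg_apply, map_sub, map_smul, smul_apply, sub_apply, smul_eq_mul,
    hess_self he.cX, hess_self he.cY, k1, k2, zero_apply] at hun
  have hs := hess_symm he.cY (fderiv ℝ F e v) (fderiv ℝ (fderiv ℝ F) e w u)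
  have hp' : (2 * ‖e‖)⁻¹ ≠ 0 := inv_ne_zero hp.ne'
  have hfin : (2 * ‖e‖)⁻¹ * (2 * (fderiv ℝ J (F e) (fderiv ℝ (fderiv ℝ F) e w v)
      (fderiv ℝ F e u))) = (2 * ‖e‖)⁻¹ * (2 * (fderiv ℝ J (F e)
      (fderiv ℝ (fderiv ℝ F) e w u) (fderiv ℝ F e v))) := by
    rw [← hs]
    linarith
  have := mul_left_cancel₀ hp' hfin
  linarith

/-- differentiated form of (I) -/
theorem SphMap.I_deriv (hF : SphMap F) {e : X} (he : Reg F e) {m d g : X}
    (hd : J e d = 0) (hmd : fderiv ℝ J e m d = 0) (hg : J e g = 0)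
    (hTg : fderiv ℝ F e g = fderiv ℝ (fderiv ℝ F) e m d) :
    HasDerivAt (fun t : ℝ => ‖d + t • g‖) 0 0 := by
  have h0 : ∀ m : X, e + (0 : ℝ) • m = e := fun m => by rw [zero_smul, add_zero]
  have hx : Tendsto (fun t : ℝ => e + t • m) (𝓝 0) (𝓝 e) := by
    have := (hasDerivAt_line e m 0).continuousAt.tendsto
    rwa [h0] at this
  have hreg := hx.eventually (he.eventually hF)
  have d1 := hasDerivAt_Pr he.ne he.cX hd m
  rw [hmd, zero_div, neg_zero, zero_smul] at d1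
  have d2 := hasDerivAt_TPr hF he hd m
  rw [hmd, zero_div, zero_smul, sub_zero] at d2
  have d3 : HasDerivAt (fun t : ℝ => fderiv ℝ F e (d + t • g)) (fderiv ℝ F e g) 0 :=
    (fderiv ℝ F e).hasFDerivAt.comp_hasDerivAt (0 : ℝ) (hasDerivAt_line d g 0)
  have d4 := d3.sub d2
  rw [hTg, sub_self] at d4
  have l1 := hasDerivAt_iff_isLittleO.1 d1
  have l2 := hasDerivAt_iff_isLittleO.1 d4
  rw [hasDerivAt_iff_isLittleO]
  simp only [Pr_of hd, sub_zero, smul_zero, zero_smul, add_zero, Pi.sub_apply, sub_self]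
    at l1 l2 ⊢
  have l3 := l1.norm_left.add l2.norm_left
  refine Asymptotics.IsBigO.trans_isLittleO (Asymptotics.IsBigO.of_bound 1 ?_) l3
  filter_upwards [hreg] with t ht
  have e1 : ‖fderiv ℝ F (e + t • m) (Pr (e + t • m) d)‖ = ‖Pr (e + t • m) d‖ :=
    hF.norm_T ht.ne ht.dX ht.dF (J_Pr ht.ne ht.dX d)
  have e2 : ‖fderiv ℝ F e (d + t • g)‖ = ‖d + t • g‖ :=
    hF.norm_T he.ne he.dX he.dF (by rw [map_add, map_smul, hd, hg]; simp)
  have e3 : |‖d + t • g‖ - ‖d‖| ≤ ‖fderiv ℝ F e (d + t • g) -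
      fderiv ℝ F (e + t • m) (Pr (e + t • m) d)‖ + ‖Pr (e + t • m) d - d‖ := by
    rw [← e2]
    have t1 := abs_norm_sub_norm_le (fderiv ℝ F e (d + t • g))
      (fderiv ℝ F (e + t • m) (Pr (e + t • m) d))
    have t2 := abs_norm_sub_norm_le (Pr (e + t • m) d) d
    rw [e1] at t1
    rw [abs_le] at *
    constructor <;> linarith [t1.1, t1.2, t2.1, t2.2]
  rw [Real.norm_eq_abs, Real.norm_eq_abs, one_mul]
  refine e3.trans ((le_abs_self _).trans' ?_)
  rw [add_comm]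

/-- the second derivative of `F` vanishes at a regular point with positive Hessian -/
theorem SphMap.D2_zero [FiniteDimensional ℝ X] (hdim : 3 ≤ Module.finrank ℝ X) (hF : SphMap F)
    {e : X} (he : Reg F e) (T : X ≃L[ℝ] Y) (hT : HasFDerivAt F (T : X →L[ℝ] Y) e)
    (hpos : ∀ v, J e v = 0 → v ≠ 0 → 0 < fderiv ℝ J e v v) :
    fderiv ℝ (fderiv ℝ F) e = 0 := by
  have hTe : fderiv ℝ F e = (T : X →L[ℝ] Y) := hT.fderiv
  have hTa : ∀ z, fderiv ℝ F e z = T z := fun z => by rw [hTe]; rfl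
  set V : Submodule ℝ X := LinearMap.ker (J e : X →L[ℝ] ℝ).toLinearMap with hV
  have hmemV : ∀ v : V, J e (v : X) = 0 := fun v => v.2
  -- dimension
  have hVdim : 2 ≤ Module.finrank ℝ V := by
    have h1 : Module.finrank ℝ (LinearMap.range (J e : X →L[ℝ] ℝ).toLinearMap) +
        Module.finrank ℝ V = Module.finrank ℝ X :=
      LinearMap.finrank_range_add_finrank_ker (J e : X →L[ℝ] ℝ).toLinearMap
    have h2 : Module.finrank ℝ (LinearMap.range (J e : X →L[ℝ] ℝ).toLinearMap) ≤ 1 := by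
      have := Submodule.finrank_le (LinearMap.range (J e : X →L[ℝ] ℝ).toLinearMap)
      simpa using this
    omega
  -- the bilinear form
  let B : V →ₗ[ℝ] V →ₗ[ℝ] ℝ := LinearMap.mk₂ ℝ (fun u v : V => fderiv ℝ J e (u : X) (v : X))
    (by intro a b c; simp) (by intro a b c; simp) (by intro a b c; simp) (by intro a b c; simp)
  have hmem : ∀ u v : V, J e (T.symm (fderiv ℝ (fderiv ℝ F) e u v)) = 0 := by
    intro u v
    rw [← hF.J_T he.dX he.dY hT]
    have : (T : X →L[ℝ] Y) (T.symm (fderiv ℝ (fderiv ℝ F) e u v)) =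
        fderiv ℝ (fderiv ℝ F) e u v := T.apply_symm_apply _
    rw [this]
    exact hF.J_D2 he (hmemV v) (hmemV u)
  let G : V →ₗ[ℝ] V →ₗ[ℝ] V := LinearMap.mk₂ ℝ
    (fun u v : V => (⟨T.symm (fderiv ℝ (fderiv ℝ F) e u v), hmem u v⟩ : V))
    (by intro a b c; apply Subtype.ext; simp) (by intro a b c; apply Subtype.ext; simp)
    (by intro a b c; apply Subtype.ext; simp) (by intro a b c; apply Subtype.ext; simp)
  have hGT : ∀ u v : V, T (G u v : X) = fderiv ℝ (fderiv ℝ F) e u v :=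
    fun u v => T.apply_symm_apply _
  have hG : G = 0 := by
    refine alg_bilin hVdim B ?_ ?_ (normSeminorm ℝ V) ?_ G ?_ ?_ ?_
    · intro u v
      exact hess_symm he.cX _ _
    · intro v hv
      exact hpos v (hmemV v) (by simpa using hv)
    · intro v hv
      exact norm_eq_zero.1 hv
    · intro u v
      apply Subtype.ext
      show T.symm (fderiv ℝ (fderiv ℝ F) e u v) = T.symm (fderiv ℝ (fderiv ℝ F) e v u)
      rw [he.D2_symm]
    · intro u v w
      show fderiv ℝ J e (G u v : X) (w : X) = fderiv ℝ J e (G u w : X) (v : X)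
      rw [← hF.B_T he (hmemV w) (hmemV (G u v)), ← hF.B_T he (hmemV v) (hmemV (G u w)),
        hTa (G u v : X), hTa (G u w : X), hGT, hGT]
      exact hF.S_symm he (hmemV w) (hmemV v)
    · intro m δ hmδ hδ
      have h1 : HasDerivAt (fun t : ℝ => ‖(δ : X) + t • (G m δ : X)‖) 0 0 :=
        hF.I_deriv he (hmemV δ) hmδ (hmemV (G m δ)) (by rw [hTa, hGT])
      exact h1
  have hzero : ∀ u v : X, J e u = 0 → J e v = 0 → fderiv ℝ (fderiv ℝ F) e u v = 0 := by
    intro u v hu hv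
    have h1 := hGT ⟨u, hu⟩ ⟨v, hv⟩
    rw [hG] at h1
    simpa using h1.symm
  have hself : ∀ v, fderiv ℝ (fderiv ℝ F) e e v = 0 := fun v => by
    rw [hF.D2_self he]; rfl
  have hself' : ∀ v, fderiv ℝ (fderiv ℝ F) e v e = 0 := fun v => by
    rw [he.D2_symm, hself]
  have hdec : ∀ u : X, u = Pr e u + (J e u / ‖e‖) • e := fun u => by
    rw [Pr]; abel
  ext u v
  rw [hdec u, hdec v]
  simp only [map_add, map_smul, add_apply, smul_apply, hself, hself', smul_zero, add_zero,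
    zero_apply]
  exact hzero _ _ (J_Pr he.ne he.dX u) (J_Pr he.ne he.dX v)

/-- positivity of the Hessian on the tangent space is an open condition -/
theorem eventually_pos [FiniteDimensional ℝ X] {e : X}
    (hX : ContDiffAt ℝ 2 (fun y : X => ‖y‖) e)
    (hpos : ∀ v, J e v = 0 → v ≠ 0 → 0 < fderiv ℝ J e v v)
    (hne : e ≠ 0) :
    ∀ᶠ x in 𝓝 e, ∀ v, J x v = 0 → v ≠ 0 → 0 < fderiv ℝ J x v v := by
  have hd := hX.differentiableAt (by norm_num : (2 : WithTop ℕ∞) ≠ 0)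
  have hen : ‖e‖ ≠ 0 := norm_ne_zero_iff.2 hne
  have : ProperSpace X := FiniteDimensional.proper ℝ X
  -- the positive definite form at `e`
  have hq : ∀ v : X, v ≠ 0 → 0 < fderiv ℝ J e v v + (J e v) ^ 2 := by
    intro v hv
    have hdec : v = Pr e v + (J e v / ‖e‖) • e := by rw [Pr]; abel
    have h1 : fderiv ℝ J e v v = fderiv ℝ J e (Pr e v) (Pr e v) := by
      have h2 : fderiv ℝ J e v = fderiv ℝ J e (Pr e v) := by
        conv_lhs => rw [hdec]
        rw [map_add, map_smul, hess_self hX, smul_zero, add_zero]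
      rw [h2, hess_symm hX, h2]
    rw [h1]
    by_cases hP : Pr e v = 0
    · rw [hP]
      have h3 : J e v ≠ 0 := by
        intro h4
        rw [hP, h4, zero_div, zero_smul, add_zero] at hdec
        exact hv hdec
      simp only [map_zero]
      positivity
    · have := hpos _ (J_Pr hne hd v) hP
      positivity
  by_cases hne' : (sphere (0 : X) 1).Nonempty
  swap
  · exact absurd ⟨‖e‖⁻¹ • e, by simp [norm_smul, hne]⟩ hne'
  obtain ⟨v0, hv0, hmin⟩ := (isCompact_sphere (0 : X) 1).exists_isMinOn hne'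
    (f := fun v => fderiv ℝ J e v v + (J e v) ^ 2) (by fun_prop)
  have hv0' : v0 ≠ 0 := by
    rintro rfl
    simp at hv0
  set c := fderiv ℝ J e v0 v0 + (J e v0) ^ 2 with hc
  have hc0 : 0 < c := hq v0 hv0'
  have hcontJ : ContinuousAt (fun x : X => J x) e := (hasFDerivAt_J_of_two hX).continuousAt
  have ev1 : ∀ᶠ x in 𝓝 e, ‖fderiv ℝ J x - fderiv ℝ J e‖ < c / 4 :=
    (tendsto_hess hX).eventually (gt_mem_nhds (by positivity))
  have ev2 : ∀ᶠ x in 𝓝 e, ‖J x - J e‖ < min 1 (c / 4) := by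
    have h : ContinuousAt (fun x => ‖J x - J e‖) e :=
      (hcontJ.sub continuousAt_const).norm
    refine h.eventually_lt continuousAt_const ?_
    rw [sub_self, norm_zero]
    positivity
  filter_upwards [ev1, ev2] with x h1 h2 v hJv hv
  have hvn : 0 < ‖v‖ := norm_pos_iff.2 hv
  -- lower bound at `e`
  have h3 : c * ‖v‖ ^ 2 ≤ fderiv ℝ J e v v + (J e v) ^ 2 := by
    have h4 : ‖v‖⁻¹ • v ∈ sphere (0 : X) 1 := by simp [norm_smul, hv]
    have h5 : c ≤ fderiv ℝ J e (‖v‖⁻¹ • v) (‖v‖⁻¹ • v) + (J e (‖v‖⁻¹ • v)) ^ 2 := hmin h4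
    have h6 : fderiv ℝ J e (‖v‖⁻¹ • v) (‖v‖⁻¹ • v) + (J e (‖v‖⁻¹ • v)) ^ 2 =
        (‖v‖ ^ 2)⁻¹ * (fderiv ℝ J e v v + (J e v) ^ 2) := by
      simp only [map_smul, smul_apply, smul_eq_mul]
      ring
    rw [h6] at h5
    calc c * ‖v‖ ^ 2 ≤ (‖v‖ ^ 2)⁻¹ * (fderiv ℝ J e v v + (J e v) ^ 2) * ‖v‖ ^ 2 := by gcongr
      _ = _ := by field_simp
  -- the perturbation
  have h7 : |J e v| ≤ min 1 (c / 4) * ‖v‖ := by
    have h8 : J e v = -((J x - J e) v) := by
      rw [sub_apply, hJv]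
      ring
    rw [h8, abs_neg, ← Real.norm_eq_abs]
    exact ((J x - J e).le_opNorm v).trans (by gcongr)
  have h9 : (J e v) ^ 2 ≤ (c / 4) * ‖v‖ ^ 2 := by
    have h10 : |J e v| ≤ ‖v‖ := h7.trans (by
      calc min 1 (c / 4) * ‖v‖ ≤ 1 * ‖v‖ := by gcongr; exact min_le_left _ _
        _ = ‖v‖ := one_mul _)
    have h11 : |J e v| ≤ (c / 4) * ‖v‖ := h7.trans (by gcongr; exact min_le_right _ _)
    calc (J e v) ^ 2 = |J e v| * |J e v| := by rw [← sq, sq_abs]
      _ ≤ ((c / 4) * ‖v‖) * ‖v‖ := by gcongr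
      _ = _ := by ring
  have h12 : |(fderiv ℝ J x v v) - fderiv ℝ J e v v| ≤ (c / 4) * ‖v‖ ^ 2 := by
    have h13 : (fderiv ℝ J x v v) - fderiv ℝ J e v v = (fderiv ℝ J x - fderiv ℝ J e) v v := by
      simp only [sub_apply]
    rw [h13, ← Real.norm_eq_abs]
    calc ‖(fderiv ℝ J x - fderiv ℝ J e) v v‖
        ≤ ‖fderiv ℝ J x - fderiv ℝ J e‖ * ‖v‖ * ‖v‖ :=
          (fderiv ℝ J x - fderiv ℝ J e).le_opNorm₂ v v
      _ ≤ (c / 4) * ‖v‖ * ‖v‖ := by gcongr
      _ = _ := by ring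
  have h14 := (abs_le.1 h12).1
  have h15 : 0 < c * ‖v‖ ^ 2 := by positivity
  nlinarith

/-- Local linearity. -/
theorem SphMap.local_linear [FiniteDimensional ℝ X] (hdim : 3 ≤ Module.finrank ℝ X)
    (hF : SphMap F) {e : X} (he : Reg F e) (T : X ≃L[ℝ] Y)
    (hT : HasFDerivAt F (T : X →L[ℝ] Y) e)
    (hpos : ∀ v, J e v = 0 → v ≠ 0 → 0 < fderiv ℝ J e v v) :
    ∀ᶠ x in 𝓝 e, F x = T x := by
  have : CompleteSpace X := FiniteDimensional.complete ℝ X
  have hreg := he.eventually hF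
  have hTe : fderiv ℝ F e = (T : X →L[ℝ] Y) := hT.fderiv
  have hcont : ContinuousAt (fderiv ℝ F) e := he.dT.continuousAt
  have hinv : ∀ᶠ x in 𝓝 e, fderiv ℝ F x ∈ Set.range ((↑) : (X ≃L[ℝ] Y) → X →L[ℝ] Y) := by
    apply hcont.eventually_mem
    rw [hTe]
    exact ContinuousLinearEquiv.nhds T
  have hposev := eventually_pos he.cX hpos he.ne
  have hD2 : ∀ᶠ x in 𝓝 e, HasFDerivAt (fderiv ℝ F) (0 : X →L[ℝ] X →L[ℝ] Y) x := by
    filter_upwards [hreg, hinv, hposev] with x h1 h2 h3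
    obtain ⟨S, hS⟩ := h2
    have h4 : HasFDerivAt F (S : X →L[ℝ] Y) x := by
      rw [hS]; exact h1.dF
    have h5 := hF.D2_zero hdim h1 S h4 h3
    rw [← h5]
    exact h1.dT
  obtain ⟨r, hr, hball⟩ := Metric.eventually_nhds_iff_ball.1 (hD2.and hreg)
  have hconst : ∀ x ∈ ball e r, fderiv ℝ F x = T := by
    intro x hx
    have h1 := (convex_ball e r).is_const_of_fderivWithin_eq_zero (𝕜 := ℝ)
      (f := fderiv ℝ F) (fun y hy => ((hball y hy).1.differentiableAt).differentiableWithinAt)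
      (fun y hy => by
        rw [fderivWithin_of_isOpen isOpen_ball hy]
        exact (hball y hy).1.fderiv) hx (mem_ball_self hr)
    rw [h1, hTe]
  filter_upwards [ball_mem_nhds e hr] with x hx
  have h1 := (hball x hx).2.dF
  rw [← hF.T_self h1, hconst x hx]
  rfl

end Vale.Agent.P084
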