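import Vale.Agent.P084.CMain

namespace Vale.Agent.P084

open Filter Topology Metric Asymptotics Module

variable {X Y : Type*} [NormedAddCommGroup X] [NormedSpace ℝ X]
    [NormedAddCommGroup Y] [NormedSpace ℝ Y]

theorem D_smul {F : X → Y} (hF : SphMap F) {x : X} {A : X →L[ℝ] Y} (hA : HasFDerivAt F A x)
    {c : ℝ} (hc : c ≠ 0) : HasFDerivAt F A (c • x) := by
  have h1 : HasFDerivAt (fun y : X => c⁻¹ • y) (c⁻¹ • ContinuousLinearMap.id ℝ X) (c • x) :=
    (hasFDerivAt_id _).const_smul c⁻¹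
  have h2 : HasFDerivAt F A (c⁻¹ • (c • x)) := by
    rw [smul_smul, inv_mul_cancel₀ hc, one_smul]; exact hA
  have h3 := (HasFDerivAt.comp (c • x) (g := F) (f := fun y : X => c⁻¹ • y) h2 h1).const_smul c
  have h4 : (c • (F ∘ fun y : X => c⁻¹ • y)) = F := by
    funext y
    show c • F (c⁻¹ • y) = F y
    rw [hF.smul, smul_smul, mul_inv_cancel₀ hc, one_smul]
  rw [h4] at h3
  exact h3.congr_fderiv (by ext u; simp [smul_smul, mul_inv_cancel₀ hc])

namespace Loc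
variable {F : X → Y} {x : X}

/-- (I'_0) -/
theorem ortho (h : Loc F x) (hF : SphMap F) {m δ g : X} (hδ : J x δ = 0) (hg : J x g = 0)
    (hgm : fderiv ℝ F x g = fderiv ℝ (fderiv ℝ F) x m δ)
    (hB0 : fderiv ℝ (J : X → X →L[ℝ] ℝ) x m δ = 0) :
    HasDerivAt (fun s : ℝ => ‖δ + s • g‖) 0 0 := by
  have hxpos : 0 < ‖x‖ := norm_pos_iff.mpr h.ne
  have hxd := h.hXd.self_of_nhds
  have hl : HasDerivAt (fun s : ℝ => x + s • m) m 0 := by
    simpa using ((hasDerivAt_id (0 : ℝ)).smul_const m).const_add x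
  have hlx : (fun s : ℝ => x + s • m) 0 = x := by simp
  have dJ : HasDerivAt (fun s : ℝ => J (x + s • m) δ) 0 0 := by
    have h1 : HasFDerivAt J (fderiv ℝ (J : X → X →L[ℝ] ℝ) x) ((fun s : ℝ => x + s • m) 0) := by
      rw [hlx]; exact h.hB
    have h2 : HasDerivAt (fun s : ℝ => J (x + s • m)) (fderiv ℝ (J : X → X →L[ℝ] ℝ) x m) 0 :=
      h1.comp_hasDerivAt (0 : ℝ) hl
    have h3 := h2.clm_apply (hasDerivAt_const (0 : ℝ) δ)
    exact h3.congr_deriv (by simp [hB0])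
  have dn : HasDerivAt (fun s : ℝ => ‖x + s • m‖) (J x m) 0 := by
    have h1 : HasFDerivAt (fun y : X => ‖y‖) (J x) ((fun s : ℝ => x + s • m) 0) := by
      rw [hlx]; exact hxd.hasFDerivAt
    exact h1.comp_hasDerivAt (0 : ℝ) hl
  have dq : HasDerivAt (fun s : ℝ => J (x + s • m) δ / ‖x + s • m‖) 0 0 := by
    have h1 := dJ.div dn (by simpa using hxpos.ne')
    exact h1.congr_deriv (by simp [hδ])
  have dk : HasDerivAt (fun s : ℝ => δ - (J (x + s • m) δ / ‖x + s • m‖) • (x + s • m)) 0 0 := by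
    have h1 := (dq.smul hl).const_sub δ
    exact h1.congr_deriv (by simp [hδ])
  have dA : HasDerivAt (fun s : ℝ => fderiv ℝ F (x + s • m)
      (δ - (J (x + s • m) δ / ‖x + s • m‖) • (x + s • m))) (fderiv ℝ (fderiv ℝ F) x m δ) 0 := by
    have h1 : HasFDerivAt (fderiv ℝ F) (fderiv ℝ (fderiv ℝ F) x) ((fun s : ℝ => x + s • m) 0) := by
      rw [hlx]; exact h.hD2
    have h2 : HasDerivAt (fun s : ℝ => fderiv ℝ F (x + s • m)) (fderiv ℝ (fderiv ℝ F) x m) 0 :=
      h1.comp_hasDerivAt (0 : ℝ) hl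
    have h3 := h2.clm_apply dk
    exact h3.congr_deriv (by simp [hδ])
  -- isometry along the curve
  have hiso : ∀ᶠ s : ℝ in 𝓝 0, ‖fderiv ℝ F (x + s • m)
      (δ - (J (x + s • m) δ / ‖x + s • m‖) • (x + s • m))‖
      = ‖δ - (J (x + s • m) δ / ‖x + s • m‖) • (x + s • m)‖ := by
    have hc : Tendsto (fun s : ℝ => x + s • m) (𝓝 0) (𝓝 x) := by
      have := hl.continuousAt.tendsto
      simpa using this
    filter_upwards [hc.eventually h.ev] with s hs
    have hsd := hs.hXd.self_of_nhds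
    apply iso_tangent hF hs.hA hsd hs.ne
    rw [map_sub, map_smul, J_self hsd, smul_eq_mul,
      div_mul_cancel₀ _ (norm_pos_iff.mpr hs.ne).ne', sub_self]
  have key : HasDerivAt (fun s : ℝ => ‖fderiv ℝ F x δ + s • fderiv ℝ (fderiv ℝ F) x m δ‖) 0 0 := by
    rw [hasDerivAt_iff_isLittleO] at dk dA ⊢
    simp only [sub_zero, zero_smul, add_zero, hδ, zero_div, smul_zero] at dk dA ⊢
    have e0 : ‖fderiv ℝ F x δ‖ = ‖δ‖ := iso_tangent hF h.hA hxd h.ne δ hδ
    rw [e0]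
    refine IsBigO.trans_isLittleO ?_ (dA.norm_left.add dk.norm_left)
    refine IsBigO.of_bound 1 ?_
    filter_upwards [hiso] with s hs
    rw [one_mul, Real.norm_eq_abs, Real.norm_eq_abs]
    set a := fderiv ℝ F (x + s • m) (δ - (J (x + s • m) δ / ‖x + s • m‖) • (x + s • m))
    set b := δ - (J (x + s • m) δ / ‖x + s • m‖) • (x + s • m)
    set p := fderiv ℝ F x δ
    set q := fderiv ℝ (fderiv ℝ F) x m δ
    have h1 : |‖p + s • q‖ - ‖a‖| ≤ ‖a - p - s • q‖ := by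
      have := abs_norm_sub_norm_le (p + s • q) a
      rwa [← norm_neg (p + s • q - a), show -(p + s • q - a) = a - p - s • q by abel] at this
    have h2 : |‖b‖ - ‖δ‖| ≤ ‖b - δ‖ := abs_norm_sub_norm_le b δ
    rw [hs] at h1
    refine le_trans ?_ (le_abs_self _)
    calc |‖p + s • q‖ - ‖δ‖| = |(‖p + s • q‖ - ‖b‖) + (‖b‖ - ‖δ‖)| := by ring_nf
      _ ≤ |‖p + s • q‖ - ‖b‖| + |‖b‖ - ‖δ‖| := abs_add_le _ _
      _ ≤ _ := add_le_add h1 h2
  refine key.congr_of_eventuallyEq (Eventually.of_forall fun s => ?_)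
  show ‖δ + s • g‖ = ‖fderiv ℝ F x δ + s • fderiv ℝ (fderiv ℝ F) x m δ‖
  rw [← hgm, ← map_smul, ← map_add]
  refine (iso_tangent hF h.hA hxd h.ne _ ?_).symm
  rw [map_add, map_smul, hδ, hg]
  simp

theorem D2_symm (h : Loc F x) (u v : X) :
    fderiv ℝ (fderiv ℝ F) x u v = fderiv ℝ (fderiv ℝ F) x v u :=
  second_derivative_symmetric_of_eventually h.hFd h.hD2 u v

theorem D2_self (h : Loc F x) (hF : SphMap F) : fderiv ℝ (fderiv ℝ F) x x = 0 := by
  apply hom_zero h.hD2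
  filter_upwards [ev_one_add_pos] with t ht
  have : x + t • x = (1 + t) • x := by module
  rw [this]
  exact (D_smul hF h.hA ht.ne').fderiv

theorem decomp (h : Loc F x) (w : X) : ∃ w0 : X, ∃ a : ℝ, J x w0 = 0 ∧ w = w0 + a • x := by
  have hxd := h.hXd.self_of_nhds
  have hxpos : 0 < ‖x‖ := norm_pos_iff.mpr h.ne
  refine ⟨w - (J x w / ‖x‖) • x, J x w / ‖x‖, ?_, by abel⟩
  rw [map_sub, map_smul, J_self hxd, smul_eq_mul, div_mul_cancel₀ _ hxpos.ne', sub_self]

/-- the second derivative vanishes at a point where the norm is non degenerate -/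
theorem D2_zero [FiniteDimensional ℝ X] (hdim : 3 ≤ finrank ℝ X) (h : Loc F x) (hF : SphMap F)
    (T : X ≃L[ℝ] Y) (hT : HasFDerivAt F (T : X →L[ℝ] Y) x)
    (hpos : ∀ v, J x v = 0 → v ≠ 0 → 0 < fderiv ℝ (J : X → X →L[ℝ] ℝ) x v v) :
    fderiv ℝ (fderiv ℝ F) x = 0 := by
  have hTA : fderiv ℝ F x = (T : X →L[ℝ] Y) := hT.fderiv
  have hTA' : ∀ v, fderiv ℝ F x v = T v := fun v => by rw [hTA]; rfl
  have hxpos : 0 < ‖x‖ := norm_pos_iff.mpr h.ne
  have hxd := h.hXd.self_of_nhds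
  have hyd := h.hYd.self_of_nhds
  have hG : ∀ u v, J x (T.symm (fderiv ℝ (fderiv ℝ F) x u v)) = 0 := by
    intro u v
    have h1 := congrArg (fun f => f (T.symm (fderiv ℝ (fderiv ℝ F) x u v))) (J_comp hF hT hyd)
    simp only [ContinuousLinearMap.comp_apply, ContinuousLinearEquiv.coe_coe,
      ContinuousLinearEquiv.apply_symm_apply] at h1
    rw [← h1]
    exact h.normal_zero hF u v
  let V : Submodule ℝ X := LinearMap.ker (J x : X →ₗ[ℝ] ℝ)
  have hV : ∀ v : V, J x v = 0 := fun v => v.2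
  have hVdim : 2 ≤ finrank ℝ V := by
    have h1 := LinearMap.finrank_range_add_finrank_ker (J x : X →ₗ[ℝ] ℝ)
    have h2 : finrank ℝ (LinearMap.range (J x : X →ₗ[ℝ] ℝ)) ≤ 1 := by
      have := Submodule.finrank_le (LinearMap.range (J x : X →ₗ[ℝ] ℝ))
      simpa using this
    have h3 : finrank ℝ V = finrank ℝ (LinearMap.ker (J x : X →ₗ[ℝ] ℝ)) := rfl
    omega
  let B : V →ₗ[ℝ] V →ₗ[ℝ] ℝ := LinearMap.mk₂ ℝ
    (fun u v : V => fderiv ℝ (J : X → X →L[ℝ] ℝ) x (u : X) (v : X))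
    (by intro a b c; simp) (by intro a b c; simp) (by intro a b c; simp) (by intro a b c; simp)
  let G : V →ₗ[ℝ] V →ₗ[ℝ] V := LinearMap.mk₂ ℝ
    (fun u v : V => (⟨T.symm (fderiv ℝ (fderiv ℝ F) x (u : X) (v : X)), hG _ _⟩ : V))
    (by intro a b c; apply Subtype.ext; simp) (by intro a b c; apply Subtype.ext; simp)
    (by intro a b c; apply Subtype.ext; simp) (by intro a b c; apply Subtype.ext; simp)
  have hBa : ∀ u v : V, B u v = fderiv ℝ (J : X → X →L[ℝ] ℝ) x (u : X) (v : X) := fun u v => rfl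
  have hGa : ∀ u v : V, ((G u v : V) : X) = T.symm (fderiv ℝ (fderiv ℝ F) x (u : X) (v : X)) :=
    fun u v => rfl
  have hAG : ∀ u v : V, fderiv ℝ F x ((G u v : V) : X)
      = fderiv ℝ (fderiv ℝ F) x (u : X) (v : X) := by
    intro u v
    rw [hTA', hGa, ContinuousLinearEquiv.apply_symm_apply]
  have hGs : ∀ u v : V, G u v = G v u := by
    intro u v
    apply Subtype.ext
    rw [hGa, hGa, h.D2_symm]
  have hBs : ∀ u v : V, B u v = B v u := fun u v => BJ_symm h.hB h.hXd u v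
  have hBG : ∀ u k w : V, B u (G k w) = B k (G u w) := by
    intro u k w
    rw [hBa, hBa, ← h.second_iso hF, ← h.second_iso hF, hAG, hAG]
    exact h.total_symm hF u k w
  let n : Seminorm ℝ V := (normSeminorm ℝ X).comp V.subtype
  have hna : ∀ v : V, n v = ‖(v : X)‖ := fun v => rfl
  have hG0 : G = 0 := by
    apply alg_bilin hVdim B hBs ?_ n ?_ G hGs ?_ ?_
    · intro v hv
      exact hpos v (hV v) (fun h0 => hv (Subtype.ext h0))
    · intro v hv
      rw [hna, norm_eq_zero] at hv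
      exact Subtype.ext hv
    · intro u v w
      rw [hBs, hGs u v, hBG, hBs, hGs w u]
    · intro m δ hmδ hδ
      have := h.ortho hF (hV δ) (hV (G m δ)) (hAG m δ) hmδ
      refine this.congr_of_eventuallyEq (Eventually.of_forall fun s => ?_)
      show n (δ + s • G m δ) = ‖(δ : X) + s • ((G m δ : V) : X)‖
      rw [hna]
      simp
  have hD0 : ∀ u v : X, J x u = 0 → J x v = 0 → fderiv ℝ (fderiv ℝ F) x u v = 0 := by
    intro u v hu hv
    have h1 := hAG ⟨u, hu⟩ ⟨v, hv⟩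
    rw [hG0] at h1
    simpa using h1.symm
  ext u v
  obtain ⟨u0, a, hu0, hu⟩ := h.decomp u
  obtain ⟨v0, b, hv0, hv⟩ := h.decomp v
  have e1 : fderiv ℝ (fderiv ℝ F) x x = 0 := h.D2_self hF
  have e2 : ∀ z, fderiv ℝ (fderiv ℝ F) x z x = 0 := fun z => by rw [h.D2_symm, e1]; simp
  rw [hu, hv]
  simp [e1, e2, hD0 u0 v0 hu0 hv0]

end Loc

end Vale.Agent.P084
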