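import Vale.Agent.P084.CReg3
import Vale.Agent.P084.CAlg

namespace Vale.Agent.P084

open Filter Topology Metric Asymptotics

variable {X Y : Type*} [NormedAddCommGroup X] [NormedSpace ℝ X]
    [NormedAddCommGroup Y] [NormedSpace ℝ Y]

theorem hasFDerivAt_J {x : X} (h : DifferentiableAt ℝ (fun y : X => ‖y‖) x) :
    HasFDerivAt (fun y : X => ‖y‖) (J x) x := h.hasFDerivAt

theorem hom_zero {Z : Type*} [NormedAddCommGroup Z] [NormedSpace ℝ Z] {H : X → Z}
    {H' : X →L[ℝ] Z} {x : X} (hH : HasFDerivAt H H' x)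
    (h : ∀ᶠ t : ℝ in 𝓝 0, H (x + t • x) = H x) : H' x = 0 := by
  have h1 : HasDerivAt (fun t : ℝ => H (x + t • x)) (H' x) 0 := by
    have h2 : HasDerivAt (fun t : ℝ => x + t • x) x 0 := by
      simpa using ((hasDerivAt_id (0 : ℝ)).smul_const x).const_add x
    have h3 : HasFDerivAt H H' ((fun t : ℝ => x + t • x) 0) := by simpa using hH
    exact h3.comp_hasDerivAt (0 : ℝ) h2
  have h2 : HasDerivAt (fun t : ℝ => H (x + t • x)) 0 0 :=
    (hasDerivAt_const (0 : ℝ) (H x)).congr_of_eventuallyEq h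
  exact h1.unique h2

theorem ev_one_add_pos : ∀ᶠ t : ℝ in 𝓝 0, (0 : ℝ) < 1 + t := by
  have : ContinuousAt (fun t : ℝ => 1 + t) 0 := by fun_prop
  exact this.eventually_const_lt (by norm_num)

theorem BJ_self {x : X} {B : X →L[ℝ] X →L[ℝ] ℝ} (hB : HasFDerivAt J B x) : B x = 0 := by
  apply hom_zero hB
  filter_upwards [ev_one_add_pos] with t ht
  have : x + t • x = (1 + t) • x := by module
  rw [this, J_smul_pos x ht]

theorem BJ_smul {x : X} {B : X →L[ℝ] X →L[ℝ] ℝ} (hB : HasFDerivAt J B x) {c : ℝ} (hc : 0 < c) :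
    HasFDerivAt J (c⁻¹ • B) (c • x) := by
  have h1 : HasFDerivAt (fun y : X => c⁻¹ • y) (c⁻¹ • ContinuousLinearMap.id ℝ X) (c • x) :=
    (hasFDerivAt_id _).const_smul c⁻¹
  have h2 : HasFDerivAt J B (c⁻¹ • (c • x)) := by
    rw [smul_smul, inv_mul_cancel₀ hc.ne', one_smul]; exact hB
  have h3 := HasFDerivAt.comp (c • x) (g := J) (f := fun y : X => c⁻¹ • y) h2 h1
  have h4 : (J ∘ fun y : X => c⁻¹ • y) = J := by
    funext y
    exact J_smul_pos y (inv_pos.mpr hc)
  rw [h4] at h3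
  exact h3.congr_fderiv (by ext u v; simp)

theorem BJ_symm {x : X} {B : X →L[ℝ] X →L[ℝ] ℝ} (hB : HasFDerivAt J B x)
    (hd : ∀ᶠ y in 𝓝 x, DifferentiableAt ℝ (fun y : X => ‖y‖) y) (u v : X) : B u v = B v u :=
  second_derivative_symmetric_of_eventually (f := fun y : X => ‖y‖) (f' := J)
    (hd.mono fun _ hy => hy.hasFDerivAt) hB u v

/-- (I) -/
theorem iso_tangent {F : X → Y} (hF : SphMap F) {x : X} {A : X →L[ℝ] Y}
    (hA : HasFDerivAt F A x) (hx : DifferentiableAt ℝ (fun y : X => ‖y‖) x) (hx0 : x ≠ 0)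
    (d : X) (hd : J x d = 0) : ‖A d‖ = ‖d‖ := by
  have hxpos : 0 < ‖x‖ := norm_pos_iff.mpr hx0
  have hl : HasDerivAt (fun t : ℝ => x + t • d) d 0 := by
    simpa using ((hasDerivAt_id (0 : ℝ)).smul_const d).const_add x
  have hn : HasDerivAt (fun t : ℝ => ‖x + t • d‖) 0 0 := by
    have h3 : HasFDerivAt (fun y : X => ‖y‖) (J x) ((fun t : ℝ => x + t • d) 0) := by
      simpa using hasFDerivAt_J hx
    have := h3.comp_hasDerivAt (0 : ℝ) hl
    rwa [hd] at this
  have hFl : HasDerivAt (fun t : ℝ => F (x + t • d)) (A d) 0 := by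
    have h3 : HasFDerivAt F A ((fun t : ℝ => x + t • d) 0) := by simpa using hA
    exact h3.comp_hasDerivAt (0 : ℝ) hl
  have h1 : HasDerivAt (fun t : ℝ => ‖x + t • d‖ • F x - ‖x‖ • F (x + t • d))
      (-(‖x‖ • A d)) 0 := by
    have := (hn.smul_const (F x)).sub (hFl.const_smul ‖x‖)
    exact this.congr_deriv (by simp)
  have h2 : HasDerivAt (fun t : ℝ => ‖x + t • d‖ • x - ‖x‖ • (x + t • d)) (-(‖x‖ • d)) 0 := by
    have := (hn.smul_const x).sub (hl.const_smul ‖x‖)
    exact this.congr_deriv (by simp)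
  have l1 := h1.tendsto_slope_zero.norm
  have l2 := h2.tendsto_slope_zero.norm
  simp only [zero_add, zero_smul, add_zero, sub_self, sub_zero, norm_smul] at l1 l2
  have h3 : ∀ t : ℝ, ‖‖x + t • d‖ • F x - ‖x‖ • F (x + t • d)‖
      = ‖‖x + t • d‖ • x - ‖x‖ • (x + t • d)‖ := fun t => hF.cross_sub x (x + t • d)
  simp only [h3] at l1
  have h4 := tendsto_nhds_unique l1 l2
  rw [norm_neg, norm_neg, norm_smul, norm_smul, norm_norm] at h4
  exact mul_left_cancel₀ hxpos.ne' h4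

/-- (II) on the kernel of `J x` -/
theorem second_iso_aux {F : X → Y} (hF : SphMap F) {x : X} (hx0 : x ≠ 0) {A : X →L[ℝ] Y}
    (hA : HasFDerivAt F A x)
    {B : X →L[ℝ] X →L[ℝ] ℝ} (hB : HasFDerivAt J B x)
    {B' : Y →L[ℝ] Y →L[ℝ] ℝ} (hB' : HasFDerivAt J B' (F x))
    (hXd : ∀ᶠ y in 𝓝 x, DifferentiableAt ℝ (fun y : X => ‖y‖) y)
    (hYd : ∀ᶠ y in 𝓝 (F x), DifferentiableAt ℝ (fun y : Y => ‖y‖) y)
    (u v : X) (hu : J x u = 0) (hv : J x v = 0) : B' (A v) (A u) = B v u := by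
  have hxpos : 0 < ‖x‖ := norm_pos_iff.mpr hx0
  have hx : DifferentiableAt ℝ (fun y : X => ‖y‖) x := hXd.self_of_nhds
  set c := 2 * ‖x‖ with hc
  have hcpos : 0 < c := by positivity
  let P : X → Y := fun y => ‖y‖ • F x + ‖x‖ • F y
  let Q : X → X := fun y => ‖y‖ • x + ‖x‖ • y
  have hPx : P x = c • F x := by show ‖x‖ • F x + ‖x‖ • F x = _; rw [hc]; module
  have hQx : Q x = c • x := by show ‖x‖ • x + ‖x‖ • x = _; rw [hc]; module
  have hP : HasFDerivAt P ((J x).smulRight (F x) + ‖x‖ • A) x :=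
    (hx.hasFDerivAt.smul_const (F x)).add (hA.const_smul ‖x‖)
  have hQ : HasFDerivAt Q ((J x).smulRight x + ‖x‖ • ContinuousLinearMap.id ℝ X) x :=
    (hx.hasFDerivAt.smul_const x).add ((hasFDerivAt_id x).const_smul ‖x‖)
  have evX : ∀ᶠ y in 𝓝 x, DifferentiableAt ℝ (fun y : X => ‖y‖) (Q y) := by
    have h1 : ∀ᶠ y in 𝓝 (c • x), DifferentiableAt ℝ (fun y : X => ‖y‖) y := by
      have h2 : Tendsto (fun y : X => c⁻¹ • y) (𝓝 (c • x)) (𝓝 x) := by
        have : Continuous (fun y : X => c⁻¹ • y) := by fun_prop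
        have h3 := this.tendsto (c • x)
        rwa [smul_smul, inv_mul_cancel₀ hcpos.ne', one_smul] at h3
      filter_upwards [h2.eventually hXd] with y hy
      exact (differentiableAt_norm_smul (inv_ne_zero hcpos.ne')).mpr hy
    have h3 : Tendsto Q (𝓝 x) (𝓝 (c • x)) := by rw [← hQx]; exact hQ.continuousAt
    exact h3.eventually h1
  have evY : ∀ᶠ y in 𝓝 x, DifferentiableAt ℝ (fun y : Y => ‖y‖) (P y) := by
    have h1 : ∀ᶠ y in 𝓝 (c • F x), DifferentiableAt ℝ (fun y : Y => ‖y‖) y := by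
      have h2 : Tendsto (fun y : Y => c⁻¹ • y) (𝓝 (c • F x)) (𝓝 (F x)) := by
        have : Continuous (fun y : Y => c⁻¹ • y) := by fun_prop
        have h3 := this.tendsto (c • F x)
        rwa [smul_smul, inv_mul_cancel₀ hcpos.ne', one_smul] at h3
      filter_upwards [h2.eventually hYd] with y hy
      exact (differentiableAt_norm_smul (inv_ne_zero hcpos.ne')).mpr hy
    have h3 : Tendsto P (𝓝 x) (𝓝 (c • F x)) := by rw [← hPx]; exact hP.continuousAt
    exact h3.eventually h1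
  have hid : (fun y => J (P y) (A u)) =ᶠ[𝓝 x] (fun y => J (Q y) u) := by
    filter_upwards [evX, evY, isOpen_ne.mem_nhds hx0] with y h1 h2 h3
    exact cross_deriv hF hA hx h3 h2 h1 u hu
  have hJP : HasFDerivAt (fun y => J (P y) (A u))
      (((c⁻¹ • B').comp ((J x).smulRight (F x) + ‖x‖ • A)).flip (A u)) x := by
    have h1 : HasFDerivAt J (c⁻¹ • B') (P x) := by rw [hPx]; exact BJ_smul hB' hcpos
    have h2 := HasFDerivAt.comp x (g := J) (f := P) h1 hP
    have h3 := h2.clm_apply (hasFDerivAt_const (A u) x)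
    exact h3.congr_fderiv (by ext w; simp)
  have hJQ : HasFDerivAt (fun y => J (Q y) u)
      (((c⁻¹ • B).comp ((J x).smulRight x + ‖x‖ • ContinuousLinearMap.id ℝ X)).flip u) x := by
    have h1 : HasFDerivAt J (c⁻¹ • B) (Q x) := by rw [hQx]; exact BJ_smul hB hcpos
    have h2 := HasFDerivAt.comp x (g := J) (f := Q) h1 hQ
    have h3 := h2.clm_apply (hasFDerivAt_const u x)
    exact h3.congr_fderiv (by ext w; simp)
  have h5 := (hJP.congr_of_eventuallyEq hid.symm).unique hJQ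
  have h6 := congrArg (fun f => f v) h5
  simp only [ContinuousLinearMap.flip_apply, ContinuousLinearMap.comp_apply, add_apply,
    smul_apply, ContinuousLinearMap.smulRight_apply, hv, zero_smul, zero_add, map_smul,
    ContinuousLinearMap.id_apply, smul_eq_mul] at h6
  have h7 : c⁻¹ * ‖x‖ ≠ 0 := by positivity
  have h8 : (c⁻¹ * ‖x‖) * B' (A v) (A u) = (c⁻¹ * ‖x‖) * B v u := by linarith
  exact mul_left_cancel₀ h7 h8

/-- local `C^2` data at a point -/
structure Loc (F : X → Y) (x : X) : Prop where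
  cX : ContDiffAt ℝ 2 (fun y : X => ‖y‖) x
  cY : ContDiffAt ℝ 2 (fun y : Y => ‖y‖) (F x)
  cF : ContDiffAt ℝ 2 F x
  ne : x ≠ 0

namespace Loc
variable {F : X → Y} {x : X}

theorem hB (h : Loc F x) : HasFDerivAt J (fderiv ℝ (J : X → X →L[ℝ] ℝ) x) x :=
  ((J_contDiffAt h.cX).differentiableAt (by norm_num)).hasFDerivAt

theorem hB' (h : Loc F x) : HasFDerivAt J (fderiv ℝ (J : Y → Y →L[ℝ] ℝ) (F x)) (F x) :=
  ((J_contDiffAt h.cY).differentiableAt (by norm_num)).hasFDerivAt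

theorem hA (h : Loc F x) : HasFDerivAt F (fderiv ℝ F x) x :=
  (h.cF.differentiableAt (by norm_num)).hasFDerivAt

theorem cT (h : Loc F x) : ContDiffAt ℝ 1 (fderiv ℝ F) x :=
  h.cF.fderiv_right (m := 1) (by norm_num)

theorem hD2 (h : Loc F x) : HasFDerivAt (fderiv ℝ F) (fderiv ℝ (fderiv ℝ F) x) x :=
  (h.cT.differentiableAt (by norm_num)).hasFDerivAt

theorem hXd (h : Loc F x) : ∀ᶠ y in 𝓝 x, DifferentiableAt ℝ (fun y : X => ‖y‖) y :=
  eventually_diff (h.cX.of_le (by norm_num))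

theorem hYd (h : Loc F x) : ∀ᶠ y in 𝓝 (F x), DifferentiableAt ℝ (fun y : Y => ‖y‖) y :=
  eventually_diff (h.cY.of_le (by norm_num))

theorem hFd (h : Loc F x) : ∀ᶠ y in 𝓝 x, HasFDerivAt F (fderiv ℝ F y) y := by
  filter_upwards [h.cF.eventually (by simp)] with y hy
  exact (hy.differentiableAt (by norm_num)).hasFDerivAt

theorem ev (h : Loc F x) : ∀ᶠ y in 𝓝 x, Loc F y := by
  have h1 := h.cX.eventually (by simp)
  have h2 := (h.cF.continuousAt.tendsto).eventually (h.cY.eventually (by simp))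
  have h3 := h.cF.eventually (by simp)
  filter_upwards [h1, h2, h3, isOpen_ne.mem_nhds h.ne] with y a b c d
  exact ⟨a, b, c, d⟩

theorem second_iso (h : Loc F x) (hF : SphMap F) (u v : X) :
    fderiv ℝ (J : Y → Y →L[ℝ] ℝ) (F x) (fderiv ℝ F x v) (fderiv ℝ F x u)
      = fderiv ℝ (J : X → X →L[ℝ] ℝ) x v u := by
  set B := fderiv ℝ (J : X → X →L[ℝ] ℝ) x with hBdef
  set B' := fderiv ℝ (J : Y → Y →L[ℝ] ℝ) (F x) with hB'def
  set A := fderiv ℝ F x with hAdef
  have hxd := h.hXd.self_of_nhds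
  have hxpos : 0 < ‖x‖ := norm_pos_iff.mpr h.ne
  have e1 : A x = F x := D_self hF h.hA
  have e2 : B x = 0 := BJ_self h.hB
  have e3 : B' (F x) = 0 := BJ_self h.hB'
  have s1 := BJ_symm h.hB h.hXd
  have s2 := BJ_symm h.hB' h.hYd
  have key : ∀ w : X, ∃ w0 : X, ∃ a : ℝ, J x w0 = 0 ∧ w = w0 + a • x := by
    intro w
    refine ⟨w - (J x w / ‖x‖) • x, J x w / ‖x‖, ?_, by abel⟩
    rw [map_sub, map_smul, J_self hxd, smul_eq_mul, div_mul_cancel₀ _ hxpos.ne', sub_self]
  obtain ⟨u0, a, hu0, hu⟩ := key u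
  obtain ⟨v0, b, hv0, hv⟩ := key v
  have main := second_iso_aux hF h.ne h.hA h.hB h.hB' h.hXd h.hYd u0 v0 hu0 hv0
  rw [← hBdef, ← hB'def, ← hAdef] at main
  have k1 : ∀ z, B' z (F x) = 0 := fun z => by rw [s2, e3]; simp
  have k2 : ∀ z, B z x = 0 := fun z => by rw [s1, e2]; simp
  rw [hu, hv]
  simp only [map_add, map_smul, e1, e2, e3, add_apply, smul_apply, k1, k2, main, smul_eq_mul,
    mul_zero, add_zero, zero_apply]

/-- the second derivative of `F` is tangential -/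
theorem normal_zero (h : Loc F x) (hF : SphMap F) (v u : X) :
    J (F x) (fderiv ℝ (fderiv ℝ F) x v u) = 0 := by
  set B := fderiv ℝ (J : X → X →L[ℝ] ℝ) x with hBdef
  set B' := fderiv ℝ (J : Y → Y →L[ℝ] ℝ) (F x) with hB'def
  set A := fderiv ℝ F x with hAdef
  set D2 := fderiv ℝ (fderiv ℝ F) x with hD2def
  have hYd' : ∀ᶠ y in 𝓝 x, DifferentiableAt ℝ (fun y : Y => ‖y‖) (F y) :=
    (h.cF.continuousAt.tendsto).eventually h.hYd
  have hid : (fun y => J (F y) (fderiv ℝ F y u)) =ᶠ[𝓝 x] (fun y => J y u) := by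
    filter_upwards [hYd', h.hFd] with y h1 h2
    have := congrArg (fun f => f u) (J_comp hF h2 h1)
    simpa using this
  have d1 : HasFDerivAt (fun y => J (F y)) (B'.comp A) x :=
    HasFDerivAt.comp x (g := J) (f := F) h.hB' h.hA
  have d2 : HasFDerivAt (fun y => fderiv ℝ F y u) (D2.flip u) x := by
    have := h.hD2.clm_apply (hasFDerivAt_const u x)
    exact this.congr_fderiv (by ext w; simp [hD2def])
  have d3 : HasFDerivAt (fun y => J (F y) (fderiv ℝ F y u))
      ((J (F x)).comp (D2.flip u) + (B'.comp A).flip (A u)) x := d1.clm_apply d2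
  have d4 : HasFDerivAt (fun y : X => J y u) (B.flip u) x := by
    have := h.hB.clm_apply (hasFDerivAt_const u x)
    exact this.congr_fderiv (by ext w; simp [hBdef])
  have h5 := (d3.congr_of_eventuallyEq hid.symm).unique d4
  have h6 := congrArg (fun f => f v) h5
  simp only [add_apply, ContinuousLinearMap.comp_apply, ContinuousLinearMap.flip_apply] at h6
  have h7 := h.second_iso hF u v
  rw [← hBdef, ← hB'def, ← hAdef] at h7
  linarith

end Loc

theorem prod0 {Z W : Type*} [NormedAddCommGroup Z] [NormedSpace ℝ Z] [NormedAddCommGroup W]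
    [NormedSpace ℝ W] {A : X → Z →L[ℝ] W} {b : X → Z} {b' : X →L[ℝ] Z} {x0 : X}
    (hA : ContinuousAt A x0) (hb : HasFDerivAt b b' x0) (hb0 : b x0 = 0) :
    HasFDerivAt (fun y => A y (b y)) ((A x0).comp b') x0 := by
  have h1 : HasFDerivAt (fun y => A x0 (b y)) ((A x0).comp b') x0 :=
    (A x0).hasFDerivAt.comp x0 hb
  have h2 : HasFDerivAt (fun y => (A y - A x0) (b y)) (0 : X →L[ℝ] W) x0 := by
    rw [hasFDerivAt_iff_isLittleO]
    simp only [hb0, map_zero, sub_zero, zero_apply]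
    have h3 : (fun y => b y) =O[𝓝 x0] fun y => y - x0 := by
      have := hb.isBigO_sub
      simpa [hb0] using this
    have h4 : (fun y => A y - A x0) =o[𝓝 x0] (fun _ => (1 : ℝ)) := by
      rw [isLittleO_one_iff]
      have := hA.tendsto.sub_const (A x0)
      simpa using this
    have h5 : (fun y => (A y - A x0) (b y)) =O[𝓝 x0] fun y => ‖A y - A x0‖ * ‖b y‖ := by
      refine IsBigO.of_bound 1 (Eventually.of_forall fun y => ?_)
      rw [one_mul, Real.norm_eq_abs, abs_of_nonneg (by positivity)]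
      exact (A y - A x0).le_opNorm _
    have h6 : (fun y => ‖A y - A x0‖ * ‖b y‖) =o[𝓝 x0] fun y => (1 : ℝ) * ‖y - x0‖ :=
      h4.norm_left.mul_isBigO h3.norm_norm
    have h7 := h5.trans_isLittleO h6
    simpa using h7
  have h3 := h1.add h2
  rw [add_zero] at h3
  refine h3.congr_of_eventuallyEq (Eventually.of_forall fun y => ?_)
  simp

namespace Loc
variable {F : X → Y} {x : X}

theorem total_symm (h : Loc F x) (hF : SphMap F) (a k w : X) :
    fderiv ℝ (J : Y → Y →L[ℝ] ℝ) (F x) (fderiv ℝ F x a) (fderiv ℝ (fderiv ℝ F) x k w)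
      = fderiv ℝ (J : Y → Y →L[ℝ] ℝ) (F x) (fderiv ℝ F x k) (fderiv ℝ (fderiv ℝ F) x a w) := by
  set B' := fderiv ℝ (J : Y → Y →L[ℝ] ℝ) (F x) with hB'def
  set A := fderiv ℝ F x with hAdef
  set D2 := fderiv ℝ (fderiv ℝ F) x with hD2def
  let ψ : X → Y →L[ℝ] ℝ := fun y => J (F y)
  let q : X → Y := fun y => fderiv ℝ F y w
  have hψc : ContDiffAt ℝ 1 ψ x :=
    ContDiffAt.comp x (g := (J : Y → Y →L[ℝ] ℝ)) (f := F) (J_contDiffAt h.cY)
      (h.cF.of_le (by norm_num))
  have hψd : HasFDerivAt ψ (B'.comp A) x := HasFDerivAt.comp x (g := J) (f := F) h.hB' h.hA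
  have hψcont : ContinuousAt (fderiv ℝ ψ) x :=
    (hψc.fderiv_right (m := 0) (by norm_num)).continuousAt
  have hψev : ∀ᶠ y in 𝓝 x, HasFDerivAt ψ (fderiv ℝ ψ y) y := by
    filter_upwards [hψc.eventually (by simp)] with y hy
    exact (hy.differentiableAt (by norm_num)).hasFDerivAt
  have hqd : HasFDerivAt q (D2.flip w) x := by
    have := h.hD2.clm_apply (hasFDerivAt_const w x)
    exact this.congr_fderiv (by ext w'; simp [hD2def])
  have hqev : ∀ᶠ y in 𝓝 x, HasFDerivAt q ((fderiv ℝ (fderiv ℝ F) y).flip w) y := by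
    filter_upwards [h.ev] with y hy
    have := hy.hD2.clm_apply (hasFDerivAt_const w y)
    exact this.congr_fderiv (by ext w; simp)
  -- R
  let R : X → ℝ := fun y => ψ y (q y - q x)
  let R' : X → X →L[ℝ] ℝ := fun y => (fderiv ℝ ψ y).flip (q y - q x)
  have hR : ∀ᶠ y in 𝓝 x, HasFDerivAt R (R' y) y := by
    filter_upwards [hψev, hqev, h.ev] with y h1 h2 h3
    have h4 := h1.clm_apply (h2.sub_const (q x))
    refine h4.congr_fderiv ?_
    ext v
    have := h3.normal_zero hF v w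
    simp only [add_apply, ContinuousLinearMap.comp_apply, ContinuousLinearMap.flip_apply, R', ψ,
      this, zero_add]
  have hR' : HasFDerivAt R' (((ContinuousLinearMap.flip (fderiv ℝ ψ x))).comp (D2.flip w)) x := by
    have hc : ContinuousAt (fun y => (fderiv ℝ ψ y).flip) x := by
      have := (ContinuousLinearMap.flipₗᵢ ℝ X Y ℝ).continuous.continuousAt.comp hψcont
      exact this
    exact prod0 (A := fun y => (fderiv ℝ ψ y).flip) (b := fun y => q y - q x) hc
      (hqd.sub_const (q x)) (sub_self _)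
  have hs := second_derivative_symmetric_of_eventually hR hR' k a
  simp only [ContinuousLinearMap.comp_apply, ContinuousLinearMap.flip_apply, hψd.fderiv] at hs
  exact hs

end Loc

end Vale.Agent.P084
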