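import Vale.Agent.P084.CLocal

namespace Vale.Agent.P084

open Filter Topology Metric Asymptotics Module

variable {X Y : Type*} [NormedAddCommGroup X] [NormedSpace ℝ X]
    [NormedAddCommGroup Y] [NormedSpace ℝ Y]

namespace Loc
variable {F : X → Y} {x : X}

theorem pos_eventually [FiniteDimensional ℝ X] (h : Loc F x)
    (hpos : ∀ v, J x v = 0 → v ≠ 0 → 0 < fderiv ℝ (J : X → X →L[ℝ] ℝ) x v v) :
    ∀ᶠ y in 𝓝 x, ∀ v, J y v = 0 → v ≠ 0 → 0 < fderiv ℝ (J : X → X →L[ℝ] ℝ) y v v := by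
  have hxpos : 0 < ‖x‖ := norm_pos_iff.mpr h.ne
  have hxd := h.hXd.self_of_nhds
  have hBc : ContinuousAt (fderiv ℝ (J : X → X →L[ℝ] ℝ)) x :=
    ((J_contDiffAt h.cX).fderiv_right (m := 0) (by norm_num)).continuousAt
  have hJc : ContinuousAt (J : X → X →L[ℝ] ℝ) x := h.hB.continuousAt
  have hq : ∀ v, v ≠ 0 → 0 < fderiv ℝ (J : X → X →L[ℝ] ℝ) x v v + (J x v) ^ 2 := by
    intro v hv
    obtain ⟨v0, a, hv0, hva⟩ := h.decomp v
    have e1 : fderiv ℝ (J : X → X →L[ℝ] ℝ) x x = 0 := BJ_self h.hB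
    have e2 : ∀ z, fderiv ℝ (J : X → X →L[ℝ] ℝ) x z x = 0 := fun z => by
      rw [BJ_symm h.hB h.hXd, e1]; simp
    have e3 : fderiv ℝ (J : X → X →L[ℝ] ℝ) x v v = fderiv ℝ (J : X → X →L[ℝ] ℝ) x v0 v0 := by
      rw [hva]; simp [e1, e2]
    have e4 : J x v = a * ‖x‖ := by rw [hva, map_add, map_smul, hv0, J_self hxd]; simp
    rw [e3, e4]
    by_cases h0 : v0 = 0
    · have ha : a ≠ 0 := by
        rintro rfl
        apply hv
        rw [hva, h0]; simp
      rw [h0]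
      have : 0 < (a * ‖x‖) ^ 2 := by positivity
      simpa using this
    · have := hpos v0 hv0 h0
      positivity
  have hK : IsCompact (sphere (0 : X) 1) := isCompact_sphere 0 1
  have hev : ∀ᶠ y in 𝓝 x, ∀ v ∈ sphere (0 : X) 1,
      0 < fderiv ℝ (J : X → X →L[ℝ] ℝ) y v v + (J y v) ^ 2 := by
    apply hK.eventually_forall_of_forall_eventually
    intro v hv
    have hv0 : v ≠ 0 := by
      rintro rfl
      simp at hv
    have hc : ContinuousAt (fun z : X × X =>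
        fderiv ℝ (J : X → X →L[ℝ] ℝ) z.1 z.2 z.2 + (J z.1 z.2) ^ 2) (x, v) := by
      have c1 : ContinuousAt (fun z : X × X => fderiv ℝ (J : X → X →L[ℝ] ℝ) z.1) (x, v) :=
        ContinuousAt.comp (x := (x, v)) (f := fun z : X × X => z.1)
          (g := fderiv ℝ (J : X → X →L[ℝ] ℝ)) hBc continuousAt_fst
      have c2 : ContinuousAt (fun z : X × X => (J : X → X →L[ℝ] ℝ) z.1) (x, v) :=
        ContinuousAt.comp (x := (x, v)) (f := fun z : X × X => z.1)
          (g := (J : X → X →L[ℝ] ℝ)) hJc continuousAt_fst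
      have c3 : ContinuousAt (fun z : X × X => z.2) (x, v) := continuousAt_snd
      exact ((c1.clm_apply c3).clm_apply c3).add ((c2.clm_apply c3).pow 2)
    exact hc.eventually_const_lt (hq v hv0)
  filter_upwards [hev] with y hy v hv hv0
  have hvpos : 0 < ‖v‖ := norm_pos_iff.mpr hv0
  have h1 := hy (‖v‖⁻¹ • v) (by simp [norm_smul, hvpos.ne'])
  simp only [map_smul, smul_apply, smul_eq_mul, hv, mul_zero] at h1
  have h2 : 0 < ‖v‖⁻¹ := inv_pos.mpr hvpos
  have h3 : 0 < ‖v‖⁻¹ * (‖v‖⁻¹ * fderiv ℝ (J : X → X →L[ℝ] ℝ) y v v) := by nlinarith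
  exact (mul_pos_iff_of_pos_left h2).mp ((mul_pos_iff_of_pos_left h2).mp h3)

/-- `F` is linear near a non degenerate point -/
theorem linear_near [FiniteDimensional ℝ X] (hdim : 3 ≤ finrank ℝ X) (h : Loc F x)
    (hF : SphMap F) (T : X ≃L[ℝ] Y) (hT : HasFDerivAt F (T : X →L[ℝ] Y) x)
    (hpos : ∀ v, J x v = 0 → v ≠ 0 → 0 < fderiv ℝ (J : X → X →L[ℝ] ℝ) x v v) :
    ∀ᶠ y in 𝓝 x, F y = T y := by
  have hTc : ContinuousAt (fderiv ℝ F) x := h.cT.continuousAt
  have hTe : ∀ᶠ y in 𝓝 x, fderiv ℝ F y ∈ Set.range ((↑) : (X ≃L[ℝ] Y) → X →L[ℝ] Y) := by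
    apply hTc.eventually
    rw [hT.fderiv]
    exact ContinuousLinearEquiv.nhds T
  have hall : ∀ᶠ y in 𝓝 x, HasFDerivAt F (fderiv ℝ F y) y ∧
      HasFDerivAt (fderiv ℝ F) (0 : X →L[ℝ] X →L[ℝ] Y) y := by
    filter_upwards [hTe, h.ev, h.pos_eventually hpos] with y h1 h2 h3
    obtain ⟨S, hS⟩ := h1
    refine ⟨h2.hA, ?_⟩
    have h4 := h2.D2_zero hdim hF S (by rw [hS]; exact h2.hA) h3
    have h5 := h2.hD2
    rwa [h4] at h5
  obtain ⟨r, hr, hball⟩ := Metric.eventually_nhds_iff_ball.mp hall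
  have hconst : ∀ y ∈ ball x r, fderiv ℝ F y = (T : X →L[ℝ] Y) := by
    intro y hy
    have := (isOpen_ball (x := x) (ε := r)).is_const_of_fderiv_eq_zero
      (convex_ball x r).isPreconnected (𝕜 := ℝ) (f := fderiv ℝ F)
      (fun z hz => (hball z hz).2.differentiableAt.differentiableWithinAt)
      (fun z hz => (hball z hz).2.fderiv) hy (mem_ball_self hr)
    rw [this, hT.fderiv]
  have hfin : ∀ y ∈ ball x r, F y = T y := by
    intro y hy
    have hd : ∀ z ∈ ball x r, HasFDerivAt (fun z => F z - T z) (0 : X →L[ℝ] Y) z := by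
      intro z hz
      have h1 := (hball z hz).1
      rw [hconst z hz] at h1
      have h2 := h1.sub (T : X →L[ℝ] Y).hasFDerivAt
      rw [sub_self] at h2
      exact h2
    have := (isOpen_ball (x := x) (ε := r)).is_const_of_fderiv_eq_zero
      (convex_ball x r).isPreconnected (𝕜 := ℝ) (f := fun z => F z - T z)
      (fun z hz => (hd z hz).differentiableAt.differentiableWithinAt)
      (fun z hz => (hd z hz).fderiv) hy (mem_ball_self hr)
    have h1 : T x = F x := D_self hF hT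
    rw [h1, sub_self] at this
    exact sub_eq_zero.mp this
  exact Metric.eventually_nhds_iff_ball.mpr ⟨r, hr, hfin⟩

end Loc

end Vale.Agent.P084
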