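import Vale.Agent.P084.CBasic

namespace Vale.Agent.P084

open Filter Topology Metric

variable {X Y : Type*} [NormedAddCommGroup X] [NormedSpace ℝ X]
    [NormedAddCommGroup Y] [NormedSpace ℝ Y]

theorem J_contDiffAt {x0 : X} (h : ContDiffAt ℝ 2 (fun y : X => ‖y‖) x0) :
    ContDiffAt ℝ 1 (J : X → X →L[ℝ] ℝ) x0 :=
  h.fderiv_right (m := 1) (by norm_num)

theorem eventually_diff {x0 : X} (h : ContDiffAt ℝ 1 (fun y : X => ‖y‖) x0) :
    ∀ᶠ x in 𝓝 x0, DifferentiableAt ℝ (fun y : X => ‖y‖) x := by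
  filter_upwards [h.eventually (by simp)] with x hx
  exact hx.differentiableAt (by norm_num)

theorem norm_second_diff {x0 : X} (h : ContDiffAt ℝ 2 (fun y : X => ‖y‖) x0) :
    ∃ C : ℝ, 0 ≤ C ∧ ∃ r > 0, ∀ x ∈ ball x0 r, ∀ y ∈ ball x0 r,
      ‖x‖ + ‖y‖ - ‖x + y‖ ≤ C * ‖x - y‖ ^ 2 := by
  obtain ⟨K, t, ht, hlip⟩ := (J_contDiffAt h).exists_lipschitzOnWith
  have hd := eventually_diff (h.of_le (by norm_num))
  obtain ⟨r, hr, hball⟩ := Metric.mem_nhds_iff.mp (Filter.inter_mem ht hd)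
  refine ⟨K / 2, by positivity, r, hr, fun x hx y hy => ?_⟩
  obtain ⟨hxt, hxd⟩ := hball hx
  obtain ⟨hyt, hyd⟩ := hball hy
  have h1 := J_le x (x + y)
  have h2 := J_le y (x + y)
  rw [map_add, J_self hxd] at h1
  rw [map_add, J_self hyd] at h2
  have h3 : (J x - J y) (x - y) ≤ K * ‖x - y‖ * ‖x - y‖ := by
    calc (J x - J y) (x - y) ≤ ‖(J x - J y) (x - y)‖ := le_abs_self _
      _ ≤ ‖J x - J y‖ * ‖x - y‖ := (J x - J y).le_opNorm _
      _ ≤ K * ‖x - y‖ * ‖x - y‖ := by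
        refine mul_le_mul_of_nonneg_right ?_ (norm_nonneg _)
        have := hlip.dist_le_mul x hxt y hyt
        rwa [dist_eq_norm, dist_eq_norm] at this
  simp only [sub_apply, map_sub, J_self hxd, J_self hyd] at h3
  nlinarith [h1, h2, h3]

theorem transfer_aux {F : X → Y} {G : Y → X} (hG : SphMap G)
    (hGF : ∀ x, G (F x) = x) {x0 : X} (hx0 : ‖F x0‖ = 1) {C r : ℝ} (hr1 : r ≤ 1)
    (h : ∀ x ∈ ball x0 r, ∀ y ∈ ball x0 r, ‖x‖ + ‖y‖ - ‖x + y‖ ≤ C * ‖x - y‖ ^ 2) (hC : 0 ≤ C)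
    (w : Y) (hw : w ∈ ball (F x0) (r / 12)) (u : Y) (hu : ‖u‖ < r / 12)
    (hab : ‖w - u‖ ≤ ‖w + u‖) :
    ‖w + u‖ + ‖w - u‖ - 2 * ‖w‖ ≤ 16 * C * ‖u‖ ^ 2 := by
  have hw' : ‖w - F x0‖ < r / 12 := by simpa [dist_eq_norm] using hw
  set p := w + u with hp
  set q := w - u with hq
  have hqpos : 0 < ‖q‖ := by
    have h1 : ‖F x0‖ ≤ ‖q‖ + ‖w - F x0‖ + ‖u‖ := by
      have : F x0 = q - (w - F x0) + u := by rw [hq]; abel
      calc ‖F x0‖ = ‖q - (w - F x0) + u‖ := by rw [← this]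
        _ ≤ ‖q - (w - F x0)‖ + ‖u‖ := norm_add_le _ _
        _ ≤ ‖q‖ + ‖w - F x0‖ + ‖u‖ := by linarith [norm_sub_le q (w - F x0)]
    linarith
  set q' := (‖p‖ / ‖q‖) • q with hq'
  have hppos : 0 < ‖p‖ := lt_of_lt_of_le hqpos hab
  have hq'n : ‖q'‖ = ‖p‖ := by
    rw [hq', norm_smul, Real.norm_eq_abs, abs_of_pos (by positivity), div_mul_cancel₀ _ hqpos.ne']
  have hqq' : ‖q - q'‖ = ‖p‖ - ‖q‖ := by
    have h3 : q - q' = ((‖q‖ - ‖p‖) / ‖q‖) • q := by
      rw [hq', sub_div, div_self hqpos.ne', sub_smul, one_smul]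
    rw [h3, norm_smul, Real.norm_eq_abs, abs_div, abs_of_pos hqpos, div_mul_cancel₀ _ hqpos.ne',
      abs_sub_comm, abs_of_nonneg (by linarith)]
  have hpq : ‖p‖ - ‖q‖ ≤ 2 * ‖u‖ := by
    have : p = q + (2 : ℝ) • u := by rw [hp, hq]; module
    have h4 : ‖p‖ ≤ ‖q‖ + ‖(2 : ℝ) • u‖ := by
      nth_rewrite 1 [this]
      exact norm_add_le _ _
    rw [norm_smul] at h4
    norm_num at h4
    linarith
  have hpq' : ‖p - q'‖ ≤ 4 * ‖u‖ := by
    have h5 : p - q' = (2 : ℝ) • u + (q - q') := by rw [hp, hq]; module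
    rw [h5]
    refine (norm_add_le _ _).trans ?_
    rw [norm_smul, hqq']
    norm_num
    linarith
  have hGp : G p ∈ ball x0 r := by
    rw [mem_ball, dist_eq_norm]
    have h6 := hG.lip p (F x0)
    rw [hGF] at h6
    have h7 : ‖p - F x0‖ ≤ ‖w - F x0‖ + ‖u‖ := by
      have : p - F x0 = (w - F x0) + u := by rw [hp]; abel
      rw [this]; exact norm_add_le _ _
    linarith [norm_nonneg u]
  have hGq' : G q' ∈ ball x0 r := by
    rw [mem_ball, dist_eq_norm]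
    have h6 := hG.lip q' (F x0)
    rw [hGF] at h6
    have h7 : ‖q' - F x0‖ ≤ ‖q - q'‖ + (‖w - F x0‖ + ‖u‖) := by
      have : q' - F x0 = -(q - q') + ((w - F x0) - u) := by rw [hq]; abel
      rw [this]
      refine (norm_add_le _ _).trans ?_
      rw [norm_neg]
      linarith [norm_sub_le (w - F x0) u]
    rw [hqq'] at h7
    linarith [norm_nonneg u]
  have h8 := h _ hGp _ hGq'
  have hnn : ‖p‖ = ‖q'‖ := hq'n.symm
  rw [hG.norm_add p q' hnn, hG.norm_sub p q' hnn, hG.norm_map, hG.norm_map, hq'n] at h8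
  have h9 : ‖p + q'‖ ≤ 2 * ‖w‖ + (‖p‖ - ‖q‖) := by
    have h10 : p + q' = (2 : ℝ) • w - (q - q') := by rw [hp, hq]; module
    rw [h10]
    refine (norm_sub_le _ _).trans ?_
    rw [norm_smul, hqq']
    norm_num
  have h11 : C * ‖p - q'‖ ^ 2 ≤ C * (4 * ‖u‖) ^ 2 := by
    refine mul_le_mul_of_nonneg_left ?_ hC
    exact pow_le_pow_left₀ (norm_nonneg _) hpq' 2
  nlinarith [h8, h9, h11]

theorem transfer_second_diff {F : X → Y} {G : Y → X} (hF : SphMap F)
    (hGF : ∀ x, G (F x) = x) (hFG : ∀ y, F (G y) = y) {x0 : X} (hx0 : ‖x0‖ = 1)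
    (h : ContDiffAt ℝ 2 (fun y : X => ‖y‖) x0) :
    ∃ C : ℝ, 0 ≤ C ∧ ∃ r > 0, ∀ w ∈ ball (F x0) r, ∀ u : Y, ‖u‖ < r →
      ‖w + u‖ + ‖w - u‖ - 2 * ‖w‖ ≤ C * ‖u‖ ^ 2 := by
  obtain ⟨C, hC, r, hr, hb⟩ := norm_second_diff h
  have hG := hF.inverse hGF hFG
  have hF0 : ‖F x0‖ = 1 := by rw [hF.norm_map, hx0]
  set r1 := min r 1 with hr1
  have hr1pos : 0 < r1 := lt_min hr one_pos
  have hb1 : ∀ x ∈ ball x0 r1, ∀ y ∈ ball x0 r1, ‖x‖ + ‖y‖ - ‖x + y‖ ≤ C * ‖x - y‖ ^ 2 :=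
    fun x hx y hy => hb x (ball_subset_ball (min_le_left _ _) hx) y
      (ball_subset_ball (min_le_left _ _) hy)
  refine ⟨16 * C, by positivity, r1 / 12, by positivity, fun w hw u hu => ?_⟩
  rcases le_total ‖w - u‖ ‖w + u‖ with hle | hle
  · exact transfer_aux hG hGF hF0 (min_le_right _ _) hb1 hC w hw u hu hle
  · have := transfer_aux hG hGF hF0 (min_le_right _ _) hb1 hC w hw (-u)
      (by rwa [norm_neg]) (by rw [sub_neg_eq_add, ← sub_eq_add_neg]; exact hle)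
    rw [sub_neg_eq_add, ← sub_eq_add_neg, norm_neg] at this
    linarith

theorem contDiffAt_one_of_second_diff {z0 : Y} {C r : ℝ} (hr : 0 < r) (hC : 0 ≤ C)
    (h : ∀ w ∈ ball z0 r, ∀ u : Y, ‖u‖ < r → ‖w + u‖ + ‖w - u‖ - 2 * ‖w‖ ≤ C * ‖u‖ ^ 2) :
    ContDiffAt ℝ 1 (fun y : Y => ‖y‖) z0 := by
  choose ψ hψ1 hψ2 using (exists_norming : ∀ w : Y, _)
  have key : ∀ w ∈ ball z0 r, ∀ u : Y, ‖u‖ < r →
      0 ≤ ‖w + u‖ - ‖w‖ - ψ w u ∧ ‖w + u‖ - ‖w‖ - ψ w u ≤ C * ‖u‖ ^ 2 := by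
    intro w hw u hu
    have h1 := hψ1 w (w + u)
    have h2 := hψ1 w (w - u)
    rw [map_add, hψ2] at h1
    rw [map_sub, hψ2] at h2
    have h3 := h w hw u hu
    constructor <;> linarith
  have hder : ∀ w ∈ ball z0 r, HasFDerivAt (fun y : Y => ‖y‖) (ψ w) w := by
    intro w hw
    rw [hasFDerivAt_iff_isLittleO_nhds_zero]
    have h1 : (fun u : Y => ‖w + u‖ - ‖w‖ - ψ w u) =O[𝓝 0] fun u : Y => ‖u‖ ^ 2 := by
      refine Asymptotics.IsBigO.of_bound C ?_
      filter_upwards [Metric.ball_mem_nhds (0 : Y) hr] with u hu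
      have hu' : ‖u‖ < r := by simpa using hu
      obtain ⟨h2, h3⟩ := key w hw u hu'
      rw [Real.norm_eq_abs, abs_of_nonneg h2, norm_pow, norm_norm]
      exact h3
    exact h1.trans_isLittleO (Asymptotics.isLittleO_norm_pow_id (by norm_num))
  rw [contDiffAt_one_iff]
  refine ⟨ψ, ball z0 (r / 4), ball_mem_nhds z0 (by positivity), ?_, ?_⟩
  · have hlip : ∀ w ∈ ball z0 (r / 4), ∀ w' ∈ ball z0 (r / 4),
        ‖ψ w - ψ w'‖ ≤ 2 * C * ‖w - w'‖ := by
      intro w hw w' hw'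
      have hwb : w ∈ ball z0 r := ball_subset_ball (by linarith) hw
      have hwb' : w' ∈ ball z0 r := ball_subset_ball (by linarith) hw'
      by_cases hww : w = w'
      · rw [hww]; simp
      set k := w' - w with hk
      have hkpos : 0 < ‖k‖ := by
        rw [norm_pos_iff, hk, sub_ne_zero]
        exact fun h => hww h.symm
      have hkr : ‖k‖ < r / 2 := by
        have h1 : ‖w - z0‖ < r / 4 := by simpa [dist_eq_norm] using hw
        have h2 : ‖w' - z0‖ < r / 4 := by simpa [dist_eq_norm] using hw'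
        have : k = (w' - z0) - (w - z0) := by rw [hk]; abel
        rw [this]
        linarith [norm_sub_le (w' - z0) (w - z0)]
      have h1 : ∀ u : Y, ‖u‖ = ‖k‖ → (ψ w - ψ w') u ≤ 2 * C * ‖k‖ ^ 2 := by
        intro u hu
        have hku : ‖k + u‖ < r := by linarith [norm_add_le k u]
        have a1 := (key w hwb (k + u) hku).1
        have a2 := (key w' hwb' u (by linarith)).2
        have a3 := (key w hwb k (by linarith)).2
        have e1 : w + (k + u) = w' + u := by rw [hk]; abel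
        have e2 : w + k = w' := by rw [hk]; abel
        rw [e1, map_add] at a1
        rw [e2] at a3
        rw [hu] at a2
        simp only [sub_apply]
        linarith
      refine ContinuousLinearMap.opNorm_le_bound _ (by positivity) (fun v => ?_)
      by_cases hv : v = 0
      · rw [hv]; simp
      have hvpos : 0 < ‖v‖ := norm_pos_iff.mpr hv
      have h2 : ∀ v : Y, v ≠ 0 → (ψ w - ψ w') v ≤ 2 * C * ‖k‖ * ‖v‖ := by
        intro v hv
        have hvpos : 0 < ‖v‖ := norm_pos_iff.mpr hv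
        have h3 := h1 ((‖k‖ / ‖v‖) • v) (by
          rw [norm_smul, Real.norm_eq_abs, abs_of_pos (by positivity),
            div_mul_cancel₀ _ hvpos.ne'])
        rw [map_smul, smul_eq_mul, div_mul_eq_mul_div, div_le_iff₀ hvpos] at h3
        have h4 : ‖k‖ * (ψ w - ψ w') v ≤ ‖k‖ * (2 * C * ‖k‖ * ‖v‖) := by nlinarith [h3]
        exact le_of_mul_le_mul_left h4 hkpos
      have h3 : ‖w - w'‖ = ‖k‖ := by rw [hk, norm_sub_rev]
      rw [h3, Real.norm_eq_abs, abs_le]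
      constructor
      · have := h2 (-v) (neg_ne_zero.mpr hv)
        rw [map_neg, norm_neg] at this
        linarith
      · exact h2 v hv
    have : LipschitzOnWith (Real.toNNReal (2 * C)) ψ (ball z0 (r / 4)) := by
      refine LipschitzOnWith.of_dist_le_mul fun w hw w' hw' => ?_
      rw [dist_eq_norm, dist_eq_norm, Real.coe_toNNReal _ (by positivity)]
      exact hlip w hw w' hw'
    exact this.continuousOn
  · intro w hw
    exact hder w (ball_subset_ball (by linarith) hw)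

theorem norm_contDiffAt_one {F : X → Y} {G : Y → X} (hF : SphMap F)
    (hGF : ∀ x, G (F x) = x) (hFG : ∀ y, F (G y) = y) {x0 : X} (hx0 : ‖x0‖ = 1)
    (h : ContDiffAt ℝ 2 (fun y : X => ‖y‖) x0) :
    ContDiffAt ℝ 1 (fun y : Y => ‖y‖) (F x0) := by
  obtain ⟨C, hC, r, hr, hb⟩ := transfer_second_diff hF hGF hFG hx0 h
  exact contDiffAt_one_of_second_diff hr hC hb

end Vale.Agent.P084
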