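import Vale.Agent.P084.CReg1

namespace Vale.Agent.P084

open Filter Topology Metric

theorem exists_local_inverse {Y Z : Type*} [NormedAddCommGroup Y] [NormedSpace ℝ Y]
    [NormedAddCommGroup Z] [NormedSpace ℝ Z] [CompleteSpace Y] {f : Y → Z} {f' : Y ≃L[ℝ] Z}
    {a : Y} {k : WithTop ℕ∞} (hk : k ≠ 0) (hf : ContDiffAt ℝ k f a)
    (hf' : HasFDerivAt f (f' : Y →L[ℝ] Z) a) :
    ∃ g : Z → Y, ContDiffAt ℝ k g (f a) ∧ (∀ᶠ x in 𝓝 a, g (f x) = x) ∧
      (∀ᶠ y in 𝓝 (f a), f (g y) = y) ∧ g (f a) = a :=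
  ⟨hf.localInverse hf' hk, hf.to_localInverse hf' hk,
    (hf.hasStrictFDerivAt' hf' hk).eventually_left_inverse,
    (hf.hasStrictFDerivAt' hf' hk).eventually_right_inverse,
    hf.localInverse_apply_image hf' hk⟩

variable {X Y : Type*} [NormedAddCommGroup X] [NormedSpace ℝ X]
    [NormedAddCommGroup Y] [NormedSpace ℝ Y]

/-- the test functions -/
noncomputable def cr (p z : Y) : ℝ := ‖‖p‖ • z + ‖z‖ • p‖

theorem cr_map {F : X → Y} {G : Y → X} (hF : SphMap F) (hFG : ∀ y, F (G y) = y) (p : Y) (x : X) :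
    cr p (F x) = cr (G p) x := by
  have h1 := hF.cross_add x (G p)
  rw [hFG] at h1
  have h2 : ‖G p‖ = ‖p‖ := by rw [← hF.norm_map, hFG]
  unfold cr
  rw [hF.norm_map, ← h2]
  exact h1

theorem cr_contDiffAt {k : WithTop ℕ∞} (p : Y) {z0 : Y} (hz0 : ‖z0‖ = 1)
    (h0 : ContDiffAt ℝ k (fun y : Y => ‖y‖) z0)
    (h : ContDiffAt ℝ k (fun y : Y => ‖y‖) (‖p‖ • z0 + p)) : ContDiffAt ℝ k (cr p) z0 := by
  have h1 : ContDiffAt ℝ k (fun z : Y => ‖p‖ • z + ‖z‖ • p) z0 :=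
    (contDiffAt_id.const_smul ‖p‖).add (h0.smul contDiffAt_const)
  have h2 : ContDiffAt ℝ k (fun y : Y => ‖y‖) ((fun z : Y => ‖p‖ • z + ‖z‖ • p) z0) := by
    simpa [hz0] using h
  exact h2.comp z0 h1

/-- the derivative of `cr p` at `z0` -/
noncomputable def crD (z0 p : Y) : Y →L[ℝ] ℝ :=
  (J (‖p‖ • z0 + p)).comp (‖p‖ • ContinuousLinearMap.id ℝ Y + (J z0).smulRight p)

theorem cr_hasFDerivAt (p : Y) {z0 : Y} (hz0 : ‖z0‖ = 1)
    (h0 : DifferentiableAt ℝ (fun y : Y => ‖y‖) z0)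
    (h : DifferentiableAt ℝ (fun y : Y => ‖y‖) (‖p‖ • z0 + p)) :
    HasFDerivAt (cr p) (crD z0 p) z0 := by
  have h1 : HasFDerivAt (fun z : Y => ‖p‖ • z + ‖z‖ • p)
      (‖p‖ • ContinuousLinearMap.id ℝ Y + (J z0).smulRight p) z0 :=
    ((hasFDerivAt_id z0).const_smul ‖p‖).add (h0.hasFDerivAt.smul_const p)
  have h2 : HasFDerivAt (fun y : Y => ‖y‖) (J (‖p‖ • z0 + p))
      ((fun z : Y => ‖p‖ • z + ‖z‖ • p) z0) := by
    have : (fun z : Y => ‖p‖ • z + ‖z‖ • p) z0 = ‖p‖ • z0 + p := by simp [hz0]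
    rw [this]
    exact h.hasFDerivAt
  exact h2.comp z0 h1

theorem crD_pos [StrictConvexSpace ℝ Y] {z0 w : Y} (hz0 : ‖z0‖ = 1)
    (h0 : DifferentiableAt ℝ (fun y : Y => ‖y‖) z0) (hw : J z0 w = 0) (hw0 : w ≠ 0)
    {s : ℝ} (hs : 0 < s)
    (h : DifferentiableAt ℝ (fun y : Y => ‖y‖) (‖z0 + s • w‖ • z0 + (z0 + s • w))) :
    0 < crD z0 (z0 + s • w) w := by
  set p := z0 + s • w with hp
  have hppos : 1 < ‖p‖ := by
    have := one_lt_of_J_eq_zero (w := s • w) h0 (by rw [map_smul, hw, smul_zero])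
      (smul_ne_zero hs.ne' hw0)
    rw [hz0] at this
    exact this
  set v := ‖p‖ • z0 + p with hv
  have hv' : v = (‖p‖ + 1) • z0 + s • w := by rw [hv, hp]; module
  have h1 : crD z0 p w = ‖p‖ * J v w := by
    simp [crD, hw, ← hv]
  rw [h1]
  apply mul_pos (by linarith)
  have h2 : J v ((‖p‖ + 1) • z0) ≤ ‖(‖p‖ + 1) • z0‖ := J_le _ _
  have h3 : J v ((‖p‖ + 1) • z0) = ‖v‖ - s * J v w := by
    have : (‖p‖ + 1) • z0 = v - s • w := by rw [hv']; abel
    rw [this, map_sub, J_self h, map_smul, smul_eq_mul]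
  rw [h3, norm_smul, hz0, Real.norm_eq_abs, abs_of_pos (by linarith)] at h2
  have h4 : ‖p‖ + 1 < ‖v‖ := by
    have h5 := one_lt_of_J_eq_zero (w := (s / (‖p‖ + 1)) • w) h0
      (by rw [map_smul, hw, smul_zero]) (smul_ne_zero (by positivity) hw0)
    rw [hz0] at h5
    have h6 : v = (‖p‖ + 1) • (z0 + (s / (‖p‖ + 1)) • w) := by
      rw [hv', smul_add, smul_smul, mul_div_cancel₀ _ (by linarith : ‖p‖ + 1 ≠ 0)]
    rw [h6, norm_smul, Real.norm_eq_abs, abs_of_pos (by linarith)]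
    nlinarith
  have h7 : 0 < s * J v w := by linarith
  exact (mul_pos_iff_of_pos_left hs).mp h7

theorem F_contDiffAt [FiniteDimensional ℝ Y] [StrictConvexSpace ℝ Y] {F : X → Y} {G : Y → X}
    (hF : SphMap F) (hGF : ∀ x, G (F x) = x) (hFG : ∀ y, F (G y) = y) {x0 : X}
    (hx0 : ‖x0‖ = 1) {k : WithTop ℕ∞} (hk : k ≠ 0) (hkt : (k : WithTop ℕ∞) ≠ ((⊤ : ℕ∞) : WithTop ℕ∞))
    (hX : ContDiffAt ℝ k (fun y : X => ‖y‖) x0)
    (hY : ContDiffAt ℝ k (fun y : Y => ‖y‖) (F x0)) : ContDiffAt ℝ k F x0 := by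
  have : CompleteSpace Y := FiniteDimensional.complete ℝ Y
  set z0 := F x0 with hz0def
  have hz0 : ‖z0‖ = 1 := by rw [hz0def, hF.norm_map, hx0]
  have hG := hF.inverse hGF hFG
  have hGz0 : G z0 = x0 := hGF x0
  have hYd : DifferentiableAt ℝ (fun y : Y => ‖y‖) z0 := hY.differentiableAt hk
  -- the good points
  let P : Set Y := {p | ContDiffAt ℝ k (fun y : Y => ‖y‖) (‖p‖ • z0 + p) ∧
    ContDiffAt ℝ k (fun y : X => ‖y‖) (‖G p‖ • x0 + G p)}
  have hP : ∀ᶠ p in 𝓝 z0, p ∈ P := by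
    have h2 : ContDiffAt ℝ k (fun y : Y => ‖y‖) ((2 : ℝ) • z0) :=
      hY.contDiffAt_norm_smul (by norm_num)
    have h3 : ContDiffAt ℝ k (fun y : X => ‖y‖) ((2 : ℝ) • x0) :=
      hX.contDiffAt_norm_smul (by norm_num)
    have c2 : Tendsto (fun p : Y => ‖p‖ • z0 + p) (𝓝 z0) (𝓝 ((2 : ℝ) • z0)) := by
      have : Continuous (fun p : Y => ‖p‖ • z0 + p) := by fun_prop
      have h := this.tendsto z0
      rwa [hz0, one_smul, ← two_smul ℝ z0] at h
    have c3 : Tendsto (fun p : Y => ‖G p‖ • x0 + G p) (𝓝 z0) (𝓝 ((2 : ℝ) • x0)) := by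
      have hGc : Continuous G := hG.continuous
      have : Continuous (fun p : Y => ‖G p‖ • x0 + G p) := by fun_prop
      have h := this.tendsto z0
      rwa [hGz0, hx0, one_smul, ← two_smul ℝ x0] at h
    exact (c2.eventually (h2.eventually hkt)).and (c3.eventually (h3.eventually hkt))
  -- separation
  have hsep : ∀ w : Y, w ≠ 0 → J z0 w = 0 → ∃ p ∈ P, crD z0 p w ≠ 0 := by
    intro w hw0 hw
    have hc : Tendsto (fun s : ℝ => z0 + s • w) (𝓝[>] 0) (𝓝 z0) := by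
      have : Continuous (fun s : ℝ => z0 + s • w) := by fun_prop
      have h := this.tendsto 0
      simp only [zero_smul, add_zero] at h
      exact h.mono_left nhdsWithin_le_nhds
    obtain ⟨s, hsP, hs⟩ := ((hc.eventually hP).and self_mem_nhdsWithin).exists
    exact ⟨z0 + s • w, hsP,
      (crD_pos hz0 hYd hw hw0 hs (hsP.1.differentiableAt hk)).ne'⟩
  -- compactness
  have hKc : IsCompact (sphere (0 : Y) 1 ∩ {w | J z0 w = 0}) :=
    (isCompact_sphere 0 1).inter_right (isClosed_eq (J z0).continuous continuous_const)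
  obtain ⟨b, hbP, hbfin, hbcov⟩ := hKc.elim_finite_subcover_image
    (b := P) (c := fun p => {w | crD z0 p w ≠ 0})
    (fun p _ => isOpen_ne_fun (crD z0 p).continuous continuous_const)
    (by
      rintro w ⟨hw1, hw2⟩
      have hw0 : w ≠ 0 := by
        rintro rfl
        simp at hw1
      obtain ⟨p, hp, hpw⟩ := hsep w hw0 hw2
      exact Set.mem_biUnion hp hpw)
  have : Fintype b := hbfin.fintype
  let Th : Y → ℝ × (b → ℝ) := fun z => (‖z‖, fun p : b => cr (p : Y) z)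
  let ThX : X → ℝ × (b → ℝ) := fun x => (‖x‖, fun p : b => cr (G p) x)
  let L : Y →L[ℝ] ℝ × (b → ℝ) :=
    (J z0).prod (ContinuousLinearMap.pi fun p : b => crD z0 (p : Y))
  have hTh : ContDiffAt ℝ k Th z0 := by
    refine hY.prodMk (contDiffAt_pi.mpr fun p => ?_)
    exact cr_contDiffAt _ hz0 hY (hbP p.2).1
  have hThX : ContDiffAt ℝ k ThX x0 := by
    refine hX.prodMk (contDiffAt_pi.mpr fun p => ?_)
    exact cr_contDiffAt _ hx0 hX (hbP p.2).2
  have hThL : HasFDerivAt Th L z0 := by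
    refine hYd.hasFDerivAt.prodMk (hasFDerivAt_pi.mpr fun p => ?_)
    exact cr_hasFDerivAt _ hz0 hYd ((hbP p.2).1.differentiableAt hk)
  have hLinj : ∀ w, L w = 0 → w = 0 := by
    intro w hw
    by_contra hw0
    have h1 : J z0 w = 0 := congrArg Prod.fst hw
    have h2 : ∀ p : b, crD z0 (p : Y) w = 0 := fun p => congrFun (congrArg Prod.snd hw) p
    have hwpos : 0 < ‖w‖ := norm_pos_iff.mpr hw0
    have h3 : (‖w‖⁻¹ : ℝ) • w ∈ sphere (0 : Y) 1 ∩ {w | J z0 w = 0} := by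
      constructor
      · simp [norm_smul, hw0]
      · simp [h1]
    have h4 := hbcov h3
    simp only [Set.mem_iUnion] at h4
    obtain ⟨p, hp, hpw⟩ := h4
    apply hpw
    have := h2 ⟨p, hp⟩
    simp only at this
    rw [map_smul, this, smul_zero]
  obtain ⟨pi0, hpi0⟩ := LinearMap.exists_leftInverse_of_injective (L : Y →ₗ[ℝ] ℝ × (b → ℝ))
    (LinearMap.ker_eq_bot'.mpr hLinj)
  let pi1 : ℝ × (b → ℝ) →L[ℝ] Y := LinearMap.toContinuousLinearMap pi0
  have hpi1 : ∀ w, pi1 (L w) = w := fun w => by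
    have h : pi0 (L w) = w := by simpa using LinearMap.congr_fun hpi0 w
    exact h
  have hH' : ContDiffAt ℝ k (fun z => pi1 (Th z)) z0 := pi1.contDiff.contDiffAt.comp z0 hTh
  have hH'd : HasFDerivAt (fun z => pi1 (Th z))
      ((ContinuousLinearEquiv.refl ℝ Y : Y ≃L[ℝ] Y) : Y →L[ℝ] Y) z0 := by
    have h1 : HasFDerivAt (fun z => pi1 (Th z)) (pi1.comp L) z0 :=
      pi1.hasFDerivAt.comp z0 hThL
    have h2 : pi1.comp L = ((ContinuousLinearEquiv.refl ℝ Y : Y ≃L[ℝ] Y) : Y →L[ℝ] Y) := by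
      ext w
      exact hpi1 w
    rwa [h2] at h1
  obtain ⟨g, hg1, hg2, -, -⟩ := exists_local_inverse hk hH' hH'd
  have hThF : ∀ x, Th (F x) = ThX x := by
    intro x
    refine Prod.ext (hF.norm_map x) (funext fun p => ?_)
    exact cr_map hF hFG p x
  have hcomp : ContDiffAt ℝ k (fun x => g (pi1 (ThX x))) x0 := by
    have h1 : ContDiffAt ℝ k (fun x => pi1 (ThX x)) x0 := pi1.contDiff.contDiffAt.comp x0 hThX
    have h2 : ContDiffAt ℝ k g ((fun x => pi1 (ThX x)) x0) := by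
      simp only [← hThF]
      exact hg1
    exact h2.comp x0 h1
  refine hcomp.congr_of_eventuallyEq ?_
  have hFt : Tendsto F (𝓝 x0) (𝓝 z0) := hF.continuous.tendsto x0
  filter_upwards [hFt.eventually hg2] with x hx
  rw [← hThF]
  exact hx.symm

end Vale.Agent.P084
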