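import Vale.Agent.P084.CReg2

namespace Vale.Agent.P084

open Filter Topology Metric

variable {X Y : Type*} [NormedAddCommGroup X] [NormedSpace ℝ X]
    [NormedAddCommGroup Y] [NormedSpace ℝ Y]

theorem exists_T {F : X → Y} {G : Y → X} (hGF : ∀ x, G (F x) = x) (hFG : ∀ y, F (G y) = y)
    {x0 : X} (hF1 : DifferentiableAt ℝ F x0) (hG1 : DifferentiableAt ℝ G (F x0)) :
    ∃ T : X ≃L[ℝ] Y, HasFDerivAt F (T : X →L[ℝ] Y) x0 ∧
      HasFDerivAt G (T.symm : Y →L[ℝ] X) (F x0) := by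
  have hA := hF1.hasFDerivAt
  have hB := hG1.hasFDerivAt
  set A := fderiv ℝ F x0
  set B := fderiv ℝ G (F x0)
  have h1 : B.comp A = ContinuousLinearMap.id ℝ X := by
    have h2 : HasFDerivAt (G ∘ F) (B.comp A) x0 := hB.comp x0 hA
    have h3 : G ∘ F = id := funext hGF
    rw [h3] at h2
    exact h2.unique (hasFDerivAt_id x0)
  have h2 : A.comp B = ContinuousLinearMap.id ℝ Y := by
    have hA' : HasFDerivAt F A (G (F x0)) := by rw [hGF]; exact hA
    have h2 : HasFDerivAt (F ∘ G) (A.comp B) (F x0) := hA'.comp (F x0) hB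
    have h3 : F ∘ G = id := funext hFG
    rw [h3] at h2
    exact h2.unique (hasFDerivAt_id (F x0))
  refine ⟨ContinuousLinearEquiv.equivOfInverse A B (fun x => ?_) (fun y => ?_), hA, hB⟩
  · exact congrArg (fun f => f x) h1
  · exact congrArg (fun f => f y) h2

theorem J_comp {F : X → Y} (hF : SphMap F) {x : X} {A : X →L[ℝ] Y} (hA : HasFDerivAt F A x)
    (hd : DifferentiableAt ℝ (fun y : Y => ‖y‖) (F x)) : (J (F x)).comp A = J x := by
  have h1 : HasFDerivAt (fun x => ‖F x‖) ((J (F x)).comp A) x := hd.hasFDerivAt.comp x hA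
  simp only [hF.norm_map] at h1
  exact h1.fderiv.symm

theorem D_self {F : X → Y} (hF : SphMap F) {x : X} {A : X →L[ℝ] Y} (hA : HasFDerivAt F A x) :
    A x = F x := by
  have h1 : HasDerivAt (fun t : ℝ => F (x + t • x)) (A x) 0 := by
    have h2 : HasDerivAt (fun t : ℝ => x + t • x) x 0 := by
      simpa using ((hasDerivAt_id (0 : ℝ)).smul_const x).const_add x
    have h3 : HasFDerivAt F A ((fun t : ℝ => x + t • x) 0) := by simpa using hA
    exact h3.comp_hasDerivAt (0 : ℝ) h2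
  have h2 : HasDerivAt (fun t : ℝ => F (x + t • x)) (F x) 0 := by
    have h3 : (fun t : ℝ => F (x + t • x)) = fun t : ℝ => F x + t • F x := by
      funext t
      have : x + t • x = (1 + t) • x := by module
      rw [this, hF.smul]; module
    rw [h3]
    simpa using ((hasDerivAt_id (0 : ℝ)).smul_const (F x)).const_add (F x)
  exact h1.unique h2

/-- the main first order identity -/
theorem cross_deriv {F : X → Y} (hF : SphMap F) {x y : X} {A : X →L[ℝ] Y}
    (hA : HasFDerivAt F A x) (hx : DifferentiableAt ℝ (fun y : X => ‖y‖) x)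
    (hy : y ≠ 0)
    (h1 : DifferentiableAt ℝ (fun y : Y => ‖y‖) (‖y‖ • F x + ‖x‖ • F y))
    (h2 : DifferentiableAt ℝ (fun y : X => ‖y‖) (‖y‖ • x + ‖x‖ • y)) (u : X) (hu : J x u = 0) :
    J (‖y‖ • F x + ‖x‖ • F y) (A u) = J (‖y‖ • x + ‖x‖ • y) u := by
  have e1 : HasFDerivAt (fun x => ‖y‖ • F x + ‖x‖ • F y)
      (‖y‖ • A + (J x).smulRight (F y)) x := (hA.const_smul ‖y‖).add (hx.hasFDerivAt.smul_const _)
  have e2 : HasFDerivAt (fun x => ‖y‖ • x + ‖x‖ • y)
      (‖y‖ • ContinuousLinearMap.id ℝ X + (J x).smulRight y) x :=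
    ((hasFDerivAt_id x).const_smul ‖y‖).add (hx.hasFDerivAt.smul_const _)
  have f1 := HasFDerivAt.comp x (g := fun y : Y => ‖y‖) h1.hasFDerivAt e1
  have f2 := HasFDerivAt.comp x (g := fun y : X => ‖y‖) h2.hasFDerivAt e2
  have h3 : ((fun y : Y => ‖y‖) ∘ fun x => ‖y‖ • F x + ‖x‖ • F y)
      = ((fun y : X => ‖y‖) ∘ fun x => ‖y‖ • x + ‖x‖ • y) := by
    funext x
    exact hF.cross_add x y
  rw [h3] at f1
  have h4 := congrArg (fun f => f u) (f1.unique f2)
  have hy' : ‖y‖ ≠ 0 := norm_ne_zero_iff.mpr hy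
  simp only [ContinuousLinearMap.comp_apply, add_apply,
    smul_apply, ContinuousLinearMap.smulRight_apply, hu, zero_smul, add_zero,
    map_smul, smul_eq_mul, ContinuousLinearMap.id_apply] at h4
  exact mul_left_cancel₀ hy' h4

theorem norm_contDiffAt_two [CompleteSpace X] {F : X → Y} (hF : SphMap F) {x0 : X}
    (hx0 : ‖x0‖ = 1)
    (hX : ContDiffAt ℝ 2 (fun y : X => ‖y‖) x0)
    (hY : ContDiffAt ℝ 1 (fun y : Y => ‖y‖) (F x0))
    (hF1 : ContDiffAt ℝ 1 F x0) (T : X ≃L[ℝ] Y) (hT : HasFDerivAt F (T : X →L[ℝ] Y) x0) :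
    ContDiffAt ℝ 2 (fun y : Y => ‖y‖) (F x0) := by
  set z0 := F x0 with hz0def
  have hz0 : ‖z0‖ = 1 := by rw [hz0def, hF.norm_map, hx0]
  have hYd : DifferentiableAt ℝ (fun y : Y => ‖y‖) z0 := hY.differentiableAt (by norm_num)
  have hXd : DifferentiableAt ℝ (fun y : X => ‖y‖) x0 := hX.differentiableAt (by norm_num)
  have hJT : ∀ u, J z0 (T u) = J x0 u := fun u => by
    have := congrArg (fun f => f u) (J_comp hF hT hYd)
    simpa using this
  have hJTs : ∀ v, J x0 (T.symm v) = J z0 v := fun v => by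
    rw [← hJT, T.apply_symm_apply]
  have hJz0 : J z0 z0 = 1 := by rw [J_self hYd, hz0]
  let W : X → Y := fun y => ‖y‖ • z0 + F y
  let M : X → X := fun y => ‖y‖ • x0 + y
  have hW0 : W x0 = (2 : ℝ) • z0 := by
    show ‖x0‖ • z0 + F x0 = (2 : ℝ) • z0
    rw [hx0, one_smul, ← hz0def, two_smul]
  have hM0 : M x0 = (2 : ℝ) • x0 := by
    show ‖x0‖ • x0 + x0 = (2 : ℝ) • x0
    rw [hx0, one_smul, two_smul]
  have hWc : ContDiffAt ℝ 1 W x0 :=
    ((hX.of_le (by norm_num)).smul contDiffAt_const).add hF1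
  have hMc : ContDiffAt ℝ 1 M x0 :=
    ((hX.of_le (by norm_num)).smul contDiffAt_const).add contDiffAt_id
  have hWd : HasFDerivAt W ((J x0).smulRight z0 + (T : X →L[ℝ] Y)) x0 :=
    (hXd.hasFDerivAt.smul_const z0).add hT
  let DW : X ≃L[ℝ] Y := ContinuousLinearEquiv.equivOfInverse
    ((J x0).smulRight z0 + (T : X →L[ℝ] Y))
    ((T.symm : Y →L[ℝ] X).comp
      (ContinuousLinearMap.id ℝ Y - (1 / 2 : ℝ) • (J z0).smulRight z0))
    (fun h => by
      have e : J z0 ((J x0 h) • z0 + T h) = 2 * J x0 h := by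
        rw [map_add, map_smul, hJz0, hJT]; simp; ring
      simp only [ContinuousLinearMap.comp_apply, add_apply,
        ContinuousLinearMap.smulRight_apply, sub_apply,
        ContinuousLinearMap.id_apply, smul_apply,
        ContinuousLinearEquiv.coe_coe, e]
      have e2 : (J x0 h) • z0 + T h - (1 / 2 : ℝ) • ((2 * J x0 h) • z0) = T h := by module
      rw [e2, T.symm_apply_apply])
    (fun v => by
      simp only [ContinuousLinearMap.comp_apply, add_apply,
        ContinuousLinearMap.smulRight_apply, sub_apply,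
        ContinuousLinearMap.id_apply, smul_apply,
        ContinuousLinearEquiv.coe_coe, hJTs, T.apply_symm_apply, map_sub, map_smul, hJz0]
      module)
  have hWd' : HasFDerivAt W (DW : X →L[ℝ] Y) x0 := hWd
  obtain ⟨g, hg1, hg2, hg3, hg4⟩ := exists_local_inverse (by norm_num) hWc hWd'
  rw [hW0] at hg1 hg3 hg4
  -- the identity
  have hX2 : ContDiffAt ℝ 2 (fun y : X => ‖y‖) ((2 : ℝ) • x0) :=
    hX.contDiffAt_norm_smul (by norm_num)
  have hY2 : ContDiffAt ℝ 1 (fun y : Y => ‖y‖) ((2 : ℝ) • z0) :=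
    hY.contDiffAt_norm_smul (by norm_num)
  have hx0ne : x0 ≠ 0 := by rintro rfl; simp at hx0
  have hev1 : ∀ᶠ y in 𝓝 x0, DifferentiableAt ℝ (fun y : Y => ‖y‖) (W y) := by
    have : Tendsto W (𝓝 x0) (𝓝 ((2 : ℝ) • z0)) := by
      rw [← hW0]; exact hWc.continuousAt
    exact this.eventually (eventually_diff hY2)
  have hev2 : ∀ᶠ y in 𝓝 x0, DifferentiableAt ℝ (fun y : X => ‖y‖) (M y) := by
    have : Tendsto M (𝓝 x0) (𝓝 ((2 : ℝ) • x0)) := by
      rw [← hM0]; exact hMc.continuousAt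
    exact this.eventually (eventually_diff (hX2.of_le (by norm_num)))
  have hkey : ∀ᶠ y in 𝓝 x0, ∀ u, J x0 u = 0 → J (W y) (T u) = J (M y) u := by
    filter_upwards [hev1, hev2, isOpen_ne.mem_nhds hx0ne] with y h1 h2 h3 u hu
    have e1 : ‖y‖ • F x0 + ‖x0‖ • F y = W y := by
      show _ = ‖y‖ • z0 + F y
      rw [hx0, one_smul]
    have e2 : ‖y‖ • x0 + ‖x0‖ • y = M y := by
      show _ = ‖y‖ • x0 + y
      rw [hx0, one_smul]
    have := cross_deriv hF hT hXd h3 (by rw [e1]; exact h1) (by rw [e2]; exact h2) u hu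
    rw [e1, e2] at this
    exact this
  let A : Y → Y →L[ℝ] ℝ := fun w =>
    ((J (M (g w))).comp (T.symm : Y →L[ℝ] X)).comp
      (ContinuousLinearMap.id ℝ Y - (J z0 w)⁻¹ • (J z0).smulRight w) + (‖w‖ * (J z0 w)⁻¹) • J z0
  have hJ2 : J z0 ((2 : ℝ) • z0) = 2 := by rw [map_smul, hJz0]; simp
  have hJw : ∀ᶠ w in 𝓝 ((2 : ℝ) • z0), J z0 w ≠ 0 := by
    have : ContinuousAt (fun w => J z0 w) ((2 : ℝ) • z0) := (J z0).continuous.continuousAt
    exact this.eventually_ne (by rw [hJ2]; norm_num)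
  have hAd : ∀ᶠ w in 𝓝 ((2 : ℝ) • z0), HasFDerivAt (fun y : Y => ‖y‖) (A w) w := by
    have hgt : Tendsto g (𝓝 ((2 : ℝ) • z0)) (𝓝 x0) := by
      have := hg1.continuousAt
      rw [ContinuousAt, hg4] at this
      exact this
    filter_upwards [hJw, eventually_diff hY2, hgt.eventually hkey, hg3] with w h1 h2 h3 h4
    have : A w = J w := by
      ext h
      set c := (J z0 w)⁻¹ * J z0 h with hc
      have e1 : J x0 (T.symm (h - c • w)) = 0 := by
        rw [hJTs, map_sub, map_smul, smul_eq_mul, hc]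
        field_simp
        ring
      have e2 := h3 _ e1
      rw [T.apply_symm_apply, h4, map_sub, map_smul, J_self h2] at e2
      have e3 : A w h = J (M (g w)) (T.symm (h - c • w)) + c * ‖w‖ := by
        simp only [A, add_apply, ContinuousLinearMap.comp_apply,
          sub_apply, ContinuousLinearMap.id_apply,
          smul_apply, ContinuousLinearMap.smulRight_apply, smul_smul,
          ContinuousLinearEquiv.coe_coe, smul_eq_mul, hc]
        ring
      rw [e3, ← e2]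
      simp
    rw [this]
    exact h2.hasFDerivAt
  have hAc : ContDiffAt ℝ 1 A ((2 : ℝ) • z0) := by
    have c1 : ContDiffAt ℝ 1 (fun w => J (M (g w))) ((2 : ℝ) • z0) := by
      have d1 : ContDiffAt ℝ 1 (fun w => M (g w)) ((2 : ℝ) • z0) := by
        have : ContDiffAt ℝ 1 M (g ((2 : ℝ) • z0)) := by rw [hg4]; exact hMc
        exact this.comp _ hg1
      have d2 : ContDiffAt ℝ 1 (J : X → X →L[ℝ] ℝ) ((fun w => M (g w)) ((2 : ℝ) • z0)) := by
        show ContDiffAt ℝ 1 _ (M (g ((2 : ℝ) • z0)))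
        rw [hg4, hM0]
        exact J_contDiffAt hX2
      exact ContDiffAt.comp ((2 : ℝ) • z0) (g := (J : X → X →L[ℝ] ℝ)) (f := fun w => M (g w)) d2 d1
    have c2 : ContDiffAt ℝ 1 (fun w => (J z0 w)⁻¹) ((2 : ℝ) • z0) :=
      (J z0).contDiff.contDiffAt.inv (by rw [hJ2]; norm_num)
    have c3 : ContDiffAt ℝ 1 (fun w : Y => (J z0).smulRight w) ((2 : ℝ) • z0) :=
      contDiffAt_const.smulRight contDiffAt_id
    exact ((c1.clm_comp contDiffAt_const).clm_comp (contDiffAt_const.sub (c2.smul c3))).add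
      ((hY2.mul c2).smul contDiffAt_const)
  have hfin : ContDiffAt ℝ 2 (fun y : Y => ‖y‖) ((2 : ℝ) • z0) := by
    have : ContDiffAt ℝ ((1 : ℕ) + 1) (fun y : Y => ‖y‖) ((2 : ℝ) • z0) := by
      rw [contDiffAt_succ_iff_hasFDerivAt]
      exact ⟨A, Filter.eventually_iff_exists_mem.mp hAd, by exact_mod_cast hAc⟩
    exact_mod_cast this
  exact hfin.contDiffAt_norm_of_smul

end Vale.Agent.P084
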