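import Vale.Agent.P084.CBasic

/-!
# P084, theorem C: from a surjective isometry of unit spheres to a homogeneous map
-/

namespace Vale.Agent.P084

open Filter Topology Metric

section
variable {X Y : Type*} [NormedAddCommGroup X] [NormedSpace ℝ X]
  [NormedAddCommGroup Y] [NormedSpace ℝ Y]

open Classical in
/-- the homogeneous extension of a map of unit spheres -/
noncomputable def hExt (f : sphere (0 : X) 1 → sphere (0 : Y) 1) (x : X) : Y :=
  if h : x = 0 then 0 else ‖x‖ • (f ⟨‖x‖⁻¹ • x, by simp [norm_smul, h]⟩ : Y)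

theorem hExt_zero (f : sphere (0 : X) 1 → sphere (0 : Y) 1) : hExt f 0 = 0 := by
  simp [hExt]

/-- `hExt f (r • x) = r • f x` for `r ≥ 0`, `x` in the sphere -/
theorem hExt_smul (f : sphere (0 : X) 1 → sphere (0 : Y) 1) {r : ℝ} (hr : 0 ≤ r)
    (x : sphere (0 : X) 1) : hExt f (r • (x : X)) = r • (f x : Y) := by
  rcases hr.eq_or_lt with h | h
  · rw [← h, zero_smul, zero_smul, hExt_zero]
  · have hx : ‖(x : X)‖ = 1 := by simp
    have hx0 : (x : X) ≠ 0 := by
      intro h0
      rw [h0, norm_zero] at hx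
      exact zero_ne_one hx
    have h0 : r • (x : X) ≠ 0 := smul_ne_zero h.ne' hx0
    have hn : ‖r • (x : X)‖ = r := by rw [norm_smul, hx, mul_one, Real.norm_eq_abs, abs_of_pos h]
    have h1 : ‖r • (x : X)‖⁻¹ • (r • (x : X)) = x := by
      rw [hn, smul_smul, inv_mul_cancel₀ h.ne', one_smul]
    rw [hExt, dif_neg h0]
    have h2 : (⟨‖r • (x : X)‖⁻¹ • (r • (x : X)), by simp [norm_smul, h0, hx, h.ne']⟩ :
        sphere (0 : X) 1) = x := Subtype.ext h1
    rw [h2, hn]

theorem exists_polar (x : X) (hx : x ≠ 0) :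
    ∃ u : sphere (0 : X) 1, x = ‖x‖ • (u : X) := by
  have hn : ‖x‖ ≠ 0 := norm_ne_zero_iff.2 hx
  refine ⟨⟨‖x‖⁻¹ • x, by simp [norm_smul, hn]⟩, ?_⟩
  simp only
  rw [smul_smul, mul_inv_cancel₀ hn, one_smul]

theorem odd_of_strictConvex [StrictConvexSpace ℝ X] (f : sphere (0 : X) 1 → sphere (0 : Y) 1)
    (hf : Isometry f) (hs : Function.Surjective f) (x : sphere (0 : X) 1) :
    (f (-x) : Y) = -(f x : Y) := by
  obtain ⟨x', hx'⟩ := hs (-f x)
  have h1 : dist x x' = 2 := by
    rw [← hf.dist_eq, hx', Subtype.dist_eq, dist_eq_norm]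
    have h3 : ‖(f x : Y)‖ = 1 := by simp
    have : (f x : Y) - ((-f x : sphere (0 : Y) 1) : Y) = (2 : ℝ) • (f x : Y) := by
      simp only [coe_neg_sphere]
      module
    rw [this, norm_smul, h3]
    norm_num
  have hx : ‖(x : X)‖ = 1 := by simp
  have hx1 : ‖(x' : X)‖ = 1 := by simp
  have h2 : (x : X) = -(x' : X) := by
    apply eq_of_norm_eq_of_norm_add_eq
    · rw [norm_neg, hx, hx1]
    · rw [norm_neg, hx, hx1]
      rw [Subtype.dist_eq, dist_eq_norm, sub_eq_add_neg] at h1
      rw [h1]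
      norm_num
  have h3 : -x = x' := by
    apply Subtype.ext
    simp only [coe_neg_sphere]
    rw [h2, neg_neg]
  rw [h3, hx']
  simp

theorem start [StrictConvexSpace ℝ X] (f : sphere (0 : X) 1 → sphere (0 : Y) 1)
    (hf : Isometry f) (hs : Function.Surjective f) :
    ∃ (F : X → Y) (G : Y → X), SphMap F ∧ (∀ x, G (F x) = x) ∧ (∀ y, F (G y) = y) ∧
      ∀ x : sphere (0 : X) 1, F x = f x := by
  have hneg := odd_of_strictConvex f hf hs
  have hcoe : ∀ x : sphere (0 : X) 1, hExt f x = f x := by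
    intro x
    have := hExt_smul f zero_le_one x
    simpa using this
  have hsm : ∀ (r : ℝ) (x : sphere (0 : X) 1), hExt f (r • (x : X)) = r • (f x : Y) := by
    intro r x
    rcases le_total 0 r with h | h
    · exact hExt_smul f h x
    · have h1 := hExt_smul f (neg_nonneg.2 h) (-x)
      rw [hneg] at h1
      simpa using h1
  obtain ⟨g, hg1, hg2⟩ := Function.bijective_iff_has_inverse.1 ⟨hf.injective, hs⟩
  have hF : SphMap (hExt f) := by
    refine ⟨?_, ?_, ?_⟩
    · intro x
      by_cases hx : x = 0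
      · rw [hx, hExt_zero, norm_zero, norm_zero]
      · obtain ⟨u, hu⟩ := exists_polar x hx
        rw [hu, hsm, norm_smul, norm_smul]
        simp
    · intro t x
      by_cases hx : x = 0
      · rw [hx, smul_zero, hExt_zero, smul_zero]
      · obtain ⟨u, hu⟩ := exists_polar x hx
        rw [hu, smul_smul, hsm, hsm, smul_smul]
    · intro x y hxy
      by_cases hx : x = 0
      · have hy : y = 0 := by
          rw [← norm_eq_zero, ← hxy, hx, norm_zero]
        rw [hx, hy]
        simp
      · have hy : y ≠ 0 := by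
          intro h0
          rw [h0, norm_zero, norm_eq_zero] at hxy
          exact hx hxy
        obtain ⟨u, hu⟩ := exists_polar x hx
        obtain ⟨v, hv⟩ := exists_polar y hy
        have e1 : hExt f x = ‖x‖ • (f u : Y) := by
          conv_lhs => rw [hu]
          exact hsm _ _
        have e2 : hExt f y = ‖x‖ • (f v : Y) := by
          conv_lhs => rw [hv]
          rw [hsm, hxy]
        have e3 : x - y = ‖x‖ • ((u : X) - v) := by
          rw [smul_sub, ← hu, hxy, ← hv]
        rw [e1, e2, e3, ← smul_sub, norm_smul, norm_smul]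
        congr 1
        rw [← dist_eq_norm, ← dist_eq_norm, ← Subtype.dist_eq, ← Subtype.dist_eq, hf.dist_eq]
  refine ⟨hExt f, hExt g, hF, ?_, ?_, hcoe⟩
  · intro x
    by_cases hx : x = 0
    · rw [hx, hExt_zero, hExt_zero]
    · obtain ⟨u, hu⟩ := exists_polar x hx
      have e1 : hExt f x = ‖x‖ • (f u : Y) := by
        conv_lhs => rw [hu]
        exact hsm _ _
      rw [e1, hExt_smul g (norm_nonneg _), hg1, ← hu]
  · intro y
    by_cases hy : y = 0
    · rw [hy, hExt_zero, hExt_zero]
    · obtain ⟨v, hv⟩ := exists_polar y hy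
      have e1 : hExt g y = ‖y‖ • (g v : X) := by
        conv_lhs => rw [hv]
        exact hExt_smul g (norm_nonneg _) v
      rw [e1, hsm, hg2, ← hv]

theorem SphMap.strictConvex [StrictConvexSpace ℝ X] {F : X → Y} (hF : SphMap F) {G : Y → X}
    (hFG : ∀ y, F (G y) = y) : StrictConvexSpace ℝ Y := by
  refine StrictConvexSpace.of_norm_add_ne_two fun x y hx hy hxy h => ?_
  have hx' : ‖G x‖ = 1 := by rw [← hF.norm_map, hFG, hx]
  have hy' : ‖G y‖ = 1 := by rw [← hF.norm_map, hFG, hy]
  have h1 : ‖G x + G y‖ = 2 := by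
    rw [← hF.norm_add _ _ (hx'.trans hy'.symm), hFG, hFG, h]
  have h2 : G x = G y := by
    apply eq_of_norm_eq_of_norm_add_eq (hx'.trans hy'.symm)
    rw [h1, hx', hy']
    norm_num
  apply hxy
  rw [← hFG x, ← hFG y, h2]

theorem SphMap.finiteDimensional [FiniteDimensional ℝ X] {F : X → Y} (hF : SphMap F) {G : Y → X}
    (hFG : ∀ y, F (G y) = y) : FiniteDimensional ℝ Y := by
  refine FiniteDimensional.of_isCompact_closedBall₀ ℝ zero_lt_one (V := Y) ?_
  have h1 : closedBall (0 : Y) 1 = F '' closedBall (0 : X) 1 := by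
    ext y
    simp only [mem_closedBall_zero_iff, Set.mem_image]
    constructor
    · intro hy
      exact ⟨G y, by rw [← hF.norm_map, hFG]; exact hy, hFG y⟩
    · rintro ⟨x, hx, rfl⟩
      rw [hF.norm_map]
      exact hx
  rw [h1]
  haveI : ProperSpace X := FiniteDimensional.proper ℝ X
  exact (isCompact_closedBall (0 : X) 1).image hF.continuous

end

end Vale.Agent.P084
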