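import Vale.Agent.P084.CBasic

/-!
# P084, theorem C: a point where the Hessian of the norm is positive definite
-/

namespace Vale.Agent.P084

open Filter Topology Metric

/-- second order necessary condition at a local minimum -/
theorem second_nonneg {φ φ' : ℝ → ℝ} {c : ℝ} (h1 : ∀ᶠ t in 𝓝 (0 : ℝ), HasDerivAt φ (φ' t) t)
    (h2 : HasDerivAt φ' c 0) (hmin : IsLocalMin φ 0) : 0 ≤ c := by
  by_contra hc
  push Not at hc
  have hd : deriv φ =ᶠ[𝓝 0] φ' := h1.mono fun t ht => ht.deriv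
  have hd2 : deriv (deriv φ) 0 = c := by
    rw [hd.deriv_eq]
    exact h2.deriv
  have hmax : IsLocalMax φ 0 :=
    isLocalMax_of_deriv_deriv_neg (by rw [hd2]; exact hc) hmin.deriv_eq_zero
      h1.self_of_nhds.continuousAt
  have hconst : φ =ᶠ[𝓝 0] fun _ => φ 0 := by
    filter_upwards [hmin, hmax] with t ht1 ht2
    exact le_antisymm ht2 ht1
  have h3 : deriv φ =ᶠ[𝓝 0] fun _ => 0 := by
    have := hconst.deriv
    filter_upwards [this] with t ht
    rw [ht, deriv_const]
  have h4 : deriv (deriv φ) 0 = 0 := by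
    rw [h3.deriv_eq, deriv_const]
  rw [hd2] at h4
  exact hc.ne h4

variable {X : Type*} [NormedAddCommGroup X] [NormedSpace ℝ X]

theorem hasFDerivAt_norm_of_contDiffAt {x : X} (h : ContDiffAt ℝ 2 (fun y : X => ‖y‖) x) :
    HasFDerivAt (fun y : X => ‖y‖) (J x) x :=
  (h.differentiableAt (by norm_num)).hasFDerivAt

theorem hasFDerivAt_J_of_two {x : X} (h : ContDiffAt ℝ 2 (fun y : X => ‖y‖) x) :
    HasFDerivAt J (fderiv ℝ J x) x := by
  have h1 : ContDiffAt ℝ 1 (fderiv ℝ (fun y : X => ‖y‖)) x :=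
    h.fderiv_right (by norm_num)
  exact (h1.differentiableAt (by norm_num)).hasFDerivAt

theorem ne_zero_of_contDiffAt [Nontrivial X] {x : X}
    (h : ContDiffAt ℝ 2 (fun y : X => ‖y‖) x) : x ≠ 0 := by
  rintro rfl
  exact not_differentiableAt_norm_zero X (h.differentiableAt (by norm_num))

/-- the Hessian is symmetric -/
theorem hess_symm {x : X} (h : ContDiffAt ℝ 2 (fun y : X => ‖y‖) x) (u v : X) :
    fderiv ℝ J x u v = fderiv ℝ J x v u :=
  (h.isSymmSndFDerivAt (by simp)) u v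

/-- homogeneity: `x` is in the kernel of the Hessian at `x` -/
theorem hess_self {x : X} (h : ContDiffAt ℝ 2 (fun y : X => ‖y‖) x) :
    fderiv ℝ J x x = 0 := by
  have h1 : HasFDerivAt J (fderiv ℝ J x) ((1 : ℝ) • x) := by
    rw [one_smul]
    exact hasFDerivAt_J_of_two h
  have h2 : HasDerivAt (fun t : ℝ => t • x) ((1 : ℝ) • x) 1 :=
    (hasDerivAt_id (1 : ℝ)).smul_const x
  have h3 := h1.comp_hasDerivAt (1 : ℝ) h2
  rw [one_smul] at h3
  have h4 : (J ∘ fun t : ℝ => t • x) =ᶠ[𝓝 1] fun _ => J x := by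
    filter_upwards [eventually_gt_nhds (zero_lt_one : (0 : ℝ) < 1)] with t ht
    exact J_smul_pos x ht
  have h5 := (hasDerivAt_const (1 : ℝ) (J x)).congr_of_eventuallyEq h4
  exact h3.unique h5

/-- paraboloid touching: positive Hessian somewhere -/
theorem exists_pos_point [FiniteDimensional ℝ X] [StrictConvexSpace ℝ X] [Nontrivial X]
    (U : Set X) (hU : IsOpen U) (hne : U.Nonempty)
    (hC : ContDiffOn ℝ 2 (fun y : X => ‖y‖) U) :
    ∃ x1 ∈ U, x1 ≠ 0 ∧ ∀ v, J x1 v = 0 → v ≠ 0 → 0 < fderiv ℝ J x1 v v := by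
  obtain ⟨x0, hx0⟩ := hne
  have hCat : ∀ x ∈ U, ContDiffAt ℝ 2 (fun y : X => ‖y‖) x := fun x hx =>
    hC.contDiffAt (hU.mem_nhds hx)
  have hd0 : DifferentiableAt ℝ (fun y : X => ‖y‖) x0 :=
    (hCat x0 hx0).differentiableAt (by norm_num)
  have hx00 : x0 ≠ 0 := ne_zero_of_contDiffAt (hCat x0 hx0)
  obtain ⟨r, hr, hrU⟩ := Metric.isOpen_iff.1 hU x0 hx0
  set ρ := r / 2 with hρ
  have hρ0 : 0 < ρ := by positivity
  set L := toEuclidean (E := X) with hL
  set q : X → ℝ := fun v => inner ℝ (L v) (L v) with hq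
  have hqc : Continuous q := by fun_prop
  have hq0 : ∀ v, 0 ≤ q v := fun v => real_inner_self_nonneg
  have hqpos : ∀ v, v ≠ 0 → 0 < q v := by
    intro v hv
    have : L v ≠ 0 := by simpa using hv
    exact real_inner_self_pos.2 this
  haveI : ProperSpace X := FiniteDimensional.proper ℝ X
  have hKc : IsCompact {v : X | J x0 v = 0 ∧ ‖v‖ ≤ ρ} := by
    refine (isCompact_closedBall (0 : X) ρ).of_isClosed_subset ?_ ?_
    · exact (isClosed_eq (J x0).continuous continuous_const).inter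
        (isClosed_le continuous_norm continuous_const)
    · rintro v ⟨-, hv⟩
      simpa using hv
  have hdKc : IsCompact {v : X | J x0 v = 0 ∧ ‖v‖ = ρ} := by
    refine (isCompact_closedBall (0 : X) ρ).of_isClosed_subset ?_ ?_
    · exact (isClosed_eq (J x0).continuous continuous_const).inter
        (isClosed_eq continuous_norm continuous_const)
    · rintro v ⟨-, hv⟩
      simp [hv]
  -- a positive gap on the boundary
  obtain ⟨m, hm0, hm⟩ : ∃ m : ℝ, 0 < m ∧ ∀ v, J x0 v = 0 → ‖v‖ = ρ → m ≤ ‖x0 + v‖ - ‖x0‖ := by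
    by_cases hne : {v : X | J x0 v = 0 ∧ ‖v‖ = ρ}.Nonempty
    · obtain ⟨v, hv, hmin⟩ := hdKc.exists_isMinOn hne
        (f := fun v => ‖x0 + v‖ - ‖x0‖) (by fun_prop)
      refine ⟨‖x0 + v‖ - ‖x0‖, ?_, fun w hw1 hw2 => hmin ⟨hw1, hw2⟩⟩
      have hv0 : v ≠ 0 := by
        rintro rfl
        have := hv.2
        rw [norm_zero] at this
        exact hρ0.ne this
      have := one_lt_of_J_eq_zero hd0 hv.1 hv0
      linarith
    · refine ⟨1, one_pos, fun v h1 h2 => absurd ⟨v, h1, h2⟩ hne⟩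
  obtain ⟨C, hC0⟩ := hdKc.exists_bound_of_continuousOn (f := q) hqc.continuousOn
  have hCq : ∀ v, J x0 v = 0 → ‖v‖ = ρ → q v ≤ |C| := fun v h1 h2 =>
    (le_abs_self _).trans ((hC0 v ⟨h1, h2⟩).trans (le_abs_self _))
  set ε := m / (2 * (|C| + 1)) with hε
  have hCp : 0 < |C| + 1 := by positivity
  have hε0 : 0 < ε := by positivity
  have hεC : ε * |C| < m := by
    have h1 : ε * (|C| + 1) = m / 2 := by
      rw [hε]
      field_simp
    nlinarith [abs_nonneg C]
  -- the minimiser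
  set g : X → ℝ := fun v => ‖x0 + v‖ - ε * q v with hg
  have hgc : Continuous g := by fun_prop
  obtain ⟨v1, ⟨hv1J, hv1n⟩, hv1min⟩ := hKc.exists_isMinOn
    ⟨0, by simp [hρ0.le]⟩ hgc.continuousOn
  have hg0 : g v1 ≤ ‖x0‖ := by
    have h1 : g v1 ≤ g 0 := hv1min (show (0 : X) ∈ {v : X | J x0 v = 0 ∧ ‖v‖ ≤ ρ} by
      simp [hρ0.le])
    have h2 : g 0 = ‖x0‖ := by simp [hg, hq]
    linarith
  have hv1lt : ‖v1‖ < ρ := by
    refine lt_of_le_of_ne hv1n fun h => ?_
    have h1 := hm v1 hv1J h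
    have h2 := hCq v1 hv1J h
    have h3 : ε * q v1 ≤ ε * |C| := by gcongr
    have h4 : g v1 = ‖x0 + v1‖ - ε * q v1 := rfl
    linarith
  set x1 := x0 + v1 with hx1
  have hx1U : x1 ∈ U := by
    apply hrU
    rw [mem_ball, dist_eq_norm, hx1]
    have : x0 + v1 - x0 = v1 := by abel
    rw [this]
    linarith
  have hC1 := hCat x1 hx1U
  have hx10 : x1 ≠ 0 := ne_zero_of_contDiffAt hC1
  -- second order condition
  have hpos : ∀ w, J x0 w = 0 → 2 * ε * q w ≤ fderiv ℝ J x1 w w := by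
    intro w hw
    have hline : ∀ t : ℝ, HasDerivAt (fun t : ℝ => x1 + t • w) w t := by
      intro t
      have := ((hasDerivAt_id t).smul_const w).const_add x1
      simpa using this
    have hline2 : ∀ t : ℝ, HasDerivAt (fun t : ℝ => L (v1 + t • w)) (L w) t := by
      intro t
      have h1 : HasDerivAt (fun t : ℝ => v1 + t • w) w t := by
        have := ((hasDerivAt_id t).smul_const w).const_add v1
        simpa using this
      exact (L.hasFDerivAt (x := v1 + t • w)).comp_hasDerivAt t h1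
    have hq' : ∀ t : ℝ, HasDerivAt (fun t : ℝ => q (v1 + t • w))
        (2 * inner ℝ (L (v1 + t • w)) (L w)) t := by
      intro t
      have := (hline2 t).inner ℝ (hline2 t)
      refine this.congr_deriv ?_
      rw [real_inner_comm (L w) (L (v1 + t • w))]
      ring
    have hcline : Continuous fun t : ℝ => x1 + t • w := by fun_prop
    have hevU : ∀ᶠ t in 𝓝 (0 : ℝ), x1 + t • w ∈ U := by
      apply hcline.continuousAt.eventually_mem
      rw [zero_smul, add_zero]
      exact hU.mem_nhds hx1U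
    have h1 : ∀ᶠ t in 𝓝 (0 : ℝ), HasDerivAt (fun t : ℝ => ‖x1 + t • w‖ - ε * q (v1 + t • w))
        (J (x1 + t • w) w - ε * (2 * inner ℝ (L (v1 + t • w)) (L w))) t := by
      filter_upwards [hevU] with t ht
      have h2 := (hasFDerivAt_norm_of_contDiffAt (hCat _ ht)).comp_hasDerivAt t (hline t)
      exact h2.sub ((hq' t).const_mul ε)
    have h2 : HasDerivAt (fun t : ℝ => J (x1 + t • w) w -
        ε * (2 * inner ℝ (L (v1 + t • w)) (L w)))
        (fderiv ℝ J x1 w w - ε * (2 * q w)) 0 := by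
      have h3 : HasFDerivAt J (fderiv ℝ J x1) (x1 + (0 : ℝ) • w) := by
        rw [zero_smul, add_zero]
        exact hasFDerivAt_J_of_two hC1
      have h4 : HasDerivAt (fun t : ℝ => J (x1 + t • w)) (fderiv ℝ J x1 w) 0 :=
        h3.comp_hasDerivAt (0 : ℝ) (hline 0)
      have h5 : HasDerivAt (fun t : ℝ => J (x1 + t • w) w) (fderiv ℝ J x1 w w) 0 := by
        have := h4.clm_apply (hasDerivAt_const (0 : ℝ) w)
        simpa using this
      have h6 : HasDerivAt (fun t : ℝ => inner ℝ (L (v1 + t • w)) (L w)) (q w) 0 := by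
        have := (hline2 0).inner ℝ (hasDerivAt_const (0 : ℝ) (L w))
        refine this.congr_deriv ?_
        simp [hq]
      exact h5.sub ((h6.const_mul 2).const_mul ε)
    have hmin : IsLocalMin (fun t : ℝ => ‖x1 + t • w‖ - ε * q (v1 + t • w)) 0 := by
      have hc : Continuous fun t : ℝ => ‖v1 + t • w‖ := by fun_prop
      have hev : ∀ᶠ t in 𝓝 (0 : ℝ), ‖v1 + t • w‖ < ρ := by
        refine hc.continuousAt.eventually_lt continuousAt_const ?_
        simpa using hv1lt
      filter_upwards [hev] with t ht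
      have h7 : g v1 ≤ g (v1 + t • w) := hv1min
        (show v1 + t • w ∈ {v : X | J x0 v = 0 ∧ ‖v‖ ≤ ρ} from
          ⟨by rw [map_add, map_smul, hv1J, hw]; simp, ht.le⟩)
      simp only [hg] at h7
      simp only [zero_smul, add_zero]
      rw [hx1, add_assoc]
      exact h7
    have := second_nonneg h1 h2 hmin
    linarith
  refine ⟨x1, hx1U, hx10, fun v hv hv0 => ?_⟩
  -- decomposition `v = a • x1 + w`
  have hJx1 : J x0 x1 = ‖x0‖ := by
    rw [hx1, map_add, hv1J, J_self hd0, add_zero]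
  have hn0 : ‖x0‖ ≠ 0 := norm_ne_zero_iff.2 hx00
  set a := J x0 v / ‖x0‖ with ha
  set w := v - a • x1 with hw
  have hJw : J x0 w = 0 := by
    rw [hw, map_sub, map_smul, hJx1, smul_eq_mul, ha]
    field_simp
    ring
  have hvw : v = a • x1 + w := by rw [hw]; abel
  have hw0 : w ≠ 0 := by
    intro h0
    rw [h0, add_zero] at hvw
    rw [hvw, map_smul, J_self (hC1.differentiableAt (by norm_num)), smul_eq_mul] at hv
    rcases mul_eq_zero.1 hv with h | h
    · rw [h, zero_smul] at hvw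
      exact hv0 hvw
    · exact hx10 (norm_eq_zero.1 h)
  have h1 : fderiv ℝ J x1 v v = fderiv ℝ J x1 w w := by
    have h2 : fderiv ℝ J x1 v = fderiv ℝ J x1 w := by
      rw [hvw, map_add, map_smul, hess_self hC1, smul_zero, zero_add]
    rw [h2, hess_symm hC1, h2]
  rw [h1]
  have := hpos w hJw
  have := hqpos w hw0
  have : 0 < 2 * ε * q w := by positivity
  linarith

/-- normalised form: a unit vector near which the norm is `C^2`, with positive Hessian. -/
theorem exists_pos_unit [FiniteDimensional ℝ X] [StrictConvexSpace ℝ X] [Nontrivial X]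
    (U : Set X) (hU : IsOpen U) (hne : U.Nonempty)
    (hC : ContDiffOn ℝ 2 (fun y : X => ‖y‖) U) :
    ∃ x1 : X, ‖x1‖ = 1 ∧ ContDiffAt ℝ 2 (fun y : X => ‖y‖) x1 ∧
      ∀ v, J x1 v = 0 → v ≠ 0 → 0 < fderiv ℝ J x1 v v := by
  obtain ⟨x, hxU, hx0, hpos⟩ := exists_pos_point U hU hne hC
  have hCx : ContDiffAt ℝ 2 (fun y : X => ‖y‖) x := hC.contDiffAt (hU.mem_nhds hxU)
  have hn : 0 < ‖x‖ := norm_pos_iff.2 hx0
  refine ⟨‖x‖⁻¹ • x, by simp [norm_smul, hn.ne'],
    hCx.contDiffAt_norm_smul (inv_ne_zero hn.ne'), fun v hv hv0 => ?_⟩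
  rw [J_smul_pos x (inv_pos.2 hn)] at hv
  have h1 := hpos v hv hv0
  -- `fderiv J (c • x) = c⁻¹ • fderiv J x`
  have h2 : HasFDerivAt (fun y : X => J (‖x‖ • y)) (‖x‖ • fderiv ℝ J x) (‖x‖⁻¹ • x) := by
    have h3 : HasFDerivAt J (fderiv ℝ J x) (‖x‖ • (‖x‖⁻¹ • x)) := by
      rw [smul_smul, mul_inv_cancel₀ hn.ne', one_smul]
      exact hasFDerivAt_J_of_two hCx
    have h4 : HasFDerivAt (fun y : X => ‖x‖ • y) (‖x‖ • ContinuousLinearMap.id ℝ X)
        (‖x‖⁻¹ • x) := (hasFDerivAt_id _).const_smul _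
    have h5 := h3.comp _ h4
    refine h5.congr_fderiv ?_
    ext u v
    simp
  have h6 : (fun y : X => J (‖x‖ • y)) = J := by
    funext y
    exact J_smul_pos y hn
  rw [h6] at h2
  rw [h2.fderiv]
  simp only [smul_apply, smul_eq_mul]
  positivity

end Vale.Agent.P084
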